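import Vale.Agent.P074.Defs

open MeasureTheory Set Filter
open scoped ENNReal NNReal InnerProductSpace Topology

namespace Vale.Agent.P074.BaryAux

variable {d : ℕ} {ι : Type}

theorem cell_subset (K : Set (Eu d)) (y : ι → Eu d) (ψ : ι → ℝ) (i : ι) :
    cell K y ψ i ⊆ K := fun _ hx => hx.1

theorem cell_compact {K : Set (Eu d)} (hK : IsCompact K) (y : ι → Eu d) (ψ : ι → ℝ) (i : ι) :
    IsCompact (cell K y ψ i) := by
  have h : cell K y ψ i = K ∩ ⋂ j, {x | ⟪x, y j⟫_ℝ - ψ j ≤ ⟪x, y i⟫_ℝ - ψ i} := by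
    ext x
    simp [cell]
  rw [h]
  refine hK.inter_right (isClosed_iInter fun j => ?_)
  exact isClosed_le (by fun_prop) (by fun_prop)

theorem iUnion_cell [Finite ι] [Nonempty ι] (K : Set (Eu d)) (y : ι → Eu d) (ψ : ι → ℝ) :
    ⋃ i, cell K y ψ i = K := by
  apply subset_antisymm (iUnion_subset fun i => cell_subset K y ψ i)
  intro x hx
  obtain ⟨i, hi⟩ := Finite.exists_max fun j => ⟪x, y j⟫_ℝ - ψ j
  exact mem_iUnion.2 ⟨i, hx, hi⟩

theorem null_hyper (v : Eu d) (hv : v ≠ 0) (t : ℝ) :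
    volume {x : Eu d | ⟪x, v⟫_ℝ = t} = 0 := by
  rcases Set.eq_empty_or_nonempty {x : Eu d | ⟪x, v⟫_ℝ = t} with h | ⟨x0, hx0⟩
  · rw [h]; simp
  have hx0' : ⟪x0, v⟫_ℝ = t := hx0
  let s : AffineSubspace ℝ (Eu d) := AffineSubspace.mk' x0 (LinearMap.ker (innerSL ℝ v).toLinearMap)
  have hs : (s : Set (Eu d)) = {x : Eu d | ⟪x, v⟫_ℝ = t} := by
    ext x
    simp only [s, SetLike.mem_coe, AffineSubspace.mem_mk', mem_ofPred_eq, vsub_eq_sub,
      LinearMap.mem_ker]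
    rw [← hx0']
    change ⟪v, x - x0⟫_ℝ = 0 ↔ _
    rw [inner_sub_right, real_inner_comm x v, real_inner_comm x0 v, sub_eq_zero]
  rw [← hs]
  apply Measure.addHaar_affineSubspace
  intro htop
  have h1 : x0 + v ∈ s := by rw [htop]; trivial
  have h2 : x0 + v ∈ {x : Eu d | ⟪x, v⟫_ℝ = t} := by rw [← hs]; exact h1
  have h3 : ⟪x0 + v, v⟫_ℝ = t := h2
  rw [inner_add_left, hx0', real_inner_self_eq_norm_sq] at h3
  have : ‖v‖ ^ 2 = 0 := by linarith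
  exact hv (norm_eq_zero.1 (pow_eq_zero_iff (two_ne_zero)|>.1 this))

theorem aedisjoint_cell {y : ι → Eu d} (hy : Function.Injective y) (K : Set (Eu d)) (ψ : ι → ℝ) :
    Pairwise (Function.onFun (AEDisjoint volume) fun i => cell K y ψ i) := by
  intro i j hij
  have hne : y i - y j ≠ 0 := sub_ne_zero.2 (hy.ne hij)
  refine measure_mono_null ?_ (null_hyper (y i - y j) hne (ψ i - ψ j))
  rintro x ⟨h1, h2⟩
  have e1 := h1.2 j
  have e2 := h2.2 i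
  simp only [mem_ofPred_eq, inner_sub_right]
  linarith

theorem integral_cells [Fintype ι] [Nonempty ι] {E : Type*} [NormedAddCommGroup E]
    [NormedSpace ℝ E] {K : Set (Eu d)} (hK : IsCompact K)
    {y : ι → Eu d} (hy : Function.Injective y) (ψ : ι → ℝ) {f : Eu d → E}
    (hf : IntegrableOn f K) :
    ∑ i, ∫ x in cell K y ψ i, f x = ∫ x in K, f x := by
  have h := integral_iUnion_ae (μ := volume) (s := fun i => cell K y ψ i) (f := f)
    (fun i => (cell_compact hK y ψ i).measurableSet.nullMeasurableSet)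
    (aedisjoint_cell hy K ψ) (by rw [iUnion_cell]; exact hf)
  rw [iUnion_cell, tsum_fintype] at h
  exact h.symm

theorem cell_mid {K : Set (Eu d)} (hc : Convex ℝ K) (y : ι → Eu d) (ψ0 ψ1 : ι → ℝ) (i : ι)
    {x0 x1 : Eu d} (h0 : x0 ∈ cell K y ψ0 i) (h1 : x1 ∈ cell K y ψ1 i) :
    (2 : ℝ)⁻¹ • (x0 + x1) ∈ cell K y (fun j => (ψ0 j + ψ1 j) / 2) i := by
  refine ⟨?_, fun j => ?_⟩
  · have := hc h0.1 h1.1 (a := (2 : ℝ)⁻¹) (b := (2 : ℝ)⁻¹) (by norm_num) (by norm_num)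
      (by norm_num)
    rwa [← smul_add] at this
  · have e0 := h0.2 j
    have e1 := h1.2 j
    simp only [real_inner_smul_left, inner_add_left]
    linarith

/-- Prékopa–Leindler for integrals over sets. -/
theorem pl_sets (hPL : S_PL) {A B M : Set (Eu d)} (hA : MeasurableSet A) (hB : MeasurableSet B)
    (hM : MeasurableSet M) {f g h : Eu d → ℝ} (hf : Continuous f) (hg : Continuous g)
    (hh : Continuous h) (hf0 : ∀ x, 0 ≤ f x) (hg0 : ∀ x, 0 ≤ g x) (hh0 : ∀ x, 0 ≤ h x)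
    (hfA : IntegrableOn f A) (hgB : IntegrableOn g B) (hhM : IntegrableOn h M)
    (hmid : ∀ x ∈ A, ∀ y ∈ B, (2 : ℝ)⁻¹ • (x + y) ∈ M)
    (H : ∀ x ∈ A, ∀ y ∈ B, f x * g y ≤ h ((2 : ℝ)⁻¹ • (x + y)) ^ 2) :
    (∫ x in A, f x) * (∫ x in B, g x) ≤ (∫ x in M, h x) ^ 2 := by
  have key := hPL d (A.indicator fun x => ENNReal.ofReal (f x))
    (B.indicator fun x => ENNReal.ofReal (g x)) (M.indicator fun x => ENNReal.ofReal (h x))
    (hf.measurable.ennreal_ofReal.indicator hA) (hg.measurable.ennreal_ofReal.indicator hB)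
    (hh.measurable.ennreal_ofReal.indicator hM) ?_
  · rw [lintegral_indicator hA, lintegral_indicator hB, lintegral_indicator hM,
      ← ofReal_integral_eq_lintegral_ofReal hfA (ae_of_all _ hf0),
      ← ofReal_integral_eq_lintegral_ofReal hgB (ae_of_all _ hg0),
      ← ofReal_integral_eq_lintegral_ofReal hhM (ae_of_all _ hh0),
      ← ENNReal.ofReal_mul (integral_nonneg hf0),
      ← ENNReal.ofReal_pow (integral_nonneg hh0),
      ENNReal.ofReal_le_ofReal_iff (sq_nonneg _)] at key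
    exact key
  · intro x y
    by_cases hx : x ∈ A
    · by_cases hy : y ∈ B
      · rw [indicator_of_mem hx, indicator_of_mem hy, indicator_of_mem (hmid x hx y hy),
          ← ENNReal.ofReal_mul (hf0 x), ← ENNReal.ofReal_pow (hh0 _)]
        exact ENNReal.ofReal_le_ofReal (H x hx y hy)
      · rw [indicator_of_notMem hy]; simp
    · rw [indicator_of_notMem hx]; simp

theorem exp_quad {t : ℝ} (ht : |t| ≤ 1) : 1 - t + t ^ 2 / 3 ≤ Real.exp (-t) := by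
  have h := abs_le.1 ht
  rcases le_total t 0 with h0 | h0
  · have := Real.quadratic_le_exp_of_nonneg (x := -t) (by linarith)
    nlinarith [sq_nonneg t]
  · have h1 := Real.exp_bound (x := -t) (by rwa [abs_neg]) (n := 5) (by norm_num)
    have h2 := (abs_le.1 h1).1
    rw [abs_neg, abs_of_nonneg h0] at h2
    simp only [Finset.sum_range_succ, Finset.sum_range_zero, Nat.factorial] at h2
    norm_num at h2
    have h3 : 0 ≤ t ^ 2 * (1 - t) := by have := h.2; positivity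
    have h4 : 0 ≤ t ^ 4 * (1 - t) := by have := h.2; positivity
    have h5 : 0 ≤ t ^ 4 := by positivity
    nlinarith

theorem exp_le_aux {u : ℝ} (hu : u ≤ 1 / 40) : Real.exp u ≤ 11 / 10 := by
  have h1 := Real.add_one_le_exp (-(1 / 40) : ℝ)
  rw [Real.exp_neg] at h1
  have h2 : Real.exp u ≤ Real.exp (1 / 40) := Real.exp_le_exp.2 hu
  have h3 : 0 < Real.exp (1 / 40 : ℝ) := Real.exp_pos _
  have h4 : (39 / 40 : ℝ) * Real.exp (1 / 40) ≤ 1 := by
    calc (39 / 40 : ℝ) * Real.exp (1 / 40) ≤ (Real.exp (1 / 40))⁻¹ * Real.exp (1 / 40) := by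
          apply mul_le_mul_of_nonneg_right _ h3.le
          linarith
      _ = 1 := inv_mul_cancel₀ h3.ne'
  linarith

theorem exp_sub_le {u v : ℝ} (hu : u ≤ 1 / 40) (hv : v ≤ 1 / 40) :
    |Real.exp u - Real.exp v| ≤ 11 / 10 * |u - v| := by
  have key : ∀ a b : ℝ, b ≤ a → a ≤ 1 / 40 → |Real.exp a - Real.exp b| ≤ 11 / 10 * |a - b| := by
    intro a b hab ha
    have h1 := Real.add_one_le_exp (b - a)
    rw [Real.exp_sub] at h1
    have h2 := Real.exp_pos a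
    have h3 : (b - a + 1) * Real.exp a ≤ Real.exp b := by
      rwa [le_div_iff₀ h2] at h1
    have h4 := exp_le_aux ha
    rw [abs_of_nonneg (sub_nonneg.2 (Real.exp_le_exp.2 hab)), abs_of_nonneg (sub_nonneg.2 hab)]
    nlinarith
  rcases le_total v u with h | h
  · exact key u v h hu
  · rw [abs_sub_comm, abs_sub_comm u v]; exact key v u h hv

/-- pointwise lower bound -/
theorem exp_point {V l : ℝ} (hV0 : 0 ≤ V) (hV1 : V ≤ 1 / 40) (hl : |l| ≤ 1 / 2) :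
    Real.exp (-V) - l + l ^ 2 / 3 ≤ Real.exp (-V - Real.exp V * l) := by
  have hE := exp_le_aux hV1
  have hE1 : 1 ≤ Real.exp V := Real.one_le_exp hV0
  have h1 : |Real.exp V * l| ≤ 1 := by
    rw [abs_mul, abs_of_pos (Real.exp_pos _)]
    nlinarith [abs_nonneg l, Real.exp_pos V]
  have h2 := exp_quad h1
  have h3 : Real.exp (-V - Real.exp V * l) = Real.exp (-V) * Real.exp (-(Real.exp V * l)) := by
    rw [← Real.exp_add]; ring_nf
  have h4 : Real.exp (-V) * Real.exp V = 1 := by rw [← Real.exp_add]; simp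
  have h5 : 0 < Real.exp (-V) := Real.exp_pos _
  rw [h3]
  calc Real.exp (-V) - l + l ^ 2 / 3 ≤ Real.exp (-V) - l + Real.exp V * l ^ 2 / 3 := by
        nlinarith [sq_nonneg l]
    _ = Real.exp (-V) * (1 - Real.exp V * l + (Real.exp V * l) ^ 2 / 3) := by
        have : Real.exp (-V) * (1 - Real.exp V * l + (Real.exp V * l) ^ 2 / 3)
          = Real.exp (-V) - (Real.exp (-V) * Real.exp V) * l
            + (Real.exp (-V) * Real.exp V) * Real.exp V * l ^ 2 / 3 := by ring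
        rw [this, h4]; ring
    _ ≤ _ := mul_le_mul_of_nonneg_left h2 h5.le

theorem alg_pos {n0 Z0 a0 Y c : ℝ} (hn0 : 0 < n0)
    (hZ0 : 39 / 40 * n0 ≤ Z0) (hY : 0 ≤ Y) (ha0 : 0 ≤ a0) (hc2 : |c| ≤ 1 / 2) :
    0 < Z0 - (c * n0 - Y / 400) + a0 / 3 := by
  obtain ⟨hcl, hcu⟩ := abs_le.1 hc2
  have : c * n0 ≤ 1 / 2 * n0 := mul_le_mul_of_nonneg_right hcu hn0.le
  linarith

theorem alg_H {p q S w s H : ℝ} (hp : 0 < p) (hq : 0 < q) (hs0 : 0 ≤ s) (hH : 0 ≤ H)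
    (hS : S = (p + q) / 2) (hw : w = (p - q) ^ 2 / (4 * S))
    (hpq : Real.exp (-s) ^ 2 * (p * q) ≤ H ^ 2) : S - s * S - w ≤ H := by
  have hSpos : 0 < S := by rw [hS]; linarith
  have hw0 : 0 ≤ w := by rw [hw]; positivity
  have hSw : S * (S - w) = p * q := by
    rw [hw]
    have hpq' : p + q ≠ 0 := by positivity
    rw [hS]
    field_simp
    ring
  have hSw0 : 0 < S - w := by
    have : 0 < S * (S - w) := by rw [hSw]; positivity
    exact (mul_pos_iff_of_pos_left hSpos).1 this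
  have hE : 0 < Real.exp (-s) := Real.exp_pos _
  have h1 : Real.exp (-s) * (S - w) ≤ H := by
    apply le_of_sq_le_sq _ hH
    calc (Real.exp (-s) * (S - w)) ^ 2 = Real.exp (-s) ^ 2 * ((S - w) * (S - w)) := by ring
      _ ≤ Real.exp (-s) ^ 2 * (S * (S - w)) := by
          apply mul_le_mul_of_nonneg_left _ (by positivity)
          apply mul_le_mul_of_nonneg_right _ hSw0.le
          linarith
      _ = Real.exp (-s) ^ 2 * (p * q) := by rw [hSw]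
      _ ≤ H ^ 2 := hpq
  have h2 : 1 - s ≤ Real.exp (-s) := by
    have := Real.add_one_le_exp (-s); linarith
  have h3 : (1 - s) * (S - w) ≤ H := le_trans (mul_le_mul_of_nonneg_right h2 hSw0.le) h1
  have h5 : 0 ≤ s * w := mul_nonneg hs0 hw0
  have h6 : (1 - s) * (S - w) = S - s * S - w + s * w := by ring
  linarith

theorem alg {n0 n1 Z0 Z1 a0 a1 Y c H s p q N : ℝ} (hn0 : 0 < n0) (hn1 : 0 < n1)
    (hN : N = n0 + n1) (hn : |n1 - n0| ≤ n1 / 4)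
    (hZ0 : 39 / 40 * n0 ≤ Z0) (hZ0' : Z0 ≤ n0) (hZ1 : 39 / 40 * n1 ≤ Z1) (hZ1' : Z1 ≤ n1)
    (hc : c * N = Z0 - Z1) (hY : 0 ≤ Y) (hY' : Y ≤ 4 * N)
    (ha0 : 0 ≤ a0) (ha1 : 0 ≤ a1) (hcN : c ^ 2 * N ≤ a0 + a1) (haN : a0 + a1 ≤ N / 4)
    (hc2 : |c| ≤ 1 / 2)
    (hp : p = Z0 - (c * n0 - Y / 400) + a0 / 3)
    (hq : q = Z1 + (c * n1 + Y / 400) + a1 / 3)
    (hs0 : 0 ≤ s) (hs : s * N ≤ 74 / 100000 * Y + 605 / 10000 * (c ^ 2 * N))
    (hH : 0 ≤ H) (hpq : Real.exp (-s) ^ 2 * (p * q) ≤ H ^ 2) :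
    Y / 800 ≤ H - (Z0 + Z1) / 2 + (n1 - n0) ^ 2 / N := by
  have hNpos : 0 < N := by linarith
  have hppos : 0 < p := by
    rw [hp]; exact alg_pos hn0 hZ0 hY ha0 hc2
  have hqpos : 0 < q := by
    have := alg_pos (c := -c) hn1 hZ1 hY ha1 (by rwa [abs_neg])
    rw [hq]; linarith
  obtain ⟨S, hS⟩ : ∃ S, S = (p + q) / 2 := ⟨_, rfl⟩
  have hSpos : 0 < S := by rw [hS]; linarith
  obtain ⟨w, hw⟩ : ∃ w, w = (p - q) ^ 2 / (4 * S) := ⟨_, rfl⟩
  have h4 : S - s * S - w ≤ H := alg_H hppos hqpos hs0 hH hS hw hpq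
  -- S formula
  have hSf : S = (Z0 + Z1) / 2 + c * (n1 - n0) / 2 + Y / 400 + (a0 + a1) / 6 := by
    rw [hS, hp, hq]; ring
  have hcn : |c * (n1 - n0)| ≤ N / 8 := by
    rw [abs_mul]
    calc |c| * |n1 - n0| ≤ 1 / 2 * (n1 / 4) := by
          apply mul_le_mul hc2 hn (abs_nonneg _) (by norm_num)
      _ ≤ N / 8 := by linarith
  obtain ⟨hcnl, hcnu⟩ := abs_le.1 hcn
  have hSl : 2 / 5 * N ≤ S := by rw [hSf]; linarith
  have hSu : S ≤ N := by rw [hSf]; linarith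
  have hsS : s * S ≤ s * N := mul_le_mul_of_nonneg_left hSu hs0
  -- w bound
  have hpmq : p - q = (a0 - a1) / 3 := by
    rw [hp, hq]
    have : Z0 - Z1 = c * (n0 + n1) := by rw [← hN]; linarith
    linarith
  have hw1 : w ≤ 5 / 288 * (a0 + a1) := by
    rw [hw, div_le_iff₀ (by positivity), hpmq]
    have e0 : 0 ≤ a0 * a1 := mul_nonneg ha0 ha1
    have e1 : (a0 - a1) ^ 2 ≤ (a0 + a1) ^ 2 := by
      linarith [(by ring : (a0 + a1) ^ 2 - (a0 - a1) ^ 2 = 4 * (a0 * a1))]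
    have e2 : (a0 + a1) ^ 2 ≤ (a0 + a1) * (N / 4) := by
      rw [sq]; exact mul_le_mul_of_nonneg_left haN (by linarith)
    have e3 : (a0 + a1) * (2 / 5 * N) ≤ (a0 + a1) * S :=
      mul_le_mul_of_nonneg_left hSl (by linarith)
    have e4 : ((a0 - a1) / 3) ^ 2 = (a0 - a1) ^ 2 / 9 := by ring
    rw [e4]
    linarith
  -- cross term
  have hcross : -(c ^ 2 * N / 16) - (n1 - n0) ^ 2 / N ≤ c * (n1 - n0) / 2 := by
    have : 0 ≤ (c * N / 4 + (n1 - n0)) ^ 2 / N := by positivity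
    have e : (c * N / 4 + (n1 - n0)) ^ 2 / N
      = c ^ 2 * N / 16 + c * (n1 - n0) / 2 + (n1 - n0) ^ 2 / N := by
      field_simp; ring
    linarith
  have hcN0 : 0 ≤ c ^ 2 * N := by positivity
  rw [hSf] at h4
  rw [hSf] at hsS
  linarith

theorem intOn {E : Type*} [NormedAddCommGroup E] {A : Set (Eu d)} (hA : IsCompact A)
    {f : Eu d → E} (hf : Continuous f) : IntegrableOn f A :=
  hf.continuousOn.integrableOn_compact hA

/-- The quadratic weight. -/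
noncomputable def VV (R : ℝ) (x : Eu d) : ℝ := ‖x‖ ^ 2 / (40 * R ^ 2)

theorem VV_nonneg (R : ℝ) (x : Eu d) : 0 ≤ VV R x := by unfold VV; positivity

theorem VV_le {R : ℝ} (hR : 0 < R) {x : Eu d} (hx : ‖x‖ ≤ R) : VV R x ≤ 1 / 40 := by
  unfold VV
  rw [div_le_iff₀ (by positivity)]
  have : ‖x‖ ^ 2 ≤ R ^ 2 := pow_le_pow_left₀ (norm_nonneg _) hx 2
  linarith

theorem VV_cont (R : ℝ) : Continuous (VV (d := d) R) := by unfold VV; fun_prop

theorem VV_mid {R : ℝ} (hR : 0 < R) (x y : Eu d) :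
    VV R x + VV R y = 2 * VV R ((2 : ℝ)⁻¹ • (x + y)) + ‖y - x‖ ^ 2 / (80 * R ^ 2) := by
  unfold VV
  have h := parallelogram_law_with_norm ℝ y x
  have e : ‖(2 : ℝ)⁻¹ • (x + y)‖ = ‖y + x‖ / 2 := by
    rw [norm_smul, add_comm x y]; norm_num; ring
  rw [e]
  field_simp
  nlinarith

theorem VV_lip {R : ℝ} (hR : 0 < R) {x y : Eu d} (hx : ‖x‖ ≤ R) (hy : ‖y‖ ≤ R) :
    |VV R y - VV R x| ≤ ‖y - x‖ / (20 * R) := by
  unfold VV
  have h1 : |‖y‖ - ‖x‖| ≤ ‖y - x‖ := abs_norm_sub_norm_le y x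
  have h2 : ‖y‖ ^ 2 / (40 * R ^ 2) - ‖x‖ ^ 2 / (40 * R ^ 2)
      = (‖y‖ - ‖x‖) * ((‖y‖ + ‖x‖) / (40 * R ^ 2)) := by ring
  rw [h2, abs_mul, abs_of_nonneg (by positivity : 0 ≤ (‖y‖ + ‖x‖) / (40 * R ^ 2))]
  calc |‖y‖ - ‖x‖| * ((‖y‖ + ‖x‖) / (40 * R ^ 2))
      ≤ ‖y - x‖ * ((R + R) / (40 * R ^ 2)) := by
        apply mul_le_mul h1 _ (by positivity) (norm_nonneg _)
        gcongr
    _ = ‖y - x‖ / (20 * R) := by field_simp; ring

/-- Lipschitz bound for `e^V l`. -/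
theorem alpha_lip {R : ℝ} (hR : 0 < R) (c : ℝ) (z w : Eu d) (hw : ‖w‖ ≤ R)
    {x y : Eu d} (hx : ‖x‖ ≤ R) (hy : ‖y‖ ≤ R) :
    Real.exp (VV R y) * (c + ⟪z, y - w⟫_ℝ) - Real.exp (VV R x) * (c + ⟪z, x - w⟫_ℝ)
      ≤ 11 / 10 * (11 / 10 * ‖z‖ + |c| / (20 * R)) * ‖y - x‖ := by
  have e1 : Real.exp (VV R y) * (c + ⟪z, y - w⟫_ℝ) - Real.exp (VV R x) * (c + ⟪z, x - w⟫_ℝ)
      = (Real.exp (VV R y) - Real.exp (VV R x)) * (c + ⟪z, y - w⟫_ℝ)
        + Real.exp (VV R x) * ⟪z, y - x⟫_ℝ := by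
    have : ⟪z, y - x⟫_ℝ = ⟪z, y - w⟫_ℝ - ⟪z, x - w⟫_ℝ := by
      rw [← inner_sub_right]; congr 1; abel
    rw [this]; ring
  have h1 := exp_sub_le (VV_le hR hy) (VV_le hR hx)
  have h2 := VV_lip hR hx hy
  have h3 : |c + ⟪z, y - w⟫_ℝ| ≤ |c| + ‖z‖ * (2 * R) := by
    refine (abs_add_le _ _).trans (add_le_add le_rfl ?_)
    refine (abs_real_inner_le_norm _ _).trans (mul_le_mul_of_nonneg_left ?_ (norm_nonneg _))
    refine (norm_sub_le _ _).trans ?_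
    linarith
  have h4 : ⟪z, y - x⟫_ℝ ≤ ‖z‖ * ‖y - x‖ := real_inner_le_norm _ _
  have h5 := exp_le_aux (VV_le hR hx)
  rw [e1]
  have h6 : (Real.exp (VV R y) - Real.exp (VV R x)) * (c + ⟪z, y - w⟫_ℝ)
      ≤ (11 / 10 * (‖y - x‖ / (20 * R))) * (|c| + ‖z‖ * (2 * R)) := by
    refine (le_abs_self _).trans ?_
    rw [abs_mul]
    refine mul_le_mul (h1.trans ?_) h3 (abs_nonneg _) (by positivity)
    gcongr
  have h7 : Real.exp (VV R x) * ⟪z, y - x⟫_ℝ ≤ 11 / 10 * (‖z‖ * ‖y - x‖) := by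
    calc Real.exp (VV R x) * ⟪z, y - x⟫_ℝ ≤ Real.exp (VV R x) * (‖z‖ * ‖y - x‖) :=
          mul_le_mul_of_nonneg_left h4 (Real.exp_pos _).le
      _ ≤ _ := mul_le_mul_of_nonneg_right h5 (by positivity)
  have h8 : (11 / 10 * (‖y - x‖ / (20 * R))) * (|c| + ‖z‖ * (2 * R)) + 11 / 10 * (‖z‖ * ‖y - x‖)
      = 11 / 10 * (11 / 10 * ‖z‖ + |c| / (20 * R)) * ‖y - x‖ := by
    field_simp; ring
  linarith

theorem local_PL (hPL : S_PL) {A B M : Set (Eu d)} {R : ℝ} (hR : 0 < R) (hA : IsCompact A)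
    (hB : IsCompact B) (hM : IsCompact M) (hAR : ∀ x ∈ A, ‖x‖ ≤ R) (hBR : ∀ x ∈ B, ‖x‖ ≤ R)
    (hmid : ∀ x ∈ A, ∀ y ∈ B, (2 : ℝ)⁻¹ • (x + y) ∈ M) (c : ℝ) (z w : Eu d) (hw : ‖w‖ ≤ R)
    (L s : ℝ) (hL : L = 11 / 10 * (11 / 10 * ‖z‖ + |c| / (20 * R))) (hs : s = 10 * R ^ 2 * L ^ 2) :
    Real.exp (-s) ^ 2 *
      ((∫ x in A, Real.exp (-VV R x - Real.exp (VV R x) * (c + ⟪z, x - w⟫_ℝ))) *
       (∫ x in B, Real.exp (-VV R x - Real.exp (VV R x) * (-(c + ⟪z, x - w⟫_ℝ)))))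
      ≤ (∫ x in M, Real.exp (-VV R x)) ^ 2 := by
  have hVc := VV_cont (d := d) R
  have hcf : Continuous fun x : Eu d =>
      Real.exp (-VV R x - Real.exp (VV R x) * (c + ⟪z, x - w⟫_ℝ)) := by fun_prop
  have hcg : Continuous fun x : Eu d =>
      Real.exp (-VV R x - Real.exp (VV R x) * (-(c + ⟪z, x - w⟫_ℝ))) := by fun_prop
  have hch : Continuous fun x : Eu d => Real.exp (-VV R x) := by fun_prop
  have hcf' : Continuous fun x : Eu d =>
      Real.exp (-s) * Real.exp (-VV R x - Real.exp (VV R x) * (c + ⟪z, x - w⟫_ℝ)) :=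
    continuous_const.mul hcf
  have hcg' : Continuous fun x : Eu d =>
      Real.exp (-s) * Real.exp (-VV R x - Real.exp (VV R x) * (-(c + ⟪z, x - w⟫_ℝ))) :=
    continuous_const.mul hcg
  have key := pl_sets hPL hA.measurableSet hB.measurableSet hM.measurableSet
    (f := fun x => Real.exp (-s) * Real.exp (-VV R x - Real.exp (VV R x) * (c + ⟪z, x - w⟫_ℝ)))
    (g := fun x => Real.exp (-s) * Real.exp (-VV R x - Real.exp (VV R x) * (-(c + ⟪z, x - w⟫_ℝ))))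
    (h := fun x => Real.exp (-VV R x))
    hcf' hcg' hch
    (fun x => by positivity) (fun x => by positivity) (fun x => by positivity)
    (intOn hA hcf') (intOn hB hcg') (intOn hM hch) hmid ?_
  · rw [integral_const_mul, integral_const_mul] at key
    calc _ = _ := by ring
      _ ≤ _ := key
  · intro x hx y hy
    have h1 := alpha_lip hR c z w hw (hAR x hx) (hBR y hy)
    rw [← hL] at h1
    have h2 := VV_mid hR x y
    rw [← Real.exp_add, ← Real.exp_add, ← Real.exp_add, ← Real.exp_nat_mul]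
    apply Real.exp_le_exp.2
    have h3 : L * ‖y - x‖ ≤ 2 * s + ‖y - x‖ ^ 2 / (80 * R ^ 2) := by
      have h4 : 0 ≤ (40 * R ^ 2 * L - ‖y - x‖) ^ 2 / (80 * R ^ 2) := by positivity
      have h5 : (40 * R ^ 2 * L - ‖y - x‖) ^ 2 / (80 * R ^ 2)
        = 20 * R ^ 2 * L ^ 2 - L * ‖y - x‖ + ‖y - x‖ ^ 2 / (80 * R ^ 2) := by
        field_simp; ring
      rw [hs]; linarith
    push_cast
    linarith

theorem lower_P {A : Set (Eu d)} {R : ℝ} (hR : 0 < R) (hA : IsCompact A)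
    (hAR : ∀ x ∈ A, ‖x‖ ≤ R) {l : Eu d → ℝ} (hl : Continuous l) (hl2 : ∀ x ∈ A, |l x| ≤ 1 / 2) :
    (∫ x in A, Real.exp (-VV R x)) - (∫ x in A, l x) + (∫ x in A, (l x) ^ 2) / 3
      ≤ ∫ x in A, Real.exp (-VV R x - Real.exp (VV R x) * l x) := by
  have hVc := VV_cont (d := d) R
  have h1 : Continuous fun x : Eu d => Real.exp (-VV R x) := by fun_prop
  have h2 : Continuous fun x : Eu d => (l x) ^ 2 := by fun_prop
  have h3 : Continuous fun x : Eu d => (l x) ^ 2 / 3 := by fun_prop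
  have h4 : Continuous fun x : Eu d => Real.exp (-VV R x) - l x := by fun_prop
  rw [← integral_sub (intOn hA h1) (intOn hA hl), ← integral_div,
    ← integral_add (intOn hA h4) (intOn hA h3)]
  refine setIntegral_mono_on (intOn hA (by fun_prop)) (intOn hA (by fun_prop))
    hA.measurableSet fun x hx => ?_
  exact exp_point (VV_nonneg R x) (VV_le hR (hAR x hx)) (hl2 x hx)

theorem int_one {A : Set (Eu d)} (c : ℝ) : ∫ _x in A, c = c * ∫ _x in A, (1 : ℝ) := by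
  rw [← integral_const_mul]; simp

theorem Z_bounds {A : Set (Eu d)} {R : ℝ} (hR : 0 < R) (hA : IsCompact A)
    (hAR : ∀ x ∈ A, ‖x‖ ≤ R) :
    39 / 40 * (∫ _x in A, (1 : ℝ)) ≤ ∫ x in A, Real.exp (-VV R x) ∧
    ∫ x in A, Real.exp (-VV R x) ≤ ∫ _x in A, (1 : ℝ) := by
  have hVc := VV_cont (d := d) R
  constructor
  · rw [← int_one]
    refine setIntegral_mono_on (intOn hA (by fun_prop)) (intOn hA (by fun_prop))
      hA.measurableSet fun x hx => ?_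
    have := Real.add_one_le_exp (-VV R x)
    have := VV_le hR (hAR x hx)
    linarith
  · refine setIntegral_mono_on (intOn hA (by fun_prop)) (intOn hA (by fun_prop))
      hA.measurableSet fun x hx => ?_
    rw [Real.exp_le_one_iff]
    have := VV_nonneg R x
    linarith

theorem int_affine {A : Set (Eu d)} (hA : IsCompact A) (c : ℝ) (z w : Eu d) :
    ∫ x in A, (c + ⟪z, x - w⟫_ℝ)
      = c * (∫ _x in A, (1 : ℝ)) + ⟪z, (∫ x in A, x) - (∫ _x in A, (1 : ℝ)) • w⟫_ℝ := by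
  have h1 : Continuous fun x : Eu d => ⟪z, x - w⟫_ℝ := by fun_prop
  rw [integral_add (intOn hA continuous_const) (intOn hA h1), int_one,
    integral_inner (intOn hA (by fun_prop : Continuous fun x : Eu d => x - w)),
    integral_sub (intOn hA (by fun_prop : Continuous fun x : Eu d => x))
      (intOn hA continuous_const)]
  congr 3
  simp

theorem int_sq_lower {A : Set (Eu d)} (hA : IsCompact A) (c : ℝ) (z w : Eu d) :
    c ^ 2 * (∫ _x in A, (1 : ℝ)) + 2 * c * ⟪z, (∫ x in A, x) - (∫ _x in A, (1 : ℝ)) • w⟫_ℝ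
      ≤ ∫ x in A, (c + ⟪z, x - w⟫_ℝ) ^ 2 := by
  have h1 := int_affine hA c z w
  have h2 : ∫ x in A, (2 * c * (c + ⟪z, x - w⟫_ℝ) - c ^ 2)
      = 2 * c * (c * (∫ _x in A, (1 : ℝ)) + ⟪z, (∫ x in A, x) - (∫ _x in A, (1 : ℝ)) • w⟫_ℝ)
        - c ^ 2 * (∫ _x in A, (1 : ℝ)) := by
    rw [integral_sub (intOn hA (by fun_prop)) (intOn hA (by fun_prop)), integral_const_mul, h1,
      int_one (c ^ 2)]
  have h3 : ∫ x in A, (2 * c * (c + ⟪z, x - w⟫_ℝ) - c ^ 2)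
      ≤ ∫ x in A, (c + ⟪z, x - w⟫_ℝ) ^ 2 := by
    refine setIntegral_mono_on (intOn hA (by fun_prop)) (intOn hA (by fun_prop))
      hA.measurableSet fun x _ => ?_
    nlinarith [sq_nonneg (⟪z, x - w⟫_ℝ)]
  rw [h2] at h3
  linarith

theorem int_sq_upper {A : Set (Eu d)} (hA : IsCompact A) {l : Eu d → ℝ} (hl : Continuous l)
    (hl2 : ∀ x ∈ A, |l x| ≤ 1 / 2) :
    ∫ x in A, (l x) ^ 2 ≤ 1 / 4 * ∫ _x in A, (1 : ℝ) := by
  rw [← int_one]
  refine setIntegral_mono_on (intOn hA (by fun_prop)) (intOn hA (by fun_prop))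
    hA.measurableSet fun x hx => ?_
  have h := hl2 x hx
  calc l x ^ 2 = |l x| ^ 2 := (sq_abs _).symm
    _ ≤ (1 / 2) ^ 2 := pow_le_pow_left₀ (abs_nonneg _) h 2
    _ = 1 / 4 := by norm_num

theorem norm_int_le {A : Set (Eu d)} {R : ℝ} (hA : IsCompact A) (hAR : ∀ x ∈ A, ‖x‖ ≤ R) :
    ‖∫ x in A, x‖ ≤ R * ∫ _x in A, (1 : ℝ) := by
  have h := norm_setIntegral_le_of_norm_le_const (μ := volume) (f := fun x : Eu d => x)
    hA.measure_lt_top (C := R) hAR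
  simpa [measureReal_def] using h

theorem local_main (hPL : S_PL) {A B M : Set (Eu d)} {R : ℝ} (hR : 0 < R) (hA : IsCompact A)
    (hB : IsCompact B) (hM : IsCompact M) (hAR : ∀ x ∈ A, ‖x‖ ≤ R) (hBR : ∀ x ∈ B, ‖x‖ ≤ R)
    (hmid : ∀ x ∈ A, ∀ y ∈ B, (2 : ℝ)⁻¹ • (x + y) ∈ M) {n0 n1 : ℝ}
    (hn0 : ∫ _x in A, (1 : ℝ) = n0) (hn1 : ∫ _x in B, (1 : ℝ) = n1) (h0 : 0 < n0) (h1 : 0 < n1)
    (hn : |n1 - n0| ≤ n1 / 4) {g0 g1 w D : Eu d} (hg0 : ∫ x in A, x = g0)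
    (hg1 : ∫ x in B, x = g1) (hw : w = (n0 + n1)⁻¹ • (g0 + g1))
    (hD : D = (g1 - n1 • w) - (g0 - n0 • w)) :
    ‖D‖ ^ 2 / (R ^ 2 * (n0 + n1)) / 800 ≤
      (∫ x in M, Real.exp (-VV R x)) -
        ((∫ x in A, Real.exp (-VV R x)) + (∫ x in B, Real.exp (-VV R x))) / 2
        + (n1 - n0) ^ 2 / (n0 + n1) := by
  obtain ⟨N, hN⟩ : ∃ N, N = n0 + n1 := ⟨_, rfl⟩
  have hNpos : 0 < N := by linarith
  rw [← hN] at hw ⊢
  have hg0n : ‖g0‖ ≤ R * n0 := by rw [← hg0, ← hn0]; exact norm_int_le hA hAR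
  have hg1n : ‖g1‖ ≤ R * n1 := by rw [← hg1, ← hn1]; exact norm_int_le hB hBR
  have hwn : ‖w‖ ≤ R := by
    rw [hw, norm_smul, norm_inv, Real.norm_of_nonneg hNpos.le]
    rw [inv_mul_le_iff₀ hNpos]
    calc ‖g0 + g1‖ ≤ ‖g0‖ + ‖g1‖ := norm_add_le _ _
      _ ≤ R * n0 + R * n1 := add_le_add hg0n hg1n
      _ = N * R := by rw [hN]; ring
  have hsum : (g0 - n0 • w) + (g1 - n1 • w) = 0 := by
    have : N • w = g0 + g1 := by rw [hw, smul_smul, mul_inv_cancel₀ hNpos.ne', one_smul]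
    rw [hN, add_smul] at this
    have e : (g0 - n0 • w) + (g1 - n1 • w) = (g0 + g1) - (n0 • w + n1 • w) := by abel
    rw [e, this, sub_self]
  have hD0 : g0 - n0 • w = -((2 : ℝ)⁻¹ • D) := by
    have e1 : g1 - n1 • w = -(g0 - n0 • w) := by
      rw [eq_neg_iff_add_eq_zero, add_comm]; exact hsum
    rw [hD, e1]
    module
  have hD1 : g1 - n1 • w = (2 : ℝ)⁻¹ • D := by
    have e1 : g1 - n1 • w = -(g0 - n0 • w) := by
      rw [eq_neg_iff_add_eq_zero, add_comm]; exact hsum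
    rw [e1, hD0, neg_neg]
  have hDn : ‖D‖ ≤ 2 * R * N := by
    have e0 : ‖g0 - n0 • w‖ ≤ 2 * R * n0 := by
      refine (norm_sub_le _ _).trans ?_
      rw [norm_smul, Real.norm_of_nonneg h0.le]
      nlinarith
    have e1 : ‖g1 - n1 • w‖ ≤ 2 * R * n1 := by
      refine (norm_sub_le _ _).trans ?_
      rw [norm_smul, Real.norm_of_nonneg h1.le]
      nlinarith
    rw [hD, hN]
    refine (norm_sub_le _ _).trans ?_
    linarith
  obtain ⟨Y, hY⟩ : ∃ Y, Y = ‖D‖ ^ 2 / (R ^ 2 * N) := ⟨_, rfl⟩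
  have hY0 : 0 ≤ Y := by rw [hY]; positivity
  have hY4 : Y ≤ 4 * N := by
    rw [hY, div_le_iff₀ (by positivity)]
    calc ‖D‖ ^ 2 ≤ (2 * R * N) ^ 2 := pow_le_pow_left₀ (norm_nonneg _) hDn 2
      _ = _ := by ring
  obtain ⟨z, hz⟩ : ∃ z : Eu d, z = (200 * R ^ 2 * N)⁻¹ • D := ⟨_, rfl⟩
  have hzn : ‖z‖ = ‖D‖ / (200 * R ^ 2 * N) := by
    rw [hz, norm_smul, norm_inv, Real.norm_of_nonneg (by positivity)]
    ring
  have hzR : 2 * R * ‖z‖ ≤ 1 / 50 := by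
    rw [hzn]
    rw [← mul_div_assoc, div_le_iff₀ (by positivity)]
    calc 2 * R * ‖D‖ ≤ 2 * R * (2 * R * N) := by gcongr
      _ = _ := by ring
  have hzz : ‖z‖ ^ 2 = Y / (40000 * R ^ 2 * N) := by
    rw [hzn, hY]; field_simp; ring
  have hzD : ⟪z, D⟫_ℝ = Y / 200 := by
    rw [hz, real_inner_smul_left, real_inner_self_eq_norm_sq, hY]; field_simp
  obtain ⟨Z0, hZ0⟩ : ∃ Z0, Z0 = ∫ x in A, Real.exp (-VV R x) := ⟨_, rfl⟩
  obtain ⟨Z1, hZ1⟩ : ∃ Z1, Z1 = ∫ x in B, Real.exp (-VV R x) := ⟨_, rfl⟩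
  have hZ0b := Z_bounds hR hA hAR
  have hZ1b := Z_bounds hR hB hBR
  rw [← hZ0, hn0] at hZ0b
  rw [← hZ1, hn1] at hZ1b
  obtain ⟨c, hc⟩ : ∃ c, c = (Z0 - Z1) / N := ⟨_, rfl⟩
  have hcN : c * N = Z0 - Z1 := by rw [hc]; field_simp
  have hnb := abs_le.1 hn
  have hcabs : |c| ≤ 12 / 40 := by
    rw [hc, abs_div, abs_of_pos hNpos, div_le_iff₀ hNpos, abs_le]
    constructor <;> linarith [hZ0b.1, hZ0b.2, hZ1b.1, hZ1b.2, hnb.1, hnb.2]
  have hcz : |c| + 2 * R * ‖z‖ ≤ 1 / 2 := by linarith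
  have hlb : ∀ x : Eu d, ‖x‖ ≤ R → |c + ⟪z, x - w⟫_ℝ| ≤ 1 / 2 := by
    intro x hx
    refine (abs_add_le _ _).trans (le_trans (add_le_add le_rfl ?_) hcz)
    refine (abs_real_inner_le_norm _ _).trans ?_
    rw [mul_comm]
    refine mul_le_mul_of_nonneg_right ((norm_sub_le _ _).trans ?_) (norm_nonneg _)
    linarith
  have hlc : Continuous fun x : Eu d => c + ⟪z, x - w⟫_ℝ := by fun_prop
  obtain ⟨L, hL⟩ : ∃ L, L = 11 / 10 * (11 / 10 * ‖z‖ + |c| / (20 * R)) := ⟨_, rfl⟩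
  obtain ⟨s, hs⟩ : ∃ s, s = 10 * R ^ 2 * L ^ 2 := ⟨_, rfl⟩
  have hkey := local_PL hPL hR hA hB hM hAR hBR hmid c z w hwn L s hL hs
  obtain ⟨a0, ha0⟩ : ∃ a0, a0 = ∫ x in A, (c + ⟪z, x - w⟫_ℝ) ^ 2 := ⟨_, rfl⟩
  obtain ⟨a1, ha1⟩ : ∃ a1, a1 = ∫ x in B, (c + ⟪z, x - w⟫_ℝ) ^ 2 := ⟨_, rfl⟩
  have ha0n : 0 ≤ a0 := by rw [ha0]; exact integral_nonneg fun x => sq_nonneg _
  have ha1n : 0 ≤ a1 := by rw [ha1]; exact integral_nonneg fun x => sq_nonneg _
  obtain ⟨p, hp⟩ : ∃ p, p = Z0 - (c * n0 - Y / 400) + a0 / 3 := ⟨_, rfl⟩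
  obtain ⟨q, hq⟩ : ∃ q, q = Z1 + (c * n1 + Y / 400) + a1 / 3 := ⟨_, rfl⟩
  have hiA := int_affine hA c z w
  have hiB := int_affine hB c z w
  rw [hn0, hg0, hD0, inner_neg_right, real_inner_smul_right, hzD] at hiA
  rw [hn1, hg1, hD1, real_inner_smul_right, hzD] at hiB
  have hP := lower_P hR hA hAR hlc (fun x hx => hlb x (hAR x hx))
  have hlc' : Continuous fun x : Eu d => -(c + ⟪z, x - w⟫_ℝ) := by fun_prop
  have hQ := lower_P hR hB hBR hlc' (fun x hx => by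
    rw [abs_neg]; exact hlb x (hBR x hx))
  rw [← hZ0, ← ha0, hiA] at hP
  have hQ' : q ≤ ∫ x in B, Real.exp (-VV R x - Real.exp (VV R x) * (-(c + ⟪z, x - w⟫_ℝ))) := by
    refine le_trans ?_ hQ
    rw [integral_neg, hiB, ← hZ1]
    simp only [neg_sq]
    rw [← ha1, hq]
    linarith
  have hP' : p ≤ ∫ x in A, Real.exp (-VV R x - Real.exp (VV R x) * (c + ⟪z, x - w⟫_ℝ)) := by
    refine le_trans ?_ hP
    rw [hp]
    linarith
  have hc2 : |c| ≤ 1 / 2 := by linarith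
  have hppos : 0 < p := by
    rw [hp]; exact alg_pos h0 hZ0b.1 hY0 ha0n hc2
  have hqpos : 0 < q := by
    have := alg_pos (c := -c) h1 hZ1b.1 hY0 ha1n (by rwa [abs_neg])
    rw [hq]; linarith
  have hpq : Real.exp (-s) ^ 2 * (p * q) ≤ (∫ x in M, Real.exp (-VV R x)) ^ 2 := by
    refine le_trans (mul_le_mul_of_nonneg_left ?_ (by positivity)) hkey
    exact mul_le_mul hP' hQ' hqpos.le (hppos.le.trans hP')
  have hs0 : 0 ≤ s := by rw [hs]; positivity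
  have hsN : s * N ≤ 74 / 100000 * Y + 605 / 10000 * (c ^ 2 * N) := by
    have e1 : L ^ 2 ≤ (121 / 100) * (2 * (121 / 100 * ‖z‖ ^ 2) + 2 * (c ^ 2 / (400 * R ^ 2))) := by
      have e2 : L ^ 2 = (121 / 100) * (11 / 10 * ‖z‖ + |c| / (20 * R)) ^ 2 := by rw [hL]; ring
      rw [e2]
      apply mul_le_mul_of_nonneg_left _ (by norm_num)
      have e3 := add_sq_le (a := 11 / 10 * ‖z‖) (b := |c| / (20 * R))
      refine e3.trans (le_of_eq ?_)
      have e4 : (|c| / (20 * R)) ^ 2 = c ^ 2 / (400 * R ^ 2) := by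
        rw [div_pow, sq_abs]; ring
      rw [e4]; ring
    calc s * N ≤ 10 * R ^ 2 * ((121 / 100) * (2 * (121 / 100 * ‖z‖ ^ 2)
            + 2 * (c ^ 2 / (400 * R ^ 2)))) * N := by
          rw [hs]
          apply mul_le_mul_of_nonneg_right _ hNpos.le
          exact mul_le_mul_of_nonneg_left e1 (by positivity)
      _ = 29282 / 40000000 * Y + 605 / 10000 * (c ^ 2 * N) := by
          rw [hzz]; field_simp; ring
      _ ≤ _ := by
          apply add_le_add _ le_rfl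
          apply mul_le_mul_of_nonneg_right _ hY0
          norm_num
  have hcNa : c ^ 2 * N ≤ a0 + a1 := by
    have e0 := int_sq_lower hA c z w
    have e1 := int_sq_lower hB c z w
    rw [hn0, hg0, hD0, inner_neg_right, real_inner_smul_right, hzD, ← ha0] at e0
    rw [hn1, hg1, hD1, real_inner_smul_right, hzD, ← ha1] at e1
    rw [hN]
    linarith
  have haN : a0 + a1 ≤ N / 4 := by
    have e0 := int_sq_upper hA hlc (fun x hx => hlb x (hAR x hx))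
    have e1 := int_sq_upper hB hlc (fun x hx => hlb x (hBR x hx))
    rw [← ha0, hn0] at e0
    rw [← ha1, hn1] at e1
    rw [hN]
    linarith
  rw [← hZ0, ← hZ1, ← hY]
  exact alg h0 h1 hN hn hZ0b.1 hZ0b.2 hZ1b.1 hZ1b.2 hcN hY0 hY4 ha0n ha1n hcNa haN hc2 hp hq hs0
    hsN (integral_nonneg fun x => (Real.exp_pos _).le) hpq

theorem final_cell {m n1 N h2 D2 E2 R T2 : ℝ} (hm : 0 < m) (hn1 : 0 < n1) (hn1m : n1 ≤ 4 / 3 * m)
    (hN : N = m + n1) (hD2 : 0 ≤ D2) (hh2 : 0 ≤ h2) (hE2 : E2 ≤ 4 * R ^ 2 * (n1 * h2))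
    (hT2 : T2 ≤ 2 * D2 + 2 * E2) :
    T2 / m ≤ 14 / 3 * (D2 / N) + 32 / 3 * R ^ 2 * h2 := by
  have hNpos : 0 < N := by linarith
  have h1 : D2 / m ≤ 7 / 3 * (D2 / N) := by
    rw [div_le_iff₀ hm]
    have : D2 = D2 / N * N := by field_simp
    have h3 : 0 ≤ D2 / N := by positivity
    calc D2 = D2 / N * N := this
      _ ≤ D2 / N * (7 / 3 * m) := by
        apply mul_le_mul_of_nonneg_left _ h3
        linarith
      _ = _ := by ring
  have h2' : E2 / m ≤ 16 / 3 * R ^ 2 * h2 := by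
    rw [div_le_iff₀ hm]
    calc E2 ≤ 4 * R ^ 2 * (n1 * h2) := hE2
      _ ≤ 4 * R ^ 2 * (4 / 3 * m * h2) := by gcongr
      _ = _ := by ring
  calc T2 / m ≤ (2 * D2 + 2 * E2) / m := by gcongr
    _ = 2 * (D2 / m) + 2 * (E2 / m) := by ring
    _ ≤ _ := by linarith

theorem intOn_bdd {E : Type*} [NormedAddCommGroup E] [MeasurableSpace E] [BorelSpace E]
    [SecondCountableTopology E] {B : Set (Eu d)} (hB : IsCompact B) {f : Eu d → E}
    (hm : Measurable f) {C : ℝ} (hb : ∀ x ∈ B, ‖f x‖ ≤ C) : IntegrableOn f B := by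
  refine IntegrableOn.of_bound hB.measure_lt_top hm.aestronglyMeasurable C ?_
  exact (ae_restrict_iff' hB.measurableSet).2 (ae_of_all _ hb)

theorem cs_int {B : Set (Eu d)} (hB : IsCompact B) {h : Eu d → ℝ} (hm : Measurable h)
    {C n : ℝ} (hb : ∀ x ∈ B, |h x| ≤ C) (hn : ∫ _x in B, (1 : ℝ) = n) (hn0 : 0 < n) :
    (∫ x in B, |h x|) ^ 2 ≤ n * ∫ x in B, (h x) ^ 2 := by
  have hi1 : IntegrableOn (fun x => |h x|) B :=
    intOn_bdd hB (by fun_prop) (C := C) (fun x hx => by rw [Real.norm_eq_abs, abs_abs]; exact hb x hx)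
  have hi2 : IntegrableOn (fun x => (h x) ^ 2) B :=
    intOn_bdd hB (by fun_prop) (C := C ^ 2) (fun x hx => by
      rw [Real.norm_of_nonneg (sq_nonneg _), ← sq_abs]
      exact pow_le_pow_left₀ (abs_nonneg _) (hb x hx) 2)
  obtain ⟨I, hI⟩ : ∃ I, I = ∫ x in B, |h x| := ⟨_, rfl⟩
  obtain ⟨t, ht⟩ : ∃ t, t = I / n := ⟨_, rfl⟩
  have h1 : 0 ≤ ∫ x in B, ((h x) ^ 2 - (2 * t * |h x| - t ^ 2)) := by
    apply integral_nonneg
    intro x
    have e : (h x) ^ 2 - (2 * t * |h x| - t ^ 2) = (|h x| - t) ^ 2 := by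
      rw [sub_sq, sq_abs]; ring
    simp only [e]
    exact sq_nonneg _
  have hc : IntegrableOn (fun _ : Eu d => t ^ 2) B := intOn hB continuous_const
  have hi3 : IntegrableOn (fun x => 2 * t * |h x| - t ^ 2) B := (hi1.const_mul (2 * t)).sub hc
  rw [integral_sub hi2 hi3, integral_sub (hi1.const_mul (2 * t)) hc, integral_const_mul, int_one (t ^ 2), hn, ← hI] at h1
  rw [← hI]
  have h2 : t * n = I := by rw [ht]; field_simp
  have h3 : 2 * t * I - t ^ 2 * n = I ^ 2 / n := by rw [ht]; field_simp; ring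
  rw [h3] at h1
  have h4 : I ^ 2 / n ≤ ∫ x in B, (h x) ^ 2 := by linarith
  rw [div_le_iff₀ hn0] at h4
  linarith

/-- Everything about one cell. -/
theorem one_cell (hPL : S_PL) {A B M : Set (Eu d)} {R : ℝ} (hR : 0 < R) (hA : IsCompact A)
    (hB : IsCompact B) (hM : IsCompact M) (hAR : ∀ x ∈ A, ‖x‖ ≤ R) (hBR : ∀ x ∈ B, ‖x‖ ≤ R)
    (hmid : ∀ x ∈ A, ∀ y ∈ B, (2 : ℝ)⁻¹ • (x + y) ∈ M) {m : ℝ} (hm : 0 < m)
    (hA1 : ∫ _x in A, (1 : ℝ) = m) {h : Eu d → ℝ} (hmeas : Measurable h)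
    (hb : ∀ x ∈ B, |h x| ≤ 1 / 4) (hB1 : ∫ x in B, (1 + h x) = m) :
    ‖(∫ x in B, (1 + h x) • x) - ∫ x in A, x‖ ^ 2 / m ≤
      14 / 3 * (800 * R ^ 2 * ((∫ x in M, Real.exp (-VV R x)) -
        ((∫ x in A, Real.exp (-VV R x)) + (∫ x in B, Real.exp (-VV R x))) / 2
        + ∫ x in B, (h x) ^ 2)) + 32 / 3 * R ^ 2 * ∫ x in B, (h x) ^ 2 := by
  obtain ⟨n1, hn1⟩ : ∃ n1, ∫ _x in B, (1 : ℝ) = n1 := ⟨_, rfl⟩
  have hih : IntegrableOn h B := intOn_bdd hB hmeas (C := 1 / 4) hb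
  have hi1 : IntegrableOn (fun _ : Eu d => (1 : ℝ)) B := intOn hB continuous_const
  have hsplit : n1 + ∫ x in B, h x = m := by
    rw [← hn1, ← integral_add hi1 hih, hB1]
  have hiab : IntegrableOn (fun x => |h x|) B :=
    intOn_bdd hB (by fun_prop) (C := 1 / 4)
      (fun x hx => by rw [Real.norm_eq_abs, abs_abs]; exact hb x hx)
  have habs : |∫ x in B, h x| ≤ ∫ x in B, |h x| := abs_integral_le_integral_abs
  have hle : ∫ x in B, |h x| ≤ n1 / 4 := by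
    have : ∫ x in B, |h x| ≤ ∫ _x in B, (1 / 4 : ℝ) :=
      setIntegral_mono_on hiab (intOn hB continuous_const) hB.measurableSet hb
    rw [int_one (1 / 4), hn1] at this
    linarith
  have hab := abs_le.1 (habs.trans hle)
  have hn1pos : 0 < n1 := by
    by_contra hcon
    push Not at hcon
    linarith [hab.2]
  have hn1m : n1 ≤ 4 / 3 * m := by linarith [hab.1]
  have hcs := cs_int hB hmeas hb hn1 hn1pos
  obtain ⟨g0, hg0⟩ : ∃ g0, ∫ x in A, x = g0 := ⟨_, rfl⟩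
  obtain ⟨g1, hg1⟩ : ∃ g1, ∫ x in B, x = g1 := ⟨_, rfl⟩
  obtain ⟨w, hw⟩ : ∃ w, w = (m + n1)⁻¹ • (g0 + g1) := ⟨_, rfl⟩
  obtain ⟨D, hD⟩ : ∃ D, D = (g1 - n1 • w) - (g0 - m • w) := ⟨_, rfl⟩
  have hdiff : |n1 - m| ≤ n1 / 4 := by
    rw [abs_le]; constructor <;> linarith [hab.1, hab.2]
  have hloc := local_main hPL hR hA hB hM hAR hBR hmid hA1 hn1 hm hn1pos hdiff hg0 hg1 hw hD
  obtain ⟨N, hN⟩ : ∃ N, N = m + n1 := ⟨_, rfl⟩
  have hNpos : 0 < N := by linarith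
  rw [← hN] at hw hloc
  obtain ⟨h2, hh2⟩ : ∃ h2, h2 = ∫ x in B, (h x) ^ 2 := ⟨_, rfl⟩
  have hh20 : 0 ≤ h2 := by rw [hh2]; exact integral_nonneg fun x => sq_nonneg _
  rw [← hh2] at hcs ⊢
  have hsq : (n1 - m) ^ 2 / N ≤ h2 := by
    rw [div_le_iff₀ hNpos]
    have e1 : n1 - m = -∫ x in B, h x := by linarith
    calc (n1 - m) ^ 2 = |∫ x in B, h x| ^ 2 := by rw [e1, neg_sq, sq_abs]
      _ ≤ (∫ x in B, |h x|) ^ 2 := pow_le_pow_left₀ (abs_nonneg _) habs 2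
      _ ≤ n1 * h2 := hcs
      _ ≤ h2 * N := by rw [mul_comm]; apply mul_le_mul_of_nonneg_left _ hh20; linarith
  have hg0n : ‖g0‖ ≤ R * m := by rw [← hg0, ← hA1]; exact norm_int_le hA hAR
  have hg1n : ‖g1‖ ≤ R * n1 := by rw [← hg1, ← hn1]; exact norm_int_le hB hBR
  have hwn : ‖w‖ ≤ R := by
    rw [hw, norm_smul, norm_inv, Real.norm_of_nonneg hNpos.le]
    rw [inv_mul_le_iff₀ hNpos]
    calc ‖g0 + g1‖ ≤ ‖g0‖ + ‖g1‖ := norm_add_le _ _
      _ ≤ R * m + R * n1 := add_le_add hg0n hg1n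
      _ = N * R := by rw [hN]; ring
  -- the error term
  have hix : IntegrableOn (fun x : Eu d => x) B := intOn hB continuous_id
  have hihx : IntegrableOn (fun x : Eu d => h x • x) B :=
    intOn_bdd hB (hmeas.smul measurable_id) (C := 1 / 4 * R) (fun x hx => by
      rw [norm_smul]
      exact mul_le_mul (hb x hx) (hBR x hx) (norm_nonneg _) (by norm_num))
  have hihw : IntegrableOn (fun x : Eu d => h x • w) B := hih.smul_const w
  obtain ⟨E, hE⟩ : ∃ E, E = ∫ x in B, h x • (x - w) := ⟨_, rfl⟩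
  have hE' : E = (∫ x in B, h x • x) - (∫ x in B, h x) • w := by
    rw [hE, ← integral_smul_const, ← integral_sub hihx hihw]
    congr 1
    ext1 x
    rw [smul_sub]
  have hEn : ‖E‖ ≤ 2 * R * ∫ x in B, |h x| := by
    rw [hE, ← integral_const_mul]
    refine (norm_integral_le_integral_norm _).trans ?_
    refine setIntegral_mono_on ?_ (hiab.const_mul (2 * R)) hB.measurableSet fun x hx => ?_
    · have : IntegrableOn (fun x : Eu d => h x • (x - w)) B := by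
        have e : (fun x : Eu d => h x • (x - w)) = fun x => h x • x - h x • w := by
          ext1 x; rw [smul_sub]
        rw [e]; exact hihx.sub hihw
      exact this.norm
    · rw [norm_smul, mul_comm]
      refine mul_le_mul_of_nonneg_right ?_ (abs_nonneg _)
      refine (norm_sub_le _ _).trans ?_
      linarith [hBR x hx]
  have hE2 : ‖E‖ ^ 2 ≤ 4 * R ^ 2 * (n1 * h2) := by
    calc ‖E‖ ^ 2 ≤ (2 * R * ∫ x in B, |h x|) ^ 2 := pow_le_pow_left₀ (norm_nonneg _) hEn 2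
      _ = 4 * R ^ 2 * (∫ x in B, |h x|) ^ 2 := by ring
      _ ≤ _ := mul_le_mul_of_nonneg_left hcs (by positivity)
  have hT : (∫ x in B, (1 + h x) • x) - ∫ x in A, x = D + E := by
    have e1 : ∫ x in B, (1 + h x) • x = g1 + ∫ x in B, h x • x := by
      rw [← hg1, ← integral_add hix hihx]
      congr 1
      ext1 x
      rw [add_smul, one_smul]
    have e2 : ∫ x in B, h x = m - n1 := by linarith
    rw [e1, hg0, hE', hD, e2]
    module
  have hT2 : ‖(∫ x in B, (1 + h x) • x) - ∫ x in A, x‖ ^ 2 ≤ 2 * ‖D‖ ^ 2 + 2 * ‖E‖ ^ 2 := by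
    rw [hT]
    calc ‖D + E‖ ^ 2 ≤ (‖D‖ + ‖E‖) ^ 2 := pow_le_pow_left₀ (norm_nonneg _) (norm_add_le _ _) 2
      _ ≤ 2 * ‖D‖ ^ 2 + 2 * ‖E‖ ^ 2 := by nlinarith [sq_nonneg (‖D‖ - ‖E‖)]
  have hfin := final_cell hm hn1pos hn1m hN (sq_nonneg ‖D‖) hh20 hE2 hT2
  refine hfin.trans (add_le_add ?_ le_rfl)
  apply mul_le_mul_of_nonneg_left _ (by norm_num)
  have hl2 : ‖D‖ ^ 2 / N = 800 * R ^ 2 * (‖D‖ ^ 2 / (R ^ 2 * N) / 800) := by
    field_simp
  rw [hl2]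
  apply mul_le_mul_of_nonneg_left _ (by positivity)
  linarith

end Vale.Agent.P074.BaryAux

namespace Vale.Agent.P074

open BaryAux

/-- Task T2: barycentre stability from Prékopa–Leindler. -/
theorem bary : S_PL → S_BARY := by
  intro hPL
  refine ⟨1 / 4, by norm_num, 4000, by norm_num, ?_⟩
  intro d ι _ _ K R y ψ0 ψ1 m h hK hKc hR hKR hy hm hhm hhb hc0 hc1
  have hKn : ∀ x ∈ K, ‖x‖ ≤ R := fun x hx => by simpa using hKR hx
  obtain ⟨ψh, hψh⟩ : ∃ ψh : ι → ℝ, ψh = fun j => (ψ0 j + ψ1 j) / 2 := ⟨_, rfl⟩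
  have hcell : ∀ i, ‖(∫ x in cell K y ψ1 i, (1 + h x) • x) - ∫ x in cell K y ψ0 i, x‖ ^ 2 / m i
      ≤ 14 / 3 * (800 * R ^ 2 * ((∫ x in cell K y ψh i, Real.exp (-VV R x)) -
        ((∫ x in cell K y ψ0 i, Real.exp (-VV R x))
          + (∫ x in cell K y ψ1 i, Real.exp (-VV R x))) / 2
        + ∫ x in cell K y ψ1 i, (h x) ^ 2)) + 32 / 3 * R ^ 2 * ∫ x in cell K y ψ1 i, (h x) ^ 2 := by
    intro i
    refine one_cell hPL hR (cell_compact hK y ψ0 i) (cell_compact hK y ψ1 i)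
      (cell_compact hK y ψh i) (fun x hx => hKn x hx.1) (fun x hx => hKn x hx.1)
      (fun x hx x' hx' => ?_) (hm i) (hc0 i) hhm (fun x hx => hhb x hx.1) (hc1 i)
    rw [hψh]
    exact cell_mid hKc y ψ0 ψ1 i hx hx'
  refine (Finset.sum_le_sum fun i _ => hcell i).trans ?_
  have hVc := VV_cont (d := d) R
  have hie : IntegrableOn (fun x : Eu d => Real.exp (-VV R x)) K := intOn hK (by fun_prop)
  have hi2 : IntegrableOn (fun x => (h x) ^ 2) K :=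
    intOn_bdd hK (by fun_prop) (C := (1 / 4) ^ 2) (fun x hx => by
      rw [Real.norm_of_nonneg (sq_nonneg _), ← sq_abs]
      exact pow_le_pow_left₀ (abs_nonneg _) (hhb x hx) 2)
  have e0 := integral_cells hK hy ψ0 hie
  have e1 := integral_cells hK hy ψ1 hie
  have eh := integral_cells hK hy ψh hie
  have e2 := integral_cells hK hy ψ1 hi2
  rw [Finset.sum_add_distrib, ← Finset.mul_sum, ← Finset.mul_sum, Finset.sum_add_distrib,
    Finset.sum_sub_distrib, ← Finset.sum_div, Finset.sum_add_distrib, ← Finset.mul_sum, e0, e1,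
    eh, e2]
  have hpos : 0 ≤ ∫ x in K, (h x) ^ 2 := integral_nonneg fun x => sq_nonneg _
  have hR2 : 0 ≤ R ^ 2 * ∫ x in K, (h x) ^ 2 := by positivity
  nlinarith

end Vale.Agent.P074
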