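import Mathlib

open MeasureTheory Set Filter
open scoped ENNReal NNReal InnerProductSpace Topology

namespace Vale.Agent.P074

/-- Euclidean space `ℝ^d`. -/
abbrev Eu (d : ℕ) := EuclideanSpace ℝ (Fin d)

/-! ### Definitions used in the final statement -/

/-- The uniform probability measure on `K`. -/
noncomputable def unif {d : ℕ} (K : Set (Eu d)) : Measure (Eu d) :=
  (volume K)⁻¹ • volume.restrict K

/-- `T` is a quadratic optimal transport map from `ρ` to `μ`: it is Borel, pushes `ρ` forward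
to `μ`, and minimises `∫ |x - T x|^2 dρ` among all Borel maps pushing `ρ` forward to `μ`. -/
structure IsOptimalMap {d : ℕ} (ρ μ : Measure (Eu d)) (T : Eu d → Eu d) : Prop where
  measurable : Measurable T
  push : ρ.map T = μ
  optimal : ∀ S : Eu d → Eu d, Measurable S → ρ.map S = μ →
    ∫⁻ x, ‖x - T x‖ₑ ^ 2 ∂ρ ≤ ∫⁻ x, ‖x - S x‖ₑ ^ 2 ∂ρ

/-- `π` is a coupling of `μ` and `ν`. -/
structure IsCoupling {d : ℕ} (μ ν : Measure (Eu d)) (π : Measure (Eu d × Eu d)) : Prop where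
  fst : π.map Prod.fst = μ
  snd : π.map Prod.snd = ν

/-- The quadratic Wasserstein distance (as an extended nonnegative real). -/
noncomputable def W2 {d : ℕ} (μ ν : Measure (Eu d)) : ℝ≥0∞ :=
  (⨅ (π : Measure (Eu d × Eu d)) (_ : IsCoupling μ ν π), ∫⁻ p, ‖p.1 - p.2‖ₑ ^ 2 ∂π) ^ (1 / 2 : ℝ)

/-- `α` is an admissible stability exponent in dimension `d`. -/
def Admissible (d : ℕ) (α : ℝ) : Prop :=
  0 < α ∧ α ≤ 1 ∧
  ∀ K : Set (Eu d), IsCompact K → Convex ℝ K → (interior K).Nonempty →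
  ∀ Y : Set (Eu d), IsCompact Y → Y.Nonempty →
  ∃ C : ℝ, ∀ μ ν : Measure (Eu d), IsProbabilityMeasure μ → IsProbabilityMeasure ν →
    μ Yᶜ = 0 → ν Yᶜ = 0 →
    ∀ T S : Eu d → Eu d, IsOptimalMap (unif K) μ T → IsOptimalMap (unif K) ν S →
      (∫⁻ x, ‖T x - S x‖ₑ ^ 2 ∂(unif K)) ^ (1 / 2 : ℝ) ≤ ENNReal.ofReal C * (W2 μ ν) ^ α

end Vale.Agent.P074
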