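import Vale.Agent.P074.Basic

open MeasureTheory Set Filter
open scoped ENNReal NNReal InnerProductSpace Topology

namespace Vale.Agent.P074

/-! ### Auxiliary definitions (not in the final statement) -/

/-- Semi-discrete potential `x ↦ max_i (⟪x, y i⟫ - ψ i)`. -/
noncomputable def pot {d : ℕ} {ι : Type} (y : ι → Eu d) (ψ : ι → ℝ) (x : Eu d) : ℝ :=
  ⨆ i, (⟪x, y i⟫_ℝ - ψ i)

/-- Laguerre cell. -/
def cell {d : ℕ} {ι : Type} (K : Set (Eu d)) (y : ι → Eu d) (ψ : ι → ℝ) (i : ι) : Set (Eu d) :=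
  {x | x ∈ K ∧ ∀ j, ⟪x, y j⟫_ℝ - ψ j ≤ ⟪x, y i⟫_ℝ - ψ i}

/-- Dual functional `J_w(y, ψ) = ∫_K φ_{y,ψ} w + ∑ m_i ψ_i`. -/
noncomputable def dualJ {d : ℕ} {ι : Type} [Fintype ι] (K : Set (Eu d)) (w : Eu d → ℝ)
    (m : ι → ℝ) (y : ι → Eu d) (ψ : ι → ℝ) : ℝ :=
  (∫ x in K, pot y ψ x * w x) + ∑ i, m i * ψ i

/-- Its infimum over `ψ`. -/
noncomputable def dualM {d : ℕ} {ι : Type} [Fintype ι] (K : Set (Eu d)) (w : Eu d → ℝ)
    (m : ι → ℝ) (y : ι → Eu d) : ℝ :=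
  ⨅ ψ : ι → ℝ, dualJ K w m y ψ

/-- Unnormalised variance on `K`. -/
noncomputable def var {d : ℕ} (K : Set (Eu d)) (f : Eu d → ℝ) : ℝ :=
  (∫ x in K, (f x) ^ 2) - (∫ x in K, f x) ^ 2 / (volume K).toReal

/-- `φ` is a finite convex `L`-Lipschitz potential of the bounded map `T` on `K`:
`T x` is a subgradient of `φ` at a.e. `x ∈ K`. -/
structure IsPot {d : ℕ} (K : Set (Eu d)) (L : ℝ) (T : Eu d → Eu d) (φ : Eu d → ℝ) : Prop where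
  meas : Measurable T
  bdd : ∀ᵐ x ∂(volume.restrict K), ‖T x‖ ≤ L
  conv : ConvexOn ℝ univ φ
  lip : ∀ x z, |φ x - φ z| ≤ L * ‖x - z‖
  sub : ∀ᵐ x ∂(volume.restrict K), ∀ z, φ x + ⟪T x, z - x⟫_ℝ ≤ φ z

/-! ### The chain of lemmas, as propositions -/

/-- Prékopa–Leindler at `t = 1/2`. -/
def S_PL : Prop := ∀ (d : ℕ) (f g h : Eu d → ℝ≥0∞), Measurable f → Measurable g → Measurable h →
  (∀ x y, f x * g y ≤ h ((2 : ℝ)⁻¹ • (x + y)) ^ 2) →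
  (∫⁻ x, f x) * (∫⁻ x, g x) ≤ (∫⁻ x, h x) ^ 2

/-- Barycentre stability under perturbation of the source density. -/
def S_BARY : Prop := ∃ h0 > (0 : ℝ), ∃ C0 > (0 : ℝ), ∀ (d : ℕ) (ι : Type) [Fintype ι] [Nonempty ι]
  (K : Set (Eu d)) (R : ℝ) (y : ι → Eu d) (ψ0 ψ1 : ι → ℝ) (m : ι → ℝ) (h : Eu d → ℝ),
  IsCompact K → Convex ℝ K → 0 < R → K ⊆ Metric.closedBall 0 R → Function.Injective y →
  (∀ i, 0 < m i) → Measurable h → (∀ x ∈ K, |h x| ≤ h0) →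
  (∀ i, ∫ _x in cell K y ψ0 i, (1 : ℝ) = m i) →
  (∀ i, ∫ x in cell K y ψ1 i, (1 + h x) = m i) →
  ∑ i, ‖(∫ x in cell K y ψ1 i, (1 + h x) • x) - ∫ x in cell K y ψ0 i, x‖ ^ 2 / m i
    ≤ C0 * R ^ 2 * ∫ x in K, (h x) ^ 2

/-- Existence of minimisers of the dual functional. -/
def S_EXIST : Prop := ∀ (d : ℕ) (ι : Type) [Fintype ι] [Nonempty ι]
  (K : Set (Eu d)) (w : Eu d → ℝ) (y : ι → Eu d) (m : ι → ℝ),
  IsCompact K → Measurable w → (∀ x ∈ K, 1 / 2 ≤ w x ∧ w x ≤ 3 / 2) → (∀ i, 0 < m i) →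
  ∑ i, m i = ∫ x in K, w x →
  ∃ ψ : ι → ℝ, ∀ ψ', dualJ K w m y ψ ≤ dualJ K w m y ψ'

/-- Mass constraint at minimisers. -/
def S_CELLMASS : Prop := ∀ (d : ℕ) (ι : Type) [Fintype ι] [Nonempty ι]
  (K : Set (Eu d)) (w : Eu d → ℝ) (y : ι → Eu d) (m : ι → ℝ) (ψ : ι → ℝ),
  IsCompact K → Measurable w → (∀ x ∈ K, 1 / 2 ≤ w x ∧ w x ≤ 3 / 2) → (∀ i, 0 < m i) →
  ∑ i, m i = ∫ x in K, w x → Function.Injective y →
  (∀ ψ', dualJ K w m y ψ ≤ dualJ K w m y ψ') →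
  ∀ i, ∫ x in cell K y ψ i, w x = m i

/-- Strong convexity of the dual functional (consequence of Prékopa–Leindler). -/
def S_SC : Prop := ∀ B : ℝ, ∃ C > (0 : ℝ), ∀ (d : ℕ) (K : Set (Eu d)) (f0 f1 fm : Eu d → ℝ),
  IsCompact K → Convex ℝ K → 0 < (volume K).toReal →
  ContinuousOn f0 K → ContinuousOn f1 K → ContinuousOn fm K →
  (∀ x ∈ K, |f0 x| ≤ B) → (∀ x ∈ K, |f1 x| ≤ B) → (∀ x ∈ K, |fm x| ≤ B) →
  (∀ x ∈ K, ∀ y ∈ K, fm ((2 : ℝ)⁻¹ • (x + y)) ≤ (f0 x + f1 y) / 2) →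
  var K (fun x => f1 x - f0 x) ≤ C * ∫ x in K, ((f0 x + f1 x) / 2 - fm x)

/-- Mixed second difference bound for the optimal value, along a path of sites. -/
def S_PATH : Prop := ∃ h0 > (0 : ℝ), ∃ C0 > (0 : ℝ), ∀ (d : ℕ) (ι : Type) [Fintype ι] [Nonempty ι]
  (K : Set (Eu d)) (R : ℝ) (y0 y1 : ι → Eu d) (m : ι → ℝ) (h : Eu d → ℝ),
  1 ≤ d → IsCompact K → Convex ℝ K → 0 < R → K ⊆ Metric.closedBall 0 R →
  (∀ i, 0 < m i) → ∑ i, m i = (volume K).toReal →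
  Measurable h → (∀ x ∈ K, |h x| ≤ h0) → ∫ x in K, h x = 0 →
  (dualM K (fun x => 1 + h x) m y1 - dualM K (fun _ => 1) m y1)
    - (dualM K (fun x => 1 + h x) m y0 - dualM K (fun _ => 1) m y0)
    ≤ C0 * R * √(∫ x in K, (h x) ^ 2) * √(∑ i, m i * ‖y1 i - y0 i‖ ^ 2)

/-- Variance bound for semi-discrete potentials, with duality gaps. -/
def S_VAR : Prop := ∀ (d : ℕ) (K : Set (Eu d)) (R L : ℝ), 1 ≤ d → IsCompact K → Convex ℝ K →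
  (interior K).Nonempty → 0 < R → K ⊆ Metric.closedBall 0 R → 0 < L →
  ∃ C > (0 : ℝ), ∀ (ι : Type) [Fintype ι] [Nonempty ι] (y0 y1 : ι → Eu d) (m : ι → ℝ)
    (ψ0 ψ1 : ι → ℝ), (∀ i, ‖y0 i‖ ≤ L) → (∀ i, ‖y1 i‖ ≤ L) → (∀ i, 0 < m i) →
    ∑ i, m i = (volume K).toReal →
    var K (fun x => pot y1 ψ1 x - pot y0 ψ0 x) ≤
      C * (∑ i, m i * ‖y1 i - y0 i‖ ^ 2
        + (dualJ K (fun _ => 1) m y0 ψ0 - dualM K (fun _ => 1) m y0)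
        + (dualJ K (fun _ => 1) m y1 ψ1 - dualM K (fun _ => 1) m y1))

/-- Optimal maps (in Monge's sense) have convex potentials. -/
def S_BRENIER : Prop := ∀ (d : ℕ) (K : Set (Eu d)) (L : ℝ) (μ : Measure (Eu d))
  (T : Eu d → Eu d), IsCompact K → Convex ℝ K → (interior K).Nonempty → 0 < L →
  μ (Metric.closedBall 0 L)ᶜ = 0 → IsOptimalMap (unif K) μ T →
  ∃ φ : Eu d → ℝ, IsPot K L T φ

/-- Variance of the difference of two potentials is controlled by any coupling of the images. -/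
def S_POTVAR : Prop := ∀ (d : ℕ) (K : Set (Eu d)) (R L : ℝ), 1 ≤ d → IsCompact K → Convex ℝ K →
  (interior K).Nonempty → 0 < R → K ⊆ Metric.closedBall 0 R → 0 < L →
  ∃ C > (0 : ℝ), ∀ (T0 T1 : Eu d → Eu d) (φ0 φ1 : Eu d → ℝ),
    IsPot K L T0 φ0 → IsPot K L T1 φ1 → ∀ π : Measure (Eu d × Eu d),
    IsCoupling ((unif K).map T0) ((unif K).map T1) π →
    ENNReal.ofReal (var K (fun x => φ1 x - φ0 x)) ≤
      ENNReal.ofReal C * ∫⁻ p, ‖p.1 - p.2‖ₑ ^ 2 ∂π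

/-- Interpolation inequality: gradients of convex functions are close if the functions are. -/
def S_INTERP : Prop := ∀ (d : ℕ) (K : Set (Eu d)) (L : ℝ), IsCompact K → Convex ℝ K →
  (interior K).Nonempty → 0 < L → ∃ C > (0 : ℝ), ∀ (T0 T1 : Eu d → Eu d) (φ0 φ1 : Eu d → ℝ),
    IsPot K L T0 φ0 → IsPot K L T1 φ1 →
    ∫ x in K, ‖T1 x - T0 x‖ ^ 2 ≤ C * (var K (fun x => φ1 x - φ0 x)) ^ (1 / 3 : ℝ)

/-- Positive half of the main theorem. -/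
def S_LOWER : Prop := ∀ d : ℕ, 2 ≤ d → Admissible d (1 / 3)

/-- Negative half of the main theorem. -/
def S_UPPER : Prop := ∀ d : ℕ, 2 ≤ d → ∀ α : ℝ, Admissible d α → α ≤ 1 / 3

end Vale.Agent.P074
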