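import Mathlib
import Vale.Agent.P074.Defs

open MeasureTheory Set Filter
open scoped ENNReal NNReal InnerProductSpace Topology

namespace Vale.Agent.P074

namespace Brenier

variable {d : ℕ}

/-! ### Piecewise translations -/

section Swap

variable {ι : Type} [Fintype ι]

/-- The piecewise translation `x ↦ x + v i` on `B i`, identity elsewhere. -/
noncomputable def tau (B : ι → Set (Eu d)) (v : ι → Eu d) (x : Eu d) : Eu d :=
  x + ∑ i, (B i).indicator (fun _ => v i) x

lemma measurable_tau {B : ι → Set (Eu d)} (hB : ∀ i, MeasurableSet (B i)) (v : ι → Eu d) :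
    Measurable (tau B v) :=
  measurable_id.add (Finset.measurable_sum _ (fun i _ => measurable_const.indicator (hB i)))

lemma sum_indicator_of_mem {F : Type*} [AddCommMonoid F] {B : ι → Set (Eu d)}
    (hd : Pairwise (Function.onFun Disjoint B)) (g : ι → F) {x : Eu d} {i : ι} (hx : x ∈ B i) :
    ∑ j, (B j).indicator (fun _ => g j) x = g i := by
  classical
  rw [Finset.sum_eq_single i]
  · rw [indicator_of_mem hx]
  · intro j _ hj
    rw [indicator_of_notMem]
    intro hxj
    exact (hd hj).le_bot ⟨hxj, hx⟩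
  · intro h; exact absurd (Finset.mem_univ i) h

lemma tau_of_mem {B : ι → Set (Eu d)} (hd : Pairwise (Function.onFun Disjoint B)) (v : ι → Eu d)
    {x : Eu d} {i : ι} (hx : x ∈ B i) : tau B v x = x + v i := by
  rw [tau, sum_indicator_of_mem hd v hx]

lemma tau_of_notMem {B : ι → Set (Eu d)} (v : ι → Eu d)
    {x : Eu d} (hx : x ∉ ⋃ i, B i) : tau B v x = x := by
  rw [tau, Finset.sum_eq_zero, add_zero]
  intro i _
  rw [indicator_of_notMem]
  intro h
  exact hx (mem_iUnion.mpr ⟨i, h⟩)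

lemma lintegral_split {K : Set (Eu d)} {B : ι → Set (Eu d)}
    (hB : ∀ i, MeasurableSet (B i)) (hd : Pairwise (Function.onFun Disjoint B))
    (hsub : ∀ i, B i ⊆ K) (g : Eu d → ℝ≥0∞) :
    ∫⁻ x in K, g x = (∫⁻ x in K \ ⋃ i, B i, g x) + ∑ i, ∫⁻ x in B i, g x := by
  have hU : MeasurableSet (⋃ i, B i) := MeasurableSet.iUnion hB
  have h1 := lintegral_inter_add_sdiff (μ := volume) g K hU
  have h2 : K ∩ ⋃ i, B i = ⋃ i, B i := inter_eq_right.mpr (iUnion_subset hsub)
  rw [h2, lintegral_iUnion hB hd, tsum_fintype, add_comm] at h1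
  exact h1.symm

lemma lintegral_translate {A B : Set (Eu d)} (hA : MeasurableSet A) (hB : MeasurableSet B)
    {v : Eu d} (hv : ∀ x, x ∈ A ↔ x + v ∈ B) (g : Eu d → ℝ≥0∞) :
    ∫⁻ x in A, g (x + v) = ∫⁻ x in B, g x := by
  rw [← lintegral_indicator hA, ← lintegral_indicator hB,
    ← lintegral_add_right_eq_self (μ := (volume : Measure (Eu d))) (B.indicator g) v]
  congr 1
  funext x
  by_cases hx : x ∈ A
  · rw [indicator_of_mem hx, indicator_of_mem ((hv x).mp hx)]
  · rw [indicator_of_notMem hx, indicator_of_notMem (fun h => hx ((hv x).mpr h))]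

lemma lintegral_tau {K : Set (Eu d)} {B : ι → Set (Eu d)}
    (hK : MeasurableSet K)
    (hB : ∀ i, MeasurableSet (B i)) (hd : Pairwise (Function.onFun Disjoint B))
    (hsub : ∀ i, B i ⊆ K) (σ : Equiv.Perm ι) (v : ι → Eu d)
    (hv : ∀ i x, x ∈ B i ↔ x + v i ∈ B (σ i)) (g : Eu d → ℝ≥0∞) :
    ∫⁻ x in K, g (tau B v x) = ∫⁻ x in K, g x := by
  have hU : MeasurableSet (⋃ i, B i) := MeasurableSet.iUnion hB
  rw [lintegral_split hB hd hsub, lintegral_split hB hd hsub]
  congr 1
  · refine setLIntegral_congr_fun (hK.diff hU) (fun x hx => ?_)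
    rw [tau_of_notMem v hx.2]
  · rw [← Equiv.sum_comp σ (fun i => ∫⁻ x in B i, g x)]
    refine Finset.sum_congr rfl (fun i _ => ?_)
    rw [← lintegral_translate (hB i) (hB (σ i)) (hv i) g]
    refine setLIntegral_congr_fun (hB i) (fun x hx => ?_)
    rw [tau_of_mem hd v hx]

lemma map_tau {K : Set (Eu d)} {B : ι → Set (Eu d)}
    (hK : MeasurableSet K)
    (hB : ∀ i, MeasurableSet (B i)) (hd : Pairwise (Function.onFun Disjoint B))
    (hsub : ∀ i, B i ⊆ K) (σ : Equiv.Perm ι) (v : ι → Eu d)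
    (hv : ∀ i x, x ∈ B i ↔ x + v i ∈ B (σ i)) :
    (volume.restrict K).map (tau B v) = volume.restrict K := by
  ext A hA
  rw [Measure.map_apply (measurable_tau hB v) hA, ← lintegral_indicator_one hA,
    ← lintegral_indicator_one (measurable_tau hB v hA),
    ← lintegral_tau hK hB hd hsub σ v hv (A.indicator 1)]
  rfl

lemma integral_translate {A B : Set (Eu d)} (hA : MeasurableSet A) (hB : MeasurableSet B)
    {v : Eu d} (hv : ∀ x, x ∈ A ↔ x + v ∈ B) {F : Type*} [NormedAddCommGroup F]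
    [NormedSpace ℝ F] (g : Eu d → F) :
    ∫ x in A, g (x + v) = ∫ x in B, g x := by
  rw [← integral_indicator hA, ← integral_indicator hB,
    ← integral_add_right_eq_self (μ := (volume : Measure (Eu d))) (B.indicator g) v]
  congr 1
  funext x
  by_cases hx : x ∈ A
  · rw [indicator_of_mem hx, indicator_of_mem ((hv x).mp hx)]
  · rw [indicator_of_notMem hx, indicator_of_notMem (fun h => hx ((hv x).mpr h))]

lemma integrable_of_bdd {K : Set (Eu d)} (hKc : IsCompact K) {F : Type*} [NormedAddCommGroup F]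
    {f : Eu d → F} (hf : AEStronglyMeasurable f (volume.restrict K)) (C : ℝ)
    (hC : ∀ᵐ x ∂(volume.restrict K), ‖f x‖ ≤ C) : Integrable f (volume.restrict K) := by
  have : IsFiniteMeasure (volume.restrict K) := ⟨by
    rw [Measure.restrict_apply_univ]; exact hKc.measure_lt_top⟩
  exact Integrable.of_bound hf C hC

lemma integral_expand (ν : Measure (Eu d)) (f : Eu d → Eu d)
    (h1 : Integrable (fun x : Eu d => ‖x‖ ^ 2) ν) (h2 : Integrable (fun x : Eu d => ⟪x, f x⟫_ℝ) ν)
    (h3 : Integrable (fun x : Eu d => ‖f x‖ ^ 2) ν) :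
    ∫ x, ‖x - f x‖ ^ 2 ∂ν =
      (∫ x, ‖x‖ ^ 2 ∂ν) - 2 * (∫ x, ⟪x, f x⟫_ℝ ∂ν) + ∫ x, ‖f x‖ ^ 2 ∂ν := by
  have e : (fun x : Eu d => ‖x - f x‖ ^ 2) =
      fun x => (‖x‖ ^ 2 - 2 * ⟪x, f x⟫_ℝ) + ‖f x‖ ^ 2 := by
    funext x; exact norm_sub_sq_real x (f x)
  have i2 : Integrable (fun x : Eu d => 2 * ⟪x, f x⟫_ℝ) ν := h2.const_mul 2
  have i12 : Integrable (fun x : Eu d => ‖x‖ ^ 2 - 2 * ⟪x, f x⟫_ℝ) ν := h1.sub i2
  rw [e, integral_add i12 h3, integral_sub h1 i2, integral_const_mul]

lemma swap_ineq {K : Set (Eu d)} (hKc : IsCompact K) (hK0 : volume K ≠ 0) {L : ℝ}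
    {μ : Measure (Eu d)} {T : Eu d → Eu d} (hT : IsOptimalMap (unif K) μ T)
    (hb : ∀ᵐ x ∂(volume.restrict K), ‖T x‖ ≤ L) {B : ι → Set (Eu d)}
    (hB : ∀ i, MeasurableSet (B i)) (hd : Pairwise (Function.onFun Disjoint B))
    (hsub : ∀ i, B i ⊆ K) (σ : Equiv.Perm ι) (v : ι → Eu d)
    (hv : ∀ i x, x ∈ B i ↔ x + v i ∈ B (σ i)) :
    0 ≤ ∑ i, ⟪v i, ∫ x in B (σ i), T x⟫_ℝ := by
  have hKm : MeasurableSet K := hKc.measurableSet
  have hKt : volume K ≠ ∞ := hKc.measure_lt_top.ne
  set ν : Measure (Eu d) := volume.restrict K with hν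
  have hmap : ν.map (tau B v) = ν := map_tau hKm hB hd hsub σ v hv
  have hτ : Measurable (tau B v) := measurable_tau hB v
  have hTm : Measurable T := hT.measurable
  have hSm : Measurable (T ∘ tau B v) := hTm.comp hτ
  have hpush : (unif K).map (T ∘ tau B v) = μ := by
    rw [← hT.push, unif, Measure.map_smul, Measure.map_smul, ← hν, ← Measure.map_map hTm hτ, hmap]
  have hopt := hT.optimal (T ∘ tau B v) hSm hpush
  have hopt' : ∫⁻ x, ‖x - T x‖ₑ ^ 2 ∂ν ≤ ∫⁻ x, ‖x - T (tau B v x)‖ₑ ^ 2 ∂ν := by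
    rw [unif, lintegral_smul_measure, lintegral_smul_measure, smul_eq_mul, smul_eq_mul] at hopt
    exact (ENNReal.mul_le_mul_iff_right (ENNReal.inv_ne_zero.mpr hKt)
      (ENNReal.inv_ne_top.mpr hK0)).mp hopt
  obtain ⟨R, hR⟩ := hKc.isBounded.subset_closedBall 0
  have hbR : ∀ᵐ x ∂ν, ‖x‖ ≤ R := by
    filter_upwards [ae_restrict_mem hKm] with x hx
    simpa using hR hx
  have hbS : ∀ᵐ x ∂ν, ‖T (tau B v x)‖ ≤ L := by
    have h1 : ∀ᵐ x ∂(ν.map (tau B v)), ‖T x‖ ≤ L := by rw [hmap]; exact hb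
    exact ae_of_ae_map hτ.aemeasurable h1
  have hbτ : ∀ᵐ x ∂ν, ‖tau B v x‖ ≤ R := by
    have h1 : ∀ᵐ x ∂(ν.map (tau B v)), ‖x‖ ≤ R := by rw [hmap]; exact hbR
    exact ae_of_ae_map hτ.aemeasurable h1
  -- integrability
  have int_norm : Integrable (fun x : Eu d => ‖x‖ ^ 2) ν :=
    integrable_of_bdd hKc (by fun_prop) (R ^ 2) (by
      filter_upwards [hbR] with x hx
      rw [norm_pow, norm_norm]; gcongr)
  have int_T : Integrable (fun x : Eu d => ‖T x‖ ^ 2) ν :=
    integrable_of_bdd hKc (hTm.norm.pow_const 2).aestronglyMeasurable (L ^ 2) (by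
      filter_upwards [hb] with x hx
      rw [norm_pow, norm_norm]; gcongr)
  have int_S : Integrable (fun x : Eu d => ‖T (tau B v x)‖ ^ 2) ν :=
    integrable_of_bdd hKc (hSm.norm.pow_const 2).aestronglyMeasurable (L ^ 2) (by
      filter_upwards [hbS] with x hx
      rw [norm_pow, norm_norm]; gcongr)
  have int_xT : Integrable (fun x : Eu d => ⟪x, T x⟫_ℝ) ν :=
    integrable_of_bdd hKc (by fun_prop) (R * L) (by
      filter_upwards [hb, hbR] with x hx hx'
      exact (norm_inner_le_norm _ _).trans (by gcongr; exact (norm_nonneg _).trans hx'))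
  have int_xS : Integrable (fun x : Eu d => ⟪x, T (tau B v x)⟫_ℝ) ν :=
    integrable_of_bdd hKc (by fun_prop) (R * L) (by
      filter_upwards [hbS, hbR] with x hx hx'
      exact (norm_inner_le_norm _ _).trans (by gcongr; exact (norm_nonneg _).trans hx'))
  have int_τS : Integrable (fun x : Eu d => ⟪tau B v x, T (tau B v x)⟫_ℝ) ν :=
    integrable_of_bdd hKc (by fun_prop) (R * L) (by
      filter_upwards [hbS, hbτ] with x hx hx'
      exact (norm_inner_le_norm _ _).trans (by gcongr; exact (norm_nonneg _).trans hx'))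
  have real_opt : ∫ x, ‖x - T x‖ ^ 2 ∂ν ≤ ∫ x, ‖x - T (tau B v x)‖ ^ 2 ∂ν := by
    have e1 : ∀ g : Eu d → Eu d, (fun x : Eu d => ‖x - g x‖ₑ ^ 2) =
        fun x : Eu d => ENNReal.ofReal (‖x - g x‖ ^ 2) := by
      intro g; funext x
      rw [ENNReal.ofReal_pow (norm_nonneg _), ofReal_norm]
    have i1 : Integrable (fun x : Eu d => ‖x - T x‖ ^ 2) ν := by
      simp_rw [norm_sub_sq_real]
      exact (int_norm.sub (int_xT.const_mul 2)).add int_T
    have i2 : Integrable (fun x : Eu d => ‖x - T (tau B v x)‖ ^ 2) ν := by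
      simp_rw [norm_sub_sq_real]
      exact (int_norm.sub (int_xS.const_mul 2)).add int_S
    have h2 := hopt'
    rw [e1 T, e1 (fun x => T (tau B v x)),
      ← ofReal_integral_eq_lintegral_ofReal i1 (ae_of_all _ fun x => by positivity),
      ← ofReal_integral_eq_lintegral_ofReal i2 (ae_of_all _ fun x => by positivity)] at h2
    exact (ENNReal.ofReal_le_ofReal_iff (integral_nonneg fun x => by positivity)).mp h2
  have ex1 := integral_expand ν T int_norm int_xT int_T
  have ex2 := integral_expand ν (fun x => T (tau B v x)) int_norm int_xS int_S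
  have ex3 : ∫ x, ‖T (tau B v x)‖ ^ 2 ∂ν = ∫ x, ‖T x‖ ^ 2 ∂ν := by
    conv_rhs => rw [← hmap]
    rw [integral_map hτ.aemeasurable (by fun_prop)]
  have ex4 : ∫ x, ⟪tau B v x, T (tau B v x)⟫_ℝ ∂ν = ∫ x, ⟪x, T x⟫_ℝ ∂ν := by
    conv_rhs => rw [← hmap]
    rw [integral_map hτ.aemeasurable (by fun_prop)]
  have ineq : 0 ≤ ∫ x, (⟪tau B v x, T (tau B v x)⟫_ℝ - ⟪x, T (tau B v x)⟫_ℝ) ∂ν := by
    rw [integral_sub int_τS int_xS, ex4]
    rw [ex1, ex2, ex3] at real_opt
    linarith
  have hpt : ∀ x, ⟪tau B v x, T (tau B v x)⟫_ℝ - ⟪x, T (tau B v x)⟫_ℝ =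
      ∑ i, (B i).indicator (fun x => ⟪v i, T (x + v i)⟫_ℝ) x := by
    intro x
    by_cases hx : x ∈ ⋃ i, B i
    · obtain ⟨i, hi⟩ := mem_iUnion.mp hx
      rw [tau_of_mem hd v hi, ← inner_sub_left, add_sub_cancel_left]
      classical
      rw [Finset.sum_eq_single i]
      · rw [indicator_of_mem hi]
      · intro j _ hj
        rw [indicator_of_notMem]
        intro hxj
        exact (hd hj).le_bot ⟨hxj, hi⟩
      · intro h; exact absurd (Finset.mem_univ i) h
    · rw [tau_of_notMem v hx, sub_self, Finset.sum_eq_zero]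
      intro i _
      rw [indicator_of_notMem]
      intro h
      exact hx (mem_iUnion.mpr ⟨i, h⟩)
  have int_TB : ∀ i, IntegrableOn T (B i) := fun i => by
    have h1 : Integrable T ν := integrable_of_bdd hKc hTm.aestronglyMeasurable L hb
    exact IntegrableOn.mono_set (f := T) (μ := volume) h1 (hsub i)
  have int_shift : ∀ i, IntegrableOn (fun x => T (x + v i)) (B i) := by
    intro i
    have h1 : Integrable ((B (σ i)).indicator T) := (int_TB (σ i)).integrable_indicator (hB _)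
    have h2 := h1.comp_add_right (v i)
    have h3 : (fun x => (B (σ i)).indicator T (x + v i)) =
        (B i).indicator (fun x => T (x + v i)) := by
      funext x
      by_cases hx : x ∈ B i
      · rw [indicator_of_mem hx, indicator_of_mem ((hv i x).mp hx)]
      · rw [indicator_of_notMem hx, indicator_of_notMem (fun h => hx ((hv i x).mpr h))]
    rw [h3] at h2
    exact (integrable_indicator_iff (hB i)).mp h2
  have hsum : ∫ x, (⟪tau B v x, T (tau B v x)⟫_ℝ - ⟪x, T (tau B v x)⟫_ℝ) ∂ν =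
      ∑ i, ⟪v i, ∫ x in B (σ i), T x⟫_ℝ := by
    simp_rw [hpt]
    rw [integral_finsetSum]
    · refine Finset.sum_congr rfl (fun i _ => ?_)
      rw [integral_indicator (hB i), hν, Measure.restrict_restrict (hB i),
        inter_eq_left.mpr (hsub i), integral_inner (int_shift i),
        integral_translate (hB i) (hB (σ i)) (hv i) T]
    · intro i _
      rw [integrable_indicator_iff (hB i), hν, IntegrableOn, Measure.restrict_restrict (hB i),
        inter_eq_left.mpr (hsub i)]
      exact (int_shift i).const_inner (v i)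
  rw [← hsum]
  exact ineq

end Swap

/-! ### Good points and cyclical monotonicity -/

/-- Good points: interior points of `K` with `|T x| ≤ L` which are Lebesgue points. -/
structure Good (K : Set (Eu d)) (L : ℝ) (T : Eu d → Eu d) (x : Eu d) : Prop where
  int : x ∈ interior K
  le : ‖T x‖ ≤ L
  leb : ∀ (n : ℕ) (w : ℝ → Eu d), (∀ᶠ r in 𝓝[>] (0:ℝ), x ∈ Metric.closedBall (w r) (n * r)) →
    Tendsto (fun r => ⨍ y in Metric.closedBall (w r) r, K.indicator T y) (𝓝[>] 0) (𝓝 (T x))

lemma ae_good {K : Set (Eu d)} (hKc : IsCompact K) (hKconv : Convex ℝ K) {L : ℝ}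
    {T : Eu d → Eu d} (hTm : Measurable T) (hb : ∀ᵐ x ∂(volume.restrict K), ‖T x‖ ≤ L) :
    ∀ᵐ x ∂(volume.restrict K), Good K L T x := by
  have hKm : MeasurableSet K := hKc.measurableSet
  have hint : Integrable T (volume.restrict K) :=
    integrable_of_bdd hKc hTm.aestronglyMeasurable L hb
  have hloc : LocallyIntegrable (K.indicator T) (volume : Measure (Eu d)) :=
    ((integrable_indicator_iff hKm).mpr hint).locallyIntegrable
  have h1 : ∀ᵐ x ∂(volume : Measure (Eu d)), ∀ (n : ℕ) (w : ℝ → Eu d),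
      (∀ᶠ r in 𝓝[>] (0:ℝ), x ∈ Metric.closedBall (w r) (n * r)) →
      Tendsto (fun r => ⨍ y in Metric.closedBall (w r) r, K.indicator T y) (𝓝[>] 0)
        (𝓝 (K.indicator T x)) := by
    rw [ae_all_iff]
    intro n
    filter_upwards [IsUnifLocDoublingMeasure.ae_tendsto_average (μ := (volume : Measure (Eu d)))
      hloc n] with x hx w hw
    exact hx w id tendsto_id hw
  have h2 : ∀ᵐ x ∂(volume : Measure (Eu d)), x ∉ frontier K :=
    measure_eq_zero_iff_ae_notMem.mp (hKconv.addHaar_frontier volume)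
  filter_upwards [ae_restrict_mem hKm, ae_restrict_of_ae h1, ae_restrict_of_ae h2, hb]
    with x hxK hx1 hx2 hx3
  refine ⟨?_, hx3, ?_⟩
  · by_contra h
    exact hx2 ⟨subset_closure hxK, h⟩
  · intro n w hw
    have := hx1 n w hw
    rwa [indicator_of_mem hxK] at this

lemma cyclic {K : Set (Eu d)} (hKc : IsCompact K) (hK0 : volume K ≠ 0) {L : ℝ}
    {μ : Measure (Eu d)} {T : Eu d → Eu d} (hT : IsOptimalMap (unif K) μ T)
    (hb : ∀ᵐ x ∂(volume.restrict K), ‖T x‖ ≤ L) {n : ℕ} (x : Fin n → Eu d)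
    (hx : ∀ i, Good K L T (x i)) (σ : Equiv.Perm (Fin n)) :
    0 ≤ ∑ i, ⟪x (σ i) - x i, T (x (σ i))⟫_ℝ := by
  rcases subsingleton_or_nontrivial (Eu d) with hsub | hnt
  · refine Finset.sum_nonneg (fun i _ => ?_)
    rw [Subsingleton.elim (x (σ i) - x i) 0, inner_zero_left]
  obtain ⟨e, he⟩ : ∃ e : Eu d, ‖e‖ = 1 := exists_norm_eq (Eu d) zero_le_one
  let w : Fin n → ℝ → Eu d := fun i r => x i + (r * (3 * (i : ℝ))) • e
  have hwd : ∀ i r, dist (w i r) (x i) = |r| * (3 * (i : ℝ)) := by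
    intro i r
    rw [dist_eq_norm]
    simp only [w, add_sub_cancel_left]
    rw [norm_smul, he, mul_one, Real.norm_eq_abs, abs_mul, abs_of_nonneg (a := 3 * (i : ℝ))]
    positivity
  have hwc : ∀ i, Tendsto (w i) (𝓝[>] (0:ℝ)) (𝓝 (x i)) := by
    intro i
    have : Tendsto (w i) (𝓝 (0:ℝ)) (𝓝 (w i 0)) := by
      apply Continuous.tendsto
      simp only [w]
      fun_prop
    simp only [w, zero_mul, zero_smul, add_zero] at this
    exact this.mono_left nhdsWithin_le_nhds
  have hr0 : ∀ᶠ r in 𝓝[>] (0:ℝ), 0 < r := self_mem_nhdsWithin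
  have hrt : Tendsto (fun r : ℝ => r) (𝓝[>] (0:ℝ)) (𝓝 0) := nhdsWithin_le_nhds
  have hin : ∀ᶠ r in 𝓝[>] (0:ℝ), ∀ i, Metric.closedBall (w i r) r ⊆ K := by
    rw [eventually_all]
    intro i
    obtain ⟨ε, hε, hεK⟩ := Metric.mem_nhds_iff.mp (mem_interior_iff_mem_nhds.mp (hx i).int)
    have h1 : Tendsto (fun r : ℝ => |r| * (3 * (i : ℝ)) + r) (𝓝[>] (0:ℝ)) (𝓝 0) := by
      have h2 : Tendsto (fun r : ℝ => |r| * (3 * (i : ℝ)) + r) (𝓝 (0:ℝ)) (𝓝 (|0| * (3 * (i : ℝ)) + 0)) := by
        apply Continuous.tendsto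
        fun_prop
      simp only [abs_zero, zero_mul, add_zero] at h2
      exact h2.mono_left nhdsWithin_le_nhds
    filter_upwards [h1.eventually (gt_mem_nhds hε)] with r hr
    refine Subset.trans ?_ hεK
    intro y hy
    rw [Metric.mem_closedBall] at hy
    rw [Metric.mem_ball]
    calc dist y (x i) ≤ dist y (w i r) + dist (w i r) (x i) := dist_triangle _ _ _
      _ ≤ r + |r| * (3 * (i : ℝ)) := by rw [hwd]; gcongr
      _ < ε := by linarith
  have hdis : ∀ᶠ r in 𝓝[>] (0:ℝ), ∀ i j, i ≠ j →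
      Disjoint (Metric.closedBall (w i r) r) (Metric.closedBall (w j r) r) := by
    rw [eventually_all]
    intro i
    rw [eventually_all]
    intro j
    by_cases hij : i = j
    · exact Eventually.of_forall (fun r h => absurd hij h)
    by_cases hxx : x i = x j
    · filter_upwards [hr0] with r hr _
      apply Metric.closedBall_disjoint_closedBall
      have h1 : dist (w i r) (w j r) = r * (3 * |(i : ℝ) - j|) := by
        rw [dist_eq_norm]
        simp only [w, hxx, add_sub_add_left_eq_sub]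
        rw [← sub_smul, norm_smul, he, mul_one, Real.norm_eq_abs, ← mul_sub, ← mul_sub,
          abs_mul, abs_mul, abs_of_pos hr]
        norm_num
      have h2 : (1 : ℝ) ≤ |(i : ℝ) - j| := by
        have h3 : ((i : ℕ) : ℤ) - ((j : ℕ) : ℤ) ≠ 0 := by
          intro h
          apply hij
          apply Fin.ext
          omega
        have h4 := Int.one_le_abs h3
        have h5 : ((1 : ℤ) : ℝ) ≤ ((|((i : ℕ) : ℤ) - ((j : ℕ) : ℤ)| : ℤ) : ℝ) := by
          exact_mod_cast h4
        push_cast at h5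
        exact h5
      rw [h1]
      nlinarith
    · have h1 : Tendsto (fun r => dist (w i r) (w j r) - (r + r)) (𝓝[>] (0:ℝ))
          (𝓝 (dist (x i) (x j) - (0 + 0))) :=
        ((hwc i).dist (hwc j)).sub (hrt.add hrt)
      have h2 : 0 < dist (x i) (x j) - (0 + 0) := by
        simpa using hxx
      filter_upwards [h1.eventually (lt_mem_nhds h2)] with r hr _
      apply Metric.closedBall_disjoint_closedBall
      linarith
  have hineq : ∀ᶠ r in 𝓝[>] (0:ℝ), 0 ≤ ∑ i, ⟪w (σ i) r - w i r,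
      ⨍ y in Metric.closedBall (w (σ i) r) r, K.indicator T y⟫_ℝ := by
    filter_upwards [hr0, hin, hdis] with r hr hin hdis
    have h1 := swap_ineq hKc hK0 hT hb (B := fun i => Metric.closedBall (w i r) r)
      (fun i => Metric.isClosed_closedBall.measurableSet) (fun i j hij => hdis i j hij) hin σ
      (fun i => w (σ i) r - w i r) (by
        intro i y
        rw [Metric.mem_closedBall, Metric.mem_closedBall, dist_eq_norm, dist_eq_norm]
        have : y + (w (σ i) r - w i r) - w (σ i) r = y - w i r := by abel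
        rw [this])
    have h2 : ∀ i, ⨍ y in Metric.closedBall (w (σ i) r) r, K.indicator T y =
        (volume.real (Metric.closedBall (0 : Eu d) r))⁻¹ •
          ∫ y in Metric.closedBall (w (σ i) r) r, T y := by
      intro i
      rw [setAverage_eq]
      congr 1
      · rw [measureReal_def, measureReal_def, Measure.addHaar_closedBall_center]
      · refine setIntegral_congr_fun Metric.isClosed_closedBall.measurableSet (fun y hy => ?_)
        exact indicator_of_mem (hin _ hy) _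
    simp_rw [h2, inner_smul_right]
    rw [← Finset.mul_sum]
    exact mul_nonneg (inv_nonneg.mpr measureReal_nonneg) h1
  have hlim : Tendsto (fun r => ∑ i, ⟪w (σ i) r - w i r,
      ⨍ y in Metric.closedBall (w (σ i) r) r, K.indicator T y⟫_ℝ) (𝓝[>] (0:ℝ))
      (𝓝 (∑ i, ⟪x (σ i) - x i, T (x (σ i))⟫_ℝ)) := by
    refine tendsto_finsetSum _ (fun i _ => ?_)
    refine Tendsto.inner ((hwc (σ i)).sub (hwc i)) ?_
    refine (hx (σ i)).leb (3 * (σ i : ℕ)) (w (σ i)) ?_
    filter_upwards [hr0] with r hr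
    rw [Metric.mem_closedBall, dist_comm, hwd, abs_of_pos hr]
    push_cast
    linarith
  exact ge_of_tendsto hlim hineq

/-! ### Rockafellar's potential -/

/-- The affine function attached to a chain. -/
noncomputable def val (T : Eu d → Eu d) (n : ℕ) (x : ℕ → Eu d) (z : Eu d) : ℝ :=
  (∑ k ∈ Finset.range n, ⟪x (k + 1) - x k, T (x k)⟫_ℝ) + ⟪z - x n, T (x n)⟫_ℝ

lemma val_close {K : Set (Eu d)} (hKc : IsCompact K) (hK0 : volume K ≠ 0) {L : ℝ}
    {μ : Measure (Eu d)} {T : Eu d → Eu d} (hT : IsOptimalMap (unif K) μ T)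
    (hb : ∀ᵐ x ∂(volume.restrict K), ‖T x‖ ≤ L) (n : ℕ) (x : ℕ → Eu d)
    (hx : ∀ k, Good K L T (x k)) : val T n x (x 0) ≤ 0 := by
  have h1 := cyclic hKc hK0 hT hb (fun i : Fin (n + 1) => x i) (fun i => hx i)
    (finRotate (n + 1)).symm
  rw [← Equiv.sum_comp (finRotate (n + 1))] at h1
  simp only [Equiv.symm_apply_apply] at h1
  rw [Fin.sum_univ_castSucc] at h1
  have h2 : ∀ j : Fin n, ((finRotate (n + 1) (Fin.castSucc j) : Fin (n + 1)) : ℕ) = j + 1 := by
    intro j
    rw [coe_finRotate_of_ne_last]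
    · simp
    · exact (Fin.castSucc_lt_last j).ne
  have h3 : ((finRotate (n + 1) (Fin.last n) : Fin (n + 1)) : ℕ) = 0 := by
    rw [finRotate_last]; rfl
  simp only [h2, h3, Fin.val_castSucc, Fin.val_last] at h1
  rw [val, Finset.sum_range]
  have h4 : ∀ a b c : Eu d, ⟪a - b, c⟫_ℝ = -⟪b - a, c⟫_ℝ := by
    intro a b c
    rw [← inner_neg_left, neg_sub]
  rw [h4 (x 0) (x n)]
  have h5 : ∀ j : Fin n, ⟪x (j + 1) - x j, T (x j)⟫_ℝ = -⟪x j - x (j + 1), T (x j)⟫_ℝ :=
    fun j => h4 _ _ _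
  simp_rw [h5]
  rw [Finset.sum_neg_distrib]
  linarith

lemma val_lip (T : Eu d → Eu d) (n : ℕ) (x : ℕ → Eu d) {L : ℝ} (hL : ‖T (x n)‖ ≤ L)
    (z z' : Eu d) : val T n x z ≤ val T n x z' + L * ‖z - z'‖ := by
  have h1 : val T n x z - val T n x z' = ⟪z - z', T (x n)⟫_ℝ := by
    simp only [val, inner_sub_left]
    ring
  have h2 : ⟪z - z', T (x n)⟫_ℝ ≤ L * ‖z - z'‖ :=
    calc ⟪z - z', T (x n)⟫_ℝ ≤ ‖z - z'‖ * ‖T (x n)‖ := real_inner_le_norm _ _
      _ ≤ ‖z - z'‖ * L := by gcongr
      _ = L * ‖z - z'‖ := mul_comm _ _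
  linarith

lemma val_affine (T : Eu d → Eu d) (n : ℕ) (x : ℕ → Eu d) (z z' : Eu d) {a b : ℝ}
    (hab : a + b = 1) : val T n x (a • z + b • z') = a * val T n x z + b * val T n x z' := by
  simp only [val, inner_sub_left, inner_add_left, real_inner_smul_left]
  have hb : b = 1 - a := by linarith
  subst hb
  ring

lemma val_extend (T : Eu d → Eu d) (n : ℕ) (x : ℕ → Eu d) (y z : Eu d) :
    val T (n + 1) (fun k => if k ≤ n then x k else y) z = val T n x y + ⟪T y, z - y⟫_ℝ := by
  simp only [val]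
  rw [Finset.sum_range_succ]
  have h1 : ∀ k ∈ Finset.range n, ⟪(if k + 1 ≤ n then x (k + 1) else y) -
      (if k ≤ n then x k else y), T (if k ≤ n then x k else y)⟫_ℝ =
      ⟪x (k + 1) - x k, T (x k)⟫_ℝ := by
    intro k hk
    rw [Finset.mem_range] at hk
    rw [if_pos (by omega), if_pos (by omega)]
  rw [Finset.sum_congr rfl h1]
  simp only [le_refl, if_true, show ¬ (n + 1 ≤ n) by omega, if_false]
  rw [real_inner_comm (z - y)]

theorem brenier_aux (K : Set (Eu d)) (L : ℝ) (μ : Measure (Eu d))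
    (T : Eu d → Eu d) (hKc : IsCompact K) (hKconv : Convex ℝ K) (hKint : (interior K).Nonempty)
    (hμ : μ (Metric.closedBall 0 L)ᶜ = 0) (hT : IsOptimalMap (unif K) μ T) :
    ∃ φ : Eu d → ℝ, IsPot K L T φ := by
  have hK0 : volume K ≠ 0 := (Measure.measure_pos_of_nonempty_interior volume hKint).ne'
  have hKt : volume K ≠ ∞ := hKc.measure_lt_top.ne
  have hTm := hT.measurable
  have hb : ∀ᵐ x ∂(volume.restrict K), ‖T x‖ ≤ L := by
    have h1 : ((unif K).map T) (Metric.closedBall 0 L)ᶜ = 0 := by rw [hT.push]; exact hμ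
    rw [unif, Measure.map_smul, Measure.smul_apply, smul_eq_mul, mul_eq_zero] at h1
    have h2 : ((volume.restrict K).map T) (Metric.closedBall 0 L)ᶜ = 0 := by
      rcases h1 with h1 | h1
      · exact absurd h1 (ENNReal.inv_ne_zero.mpr hKt)
      · exact h1
    rw [Measure.map_apply hTm Metric.isClosed_closedBall.measurableSet.compl] at h2
    have h3 : ∀ᵐ x ∂(volume.restrict K), x ∉ T ⁻¹' (Metric.closedBall 0 L)ᶜ :=
      measure_eq_zero_iff_ae_notMem.mp h2
    filter_upwards [h3] with x hx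
    simpa using hx
  have hgood := ae_good hKc hKconv hTm hb
  obtain ⟨x0, hx0⟩ : ∃ x0, Good K L T x0 := by
    by_contra hne
    push Not at hne
    have h1 : ∀ᵐ x ∂(volume.restrict K), False := by
      filter_upwards [hgood] with x hx
      exact hne x hx
    have h2 : volume.restrict K = 0 := by
      rwa [← ae_eq_bot, ← eventually_false_iff_eq_bot]
    rw [Measure.restrict_eq_zero] at h2
    exact hK0 h2
  -- the index set of chains
  let Ch : Type := {p : ℕ × (ℕ → Eu d) // p.2 0 = x0 ∧ ∀ k, Good K L T (p.2 k)}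
  have hne : Nonempty Ch := ⟨⟨(0, fun _ => x0), rfl, fun _ => hx0⟩⟩
  let V : Ch → Eu d → ℝ := fun p z => val T p.1.1 p.1.2 z
  have hVlip : ∀ (p : Ch) (z z' : Eu d), V p z ≤ V p z' + L * ‖z - z'‖ := fun p z z' =>
    val_lip T p.1.1 p.1.2 (p.2.2 _).le z z'
  have hV0 : ∀ p : Ch, V p x0 ≤ 0 := by
    intro p
    have := val_close hKc hK0 hT hb p.1.1 p.1.2 p.2.2
    rwa [p.2.1] at this
  have hbdd : ∀ z, BddAbove (range fun p : Ch => V p z) := by
    intro z
    refine ⟨L * ‖z - x0‖, ?_⟩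
    rintro _ ⟨p, rfl⟩
    have h1 := hVlip p z x0
    have h2 := hV0 p
    simp only
    linarith
  let φ : Eu d → ℝ := fun z => ⨆ p : Ch, V p z
  have hle : ∀ (p : Ch) z, V p z ≤ φ z := fun p z => le_ciSup (hbdd z) p
  have hlip : ∀ z z', φ z ≤ φ z' + L * ‖z - z'‖ := by
    intro z z'
    refine ciSup_le (fun p => ?_)
    exact (hVlip p z z').trans (by linarith [hle p z'])
  refine ⟨φ, hTm, hb, ⟨convex_univ, ?_⟩, ?_, ?_⟩
  · intro z _ z' _ a b ha hb' hab
    refine ciSup_le (fun p => ?_)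
    simp only [V]
    rw [val_affine T _ _ z z' hab, smul_eq_mul, smul_eq_mul]
    exact add_le_add (mul_le_mul_of_nonneg_left (hle p z) ha)
      (mul_le_mul_of_nonneg_left (hle p z') hb')
  · intro x z
    rw [abs_sub_le_iff]
    constructor
    · linarith [hlip x z]
    · have := hlip z x
      rw [norm_sub_rev] at this
      linarith
  · filter_upwards [hgood] with y hy z
    have h1 : φ y ≤ φ z - ⟪T y, z - y⟫_ℝ := by
      refine ciSup_le (fun p => ?_)
      let q : Ch := ⟨(p.1.1 + 1, fun k => if k ≤ p.1.1 then p.1.2 k else y), by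
        simp only [zero_le, if_true]; exact p.2.1, by
        intro k
        simp only
        split_ifs
        · exact p.2.2 k
        · exact hy⟩
      have h2 : V q z = V p y + ⟪T y, z - y⟫_ℝ := val_extend T p.1.1 p.1.2 y z
      have h3 := hle q z
      linarith
    linarith

end Brenier

theorem brenier : S_BRENIER := fun _ K L μ T hKc hKconv hKint _ hμ hT =>
  Brenier.brenier_aux K L μ T hKc hKconv hKint hμ hT

end Vale.Agent.P074
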