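import Vale.Agent.P074.Defs

open MeasureTheory Set Filter
open scoped ENNReal NNReal InnerProductSpace Topology

namespace Vale.Agent.P074

namespace CellMass

variable {d : ℕ} {ι : Type} [Fintype ι] [Nonempty ι]

lemma hyperplane_null {v : Eu d} (hv : v ≠ 0) (c : ℝ) :
    volume {x : Eu d | ⟪x, v⟫_ℝ = c} = 0 := by
  let s : AffineSubspace ℝ (Eu d) :=
    { carrier := {x | ⟪x, v⟫_ℝ = c}
      smul_vsub_vadd_mem' := by
        intro t p1 p2 p3 h1 h2 h3
        simp only [mem_ofPred_eq] at *
        simp only [vsub_eq_sub, vadd_eq_add, inner_add_left, inner_smul_left, inner_sub_left, h1,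
          h2, h3]
        simp }
  have hs : s ≠ ⊤ := by
    intro h
    have h1 : ∀ x : Eu d, ⟪x, v⟫_ℝ = c := by
      intro x
      have : x ∈ s := by rw [h]; exact AffineSubspace.mem_top ℝ _ x
      exact this
    have h2 := h1 0
    have h3 := h1 v
    rw [inner_zero_left] at h2
    rw [← h2, real_inner_self_eq_norm_sq] at h3
    have : ‖v‖ = 0 := by simpa using h3
    exact hv (norm_eq_zero.mp this)
  exact Measure.addHaar_affineSubspace volume s hs

lemma le_pot (y : ι → Eu d) (ψ : ι → ℝ) (x : Eu d) (i : ι) :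
    ⟪x, y i⟫_ℝ - ψ i ≤ pot y ψ x :=
  le_ciSup (f := fun i => ⟪x, y i⟫_ℝ - ψ i) (Set.finite_range _).bddAbove i

lemma exists_eq_pot (y : ι → Eu d) (ψ : ι → ℝ) (x : Eu d) :
    ∃ i, ⟪x, y i⟫_ℝ - ψ i = pot y ψ x :=
  exists_eq_ciSup_of_finite (f := fun i => ⟪x, y i⟫_ℝ - ψ i)

lemma continuous_pot (y : ι → Eu d) (ψ : ι → ℝ) : Continuous (pot y ψ) := by
  have h : pot y ψ = fun x => Finset.univ.sup' Finset.univ_nonempty
      (fun i => ⟪x, y i⟫_ℝ - ψ i) := by
    ext x
    unfold pot
    rw [Finset.sup'_univ_eq_ciSup]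
  rw [h]
  apply Continuous.finset_sup'_apply
  intro i _
  fun_prop

lemma isClosed_cell {K : Set (Eu d)} (hK : IsClosed K) (y : ι → Eu d) (ψ : ι → ℝ) (i : ι) :
    IsClosed (cell K y ψ i) := by
  have : cell K y ψ i = K ∩ ⋂ j, {x | ⟪x, y j⟫_ℝ - ψ j ≤ ⟪x, y i⟫_ℝ - ψ i} := by
    ext x; simp [cell]
  rw [this]
  apply hK.inter
  apply isClosed_iInter
  intro j
  exact isClosed_le (by fun_prop) (by fun_prop)

lemma mem_cell_iff {K : Set (Eu d)} (y : ι → Eu d) (ψ : ι → ℝ) (i : ι) (x : Eu d) :
    x ∈ cell K y ψ i ↔ x ∈ K ∧ ⟪x, y i⟫_ℝ - ψ i = pot y ψ x := by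
  constructor
  · rintro ⟨h1, h2⟩
    refine ⟨h1, le_antisymm (le_pot y ψ x i) ?_⟩
    exact ciSup_le h2
  · rintro ⟨h1, h2⟩
    refine ⟨h1, fun j => ?_⟩
    rw [h2]; exact le_pot y ψ x j

lemma iUnion_cell (K : Set (Eu d)) (y : ι → Eu d) (ψ : ι → ℝ) : ⋃ i, cell K y ψ i = K := by
  ext x
  simp only [mem_iUnion, mem_cell_iff]
  constructor
  · rintro ⟨i, h, _⟩; exact h
  · intro h
    obtain ⟨i, hi⟩ := exists_eq_pot y ψ x
    exact ⟨i, h, hi⟩

lemma aedisjoint_cell {K : Set (Eu d)} {y : ι → Eu d} (hy : Function.Injective y) (ψ : ι → ℝ) :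
    Pairwise (Function.onFun (AEDisjoint volume) (cell K y ψ)) := by
  intro i j hij
  have hv : y i - y j ≠ 0 := sub_ne_zero.mpr (fun h => hij (hy h))
  refine measure_mono_null ?_ (hyperplane_null hv (ψ i - ψ j))
  rintro x ⟨hi, hj⟩
  rw [mem_cell_iff] at hi hj
  simp only [mem_ofPred_eq, inner_sub_right]
  linarith [hi.2, hj.2]

/-- Effect of lowering one weight. -/
lemma pot_update (y : ι → Eu d) (ψ : ι → ℝ) (i : ι) [DecidableEq ι] {s : ℝ} (hs : 0 < s)
    (x : Eu d) : pot y (Function.update ψ i (ψ i - s)) x =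
      max (pot y ψ x) (⟪x, y i⟫_ℝ - ψ i + s) := by
  apply le_antisymm
  · unfold pot
    apply ciSup_le
    intro j
    by_cases hj : j = i
    · subst hj
      rw [Function.update_self]
      exact le_max_of_le_right (by linarith)
    · rw [Function.update_of_ne hj]
      exact le_max_of_le_left (le_pot y ψ x j)
  · apply max_le
    · unfold pot
      apply ciSup_le
      intro j
      by_cases hj : j = i
      · subst hj
        refine le_trans ?_ (le_pot y _ x j)
        rw [Function.update_self]; linarith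
      · refine le_trans ?_ (le_pot y _ x j)
        rw [Function.update_of_ne hj]
    · refine le_trans ?_ (le_pot y _ x i)
      rw [Function.update_self]; linarith

lemma max_aux (A l N : ℝ) (hN : 0 < N) :
    max A (l + 1 / N) - A = (1 / N) * max ((l - A) * N + 1) 0 := by
  have e : (1 / N) * ((l - A) * N + 1) = l - A + 1 / N := by field_simp
  rcases le_total 0 ((l - A) * N + 1) with h | h
  · have h1 : 0 ≤ (1 / N) * ((l - A) * N + 1) := mul_nonneg (by positivity) h
    rw [max_eq_left h, e, max_eq_right (by linarith)]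
    ring
  · have h1 : (1 / N) * ((l - A) * N + 1) ≤ 0 :=
      mul_nonpos_of_nonneg_of_nonpos (by positivity) h
    rw [max_eq_right h, max_eq_left (by linarith)]
    ring

end CellMass

open CellMass

theorem cellmass : S_CELLMASS := by
  classical
  intro d ι _ _ K w y m ψ hKc hw hwb hm hsum hy hmin
  have hKm : MeasurableSet K := hKc.isClosed.measurableSet
  have hfin : IsFiniteMeasure (volume.restrict K) := ⟨by simpa using hKc.measure_lt_top⟩
  have hcm : ∀ i, MeasurableSet (cell K y ψ i) := fun i =>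
    (isClosed_cell hKc.isClosed y ψ i).measurableSet
  have hcK : ∀ i, cell K y ψ i ⊆ K := fun i x hx => hx.1
  have hwint : IntegrableOn w K := by
    refine Integrable.mono' (integrable_const (3 / 2 : ℝ)) hw.aestronglyMeasurable ?_
    filter_upwards [ae_restrict_mem hKm] with x hx
    have := hwb x hx
    rw [Real.norm_eq_abs, abs_le]; constructor <;> linarith [this.1, this.2]
  have hpw : ∀ ψ' : ι → ℝ, IntegrableOn (fun x => pot y ψ' x * w x) K := by
    intro ψ'
    obtain ⟨C, hC⟩ := hKc.exists_bound_of_continuousOn (continuous_pot y ψ').continuousOn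
    refine Integrable.mono' (integrable_const (C * (3 / 2) : ℝ))
      (((continuous_pot y ψ').measurable.mul hw).aestronglyMeasurable) ?_
    filter_upwards [ae_restrict_mem hKm] with x hx
    have h1 := hwb x hx
    rw [norm_mul]
    have h2 : ‖w x‖ ≤ 3 / 2 := by
      rw [Real.norm_eq_abs, abs_le]; constructor <;> linarith [h1.1, h1.2]
    have h3 := hC x hx
    exact mul_le_mul h3 h2 (norm_nonneg _) ((norm_nonneg _).trans h3)
  -- key inequality
  have hle : ∀ i, m i ≤ ∫ x in cell K y ψ i, w x := by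
    intro i
    -- for each n
    have hn : ∀ n : ℕ, m i ≤ ∫ x in K,
        max ((⟪x, y i⟫_ℝ - ψ i - pot y ψ x) * (n + 1) + 1) 0 * w x := by
      intro n
      have hs : (0 : ℝ) < 1 / (n + 1) := by positivity
      have h1 := hmin (Function.update ψ i (ψ i - 1 / (n + 1)))
      unfold dualJ at h1
      have hsum' : ∑ j, m j * Function.update ψ i (ψ i - 1 / ((n : ℝ) + 1)) j =
          ∑ j, m j * ψ j - m i * (1 / ((n : ℝ) + 1)) := by
        rw [← Finset.add_sum_erase _ _ (Finset.mem_univ i),
          ← Finset.add_sum_erase Finset.univ (fun j => m j * ψ j) (Finset.mem_univ i)]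
        rw [Function.update_self]
        have : ∑ j ∈ Finset.univ.erase i,
            m j * Function.update ψ i (ψ i - 1 / ((n : ℝ) + 1)) j =
            ∑ j ∈ Finset.univ.erase i, m j * ψ j := by
          apply Finset.sum_congr rfl
          intro j hj
          rw [Function.update_of_ne (Finset.ne_of_mem_erase hj)]
        rw [this]; ring
      rw [hsum'] at h1
      have h2 : ∫ x in K, (pot y (Function.update ψ i (ψ i - 1 / ((n : ℝ) + 1))) x * w x
          - pot y ψ x * w x) = (1 / ((n : ℝ) + 1)) * ∫ x in K,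
          max ((⟪x, y i⟫_ℝ - ψ i - pot y ψ x) * (n + 1) + 1) 0 * w x := by
        rw [← integral_const_mul]
        congr 1
        ext x
        rw [pot_update y ψ i hs]
        have e1 : max (pot y ψ x) (⟪x, y i⟫_ℝ - ψ i + 1 / ((n : ℝ) + 1)) - pot y ψ x =
            (1 / ((n : ℝ) + 1)) * max ((⟪x, y i⟫_ℝ - ψ i - pot y ψ x) * (n + 1) + 1) 0 := by
          exact max_aux _ _ _ (by positivity)
        calc _ = (max (pot y ψ x) (⟪x, y i⟫_ℝ - ψ i + 1 / ((n : ℝ) + 1)) - pot y ψ x) * w x := by ring
          _ = _ := by rw [e1]; ring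
      rw [integral_sub (hpw _) (hpw _)] at h2
      have h3 : m i * (1 / ((n : ℝ) + 1)) ≤ (1 / ((n : ℝ) + 1)) * ∫ x in K,
          max ((⟪x, y i⟫_ℝ - ψ i - pot y ψ x) * (n + 1) + 1) 0 * w x := by
        rw [← h2]; linarith
      rw [mul_comm] at h3
      exact le_of_mul_le_mul_left h3 hs
    -- dominated convergence
    have hlim : Tendsto (fun n : ℕ => ∫ x in K,
        max ((⟪x, y i⟫_ℝ - ψ i - pot y ψ x) * (n + 1) + 1) 0 * w x) atTop
        (𝓝 (∫ x in K, (cell K y ψ i).indicator w x)) := by
      apply tendsto_integral_of_dominated_convergence (fun _ => (3 / 2 : ℝ))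
      · intro n
        have hc := continuous_pot y ψ
        refine Measurable.aestronglyMeasurable ?_
        refine Measurable.mul ?_ hw
        exact Continuous.measurable (by fun_prop)
      · exact integrable_const _
      · intro n
        filter_upwards [ae_restrict_mem hKm] with x hx
        have h1 := hwb x hx
        have h4 := le_pot y ψ x i
        have h5 : max ((⟪x, y i⟫_ℝ - ψ i - pot y ψ x) * (n + 1) + 1) 0 ≤ 1 := by
          apply max_le _ zero_le_one
          have : (⟪x, y i⟫_ℝ - ψ i - pot y ψ x) * (n + 1) ≤ 0 :=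
            mul_nonpos_of_nonpos_of_nonneg (by linarith) (by positivity)
          linarith
        rw [Real.norm_eq_abs, abs_of_nonneg (mul_nonneg (le_max_right _ _) (by linarith [h1.1]))]
        calc _ ≤ 1 * (3 / 2 : ℝ) := mul_le_mul h5 h1.2 (by linarith [h1.1]) zero_le_one
          _ = _ := by ring
      · filter_upwards [ae_restrict_mem hKm] with x hx
        by_cases hxc : x ∈ cell K y ψ i
        · rw [indicator_of_mem hxc]
          have := ((mem_cell_iff y ψ i x).mp hxc).2
          have h6 : ∀ n : ℕ, max ((⟪x, y i⟫_ℝ - ψ i - pot y ψ x) * (n + 1) + 1) 0 * w x = w x := by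
            intro n
            rw [this]; simp
          simp_rw [h6]
          exact tendsto_const_nhds
        · rw [indicator_of_notMem hxc]
          have hlt : ⟪x, y i⟫_ℝ - ψ i - pot y ψ x < 0 := by
            have h7 := le_pot y ψ x i
            rcases lt_or_eq_of_le h7 with h8 | h8
            · linarith
            · exact absurd ((mem_cell_iff y ψ i x).mpr ⟨hx, h8⟩) hxc
          apply tendsto_const_nhds.congr'
          have hev : ∀ᶠ n : ℕ in atTop, (⟪x, y i⟫_ℝ - ψ i - pot y ψ x) * ((n : ℝ) + 1) + 1 ≤ 0 := by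
            obtain ⟨N, hN⟩ := exists_nat_gt (1 / (-(⟪x, y i⟫_ℝ - ψ i - pot y ψ x)))
            filter_upwards [eventually_ge_atTop N] with n hn'
            have h9 : 0 < -(⟪x, y i⟫_ℝ - ψ i - pot y ψ x) := by linarith
            rw [div_lt_iff₀ h9] at hN
            have h10 : (N : ℝ) ≤ n := by exact_mod_cast hn'
            nlinarith
          filter_upwards [hev] with n hn'
          rw [max_eq_right hn']; simp
    have h11 := ge_of_tendsto' hlim hn
    rwa [setIntegral_indicator (hcm i), inter_eq_right.mpr (hcK i)] at h11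
  -- total mass
  have htot : ∑ i, ∫ x in cell K y ψ i, w x = ∫ x in K, w x := by
    have h12 : ∫ x in ⋃ i, cell K y ψ i, w x = ∑' i, ∫ x in cell K y ψ i, w x := by
      apply integral_iUnion_ae (fun i => (hcm i).nullMeasurableSet) (aedisjoint_cell hy ψ)
      rw [iUnion_cell]; exact hwint
    rw [iUnion_cell, tsum_fintype] at h12
    exact h12.symm
  intro i
  by_contra hne
  have hlt : m i < ∫ x in cell K y ψ i, w x := lt_of_le_of_ne (hle i) (Ne.symm hne)
  have : ∑ i, m i < ∑ i, ∫ x in cell K y ψ i, w x :=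
    Finset.sum_lt_sum (fun j _ => hle j) ⟨i, Finset.mem_univ i, hlt⟩
  rw [htot, hsum] at this
  exact lt_irrefl _ this

end Vale.Agent.P074
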