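import Vale.Agent.P074.CellMass

open MeasureTheory Set Filter
open scoped ENNReal NNReal InnerProductSpace Topology

namespace Vale.Agent.P074

namespace Exist

open CellMass

variable {d : ℕ} {ι : Type} [Fintype ι] [Nonempty ι]

lemma pot_sub_le_dist (y : ι → Eu d) (ψ ψ' : ι → ℝ) (x : Eu d) :
    pot y ψ x - pot y ψ' x ≤ dist ψ ψ' := by
  rw [sub_le_iff_le_add]
  unfold pot
  apply ciSup_le
  intro i
  have h1 := le_pot y ψ' x i
  have h2 : |ψ i - ψ' i| ≤ dist ψ ψ' := by
    have := dist_le_pi_dist ψ ψ' i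
    rwa [Real.dist_eq] at this
  have h3 := (abs_le.mp h2).1
  unfold pot at h1
  linarith

lemma abs_pot_sub_le_dist (y : ι → Eu d) (ψ ψ' : ι → ℝ) (x : Eu d) :
    |pot y ψ x - pot y ψ' x| ≤ dist ψ ψ' := by
  rw [abs_le]
  constructor
  · have := pot_sub_le_dist y ψ' ψ x
    rw [dist_comm] at this; linarith
  · exact pot_sub_le_dist y ψ ψ' x

lemma pot_add_const (y : ι → Eu d) (ψ : ι → ℝ) (c : ℝ) (x : Eu d) :
    pot y (fun i => ψ i + c) x = pot y ψ x - c := by
  apply le_antisymm
  · unfold pot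
    apply ciSup_le
    intro i
    have := le_pot y ψ x i
    unfold pot at this
    linarith
  · rw [sub_le_iff_le_add]
    apply ciSup_le
    intro i
    have := le_pot y (fun i => ψ i + c) x i
    linarith

end Exist

open CellMass Exist

theorem exist : S_EXIST := by
  classical
  intro d ι _ _ K w y m hKc hw hwb hm hsum
  have hKm : MeasurableSet K := hKc.isClosed.measurableSet
  have hfin : IsFiniteMeasure (volume.restrict K) := ⟨by simpa using hKc.measure_lt_top⟩
  have hwint : IntegrableOn w K := by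
    refine Integrable.mono' (integrable_const (3 / 2 : ℝ)) hw.aestronglyMeasurable ?_
    filter_upwards [ae_restrict_mem hKm] with x hx
    have := hwb x hx
    rw [Real.norm_eq_abs, abs_le]; constructor <;> linarith [this.1, this.2]
  have hpw : ∀ ψ' : ι → ℝ, IntegrableOn (fun x => pot y ψ' x * w x) K := by
    intro ψ'
    obtain ⟨C, hC⟩ := hKc.exists_bound_of_continuousOn (continuous_pot y ψ').continuousOn
    refine Integrable.mono' (integrable_const (C * (3 / 2) : ℝ))
      (((continuous_pot y ψ').measurable.mul hw).aestronglyMeasurable) ?_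
    filter_upwards [ae_restrict_mem hKm] with x hx
    have h1 := hwb x hx
    rw [norm_mul]
    have h2 : ‖w x‖ ≤ 3 / 2 := by
      rw [Real.norm_eq_abs, abs_le]; constructor <;> linarith [h1.1, h1.2]
    have h3 := hC x hx
    exact mul_le_mul h3 h2 (norm_nonneg _) ((norm_nonneg _).trans h3)
  set D : (ι → ℝ) → ℝ := dualJ K w m y with hD
  set Sm : ℝ := ∑ i, m i with hSm
  have hSm0 : 0 < Sm := Finset.sum_pos (fun i _ => hm i) Finset.univ_nonempty
  -- invariance
  have hinv : ∀ (ψ : ι → ℝ) (c : ℝ), D (fun i => ψ i + c) = D ψ := by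
    intro ψ c
    simp only [hD, dualJ]
    have e1 : ∫ x in K, pot y (fun i => ψ i + c) x * w x =
        (∫ x in K, pot y ψ x * w x) - c * ∫ x in K, w x := by
      have : ∀ x, pot y (fun i => ψ i + c) x * w x = pot y ψ x * w x - c * w x := by
        intro x; rw [pot_add_const]; ring
      simp_rw [this]
      rw [integral_sub (hpw ψ) (hwint.const_mul c), integral_const_mul]
    have e2 : ∑ i, m i * (ψ i + c) = ∑ i, m i * ψ i + c * Sm := by
      simp_rw [mul_add]
      rw [Finset.sum_add_distrib, ← Finset.sum_mul, mul_comm c]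
    rw [e1, e2, ← hsum]
    ring
  -- continuity
  have hcont : Continuous D := by
    have hL : LipschitzWith (Real.toNNReal (2 * Sm)) D := by
      apply LipschitzWith.of_dist_le_mul
      intro ψ ψ'
      rw [Real.dist_eq, Real.coe_toNNReal _ (by positivity)]
      simp only [hD, dualJ]
      have e1 : |(∫ x in K, pot y ψ x * w x) - ∫ x in K, pot y ψ' x * w x| ≤ dist ψ ψ' * Sm := by
        rw [← integral_sub (hpw ψ) (hpw ψ')]
        calc |∫ x in K, (pot y ψ x * w x - pot y ψ' x * w x)|
            ≤ ∫ x in K, |pot y ψ x * w x - pot y ψ' x * w x| := abs_integral_le_integral_abs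
          _ ≤ ∫ x in K, dist ψ ψ' * w x := by
              apply setIntegral_mono_on (((hpw ψ).sub (hpw ψ')).abs) (hwint.const_mul _) hKm
              intro x hx
              have h1 := hwb x hx
              change |pot y ψ x * w x - pot y ψ' x * w x| ≤ _
              rw [← sub_mul, abs_mul, abs_of_nonneg (by linarith [h1.1] : 0 ≤ w x)]
              exact mul_le_mul_of_nonneg_right (abs_pot_sub_le_dist y ψ ψ' x) (by linarith [h1.1])
          _ = dist ψ ψ' * Sm := by rw [integral_const_mul, ← hsum]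
      have e2 : |∑ i, m i * ψ i - ∑ i, m i * ψ' i| ≤ dist ψ ψ' * Sm := by
        rw [← Finset.sum_sub_distrib, hSm, Finset.mul_sum]
        refine (Finset.abs_sum_le_sum_abs _ _).trans ?_
        apply Finset.sum_le_sum
        intro i _
        rw [← mul_sub, abs_mul, abs_of_pos (hm i), mul_comm]
        apply mul_le_mul_of_nonneg_right _ (hm i).le
        have := dist_le_pi_dist ψ ψ' i
        rwa [Real.dist_eq] at this
      calc _ = |((∫ x in K, pot y ψ x * w x) - ∫ x in K, pot y ψ' x * w x) +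
            (∑ i, m i * ψ i - ∑ i, m i * ψ' i)| := by congr 1; ring
        _ ≤ _ := abs_add_le _ _
        _ ≤ 2 * Sm * dist ψ ψ' := by linarith
    exact hL.continuous
  -- bound on inner products
  obtain ⟨A, hA0, hA⟩ : ∃ A : ℝ, 0 ≤ A ∧ ∀ x ∈ K, ∀ i, |⟪x, y i⟫_ℝ| ≤ A := by
    obtain ⟨R, hR⟩ := hKc.isBounded.subset_closedBall 0
    refine ⟨max R 0 * ∑ j, ‖y j‖, by positivity, ?_⟩
    intro x hx i
    have h1 : ‖x‖ ≤ max R 0 := by
      have := hR hx
      rw [Metric.mem_closedBall, dist_zero_right] at this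
      exact this.trans (le_max_left _ _)
    refine (abs_real_inner_le_norm _ _).trans ?_
    apply mul_le_mul h1 _ (norm_nonneg _) (le_max_right _ _)
    exact Finset.single_le_sum (f := fun j => ‖y j‖) (fun j _ => norm_nonneg _)
      (Finset.mem_univ i)
  -- value at zero
  have hD0 : D 0 ≤ A * Sm := by
    simp only [hD, dualJ]
    have : ∑ i, m i * (0 : ι → ℝ) i = 0 := by simp
    rw [this, add_zero, hsum, ← integral_const_mul]
    apply setIntegral_mono_on (hpw 0) (hwint.const_mul _) hKm
    intro x hx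
    have h1 := hwb x hx
    apply mul_le_mul_of_nonneg_right _ (by linarith [h1.1])
    unfold pot
    apply ciSup_le
    intro i
    have := (abs_le.mp (hA x hx i)).2
    simpa using this
  -- coercivity
  have hcoer : ∀ ψ : ι → ℝ, (∀ i, 0 ≤ ψ i) → (∃ i, ψ i = 0) → ∀ j,
      -(A * Sm) + m j * ψ j ≤ D ψ := by
    rintro ψ hpos ⟨i0, hi0⟩ j
    simp only [hD, dualJ]
    have h1 : -(A * Sm) ≤ ∫ x in K, pot y ψ x * w x := by
      rw [hsum, ← integral_const_mul, ← integral_neg]
      apply setIntegral_mono_on (hwint.const_mul _).neg (hpw ψ) hKm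
      intro x hx
      have h1 := hwb x hx
      have h2 := le_pot y ψ x i0
      rw [hi0, sub_zero] at h2
      have h3 := (abs_le.mp (hA x hx i0)).1
      change -(A * w x) ≤ pot y ψ x * w x
      have h4 : 0 ≤ (pot y ψ x + A) * w x := mul_nonneg (by linarith) (by linarith [h1.1])
      linarith
    have h2 : m j * ψ j ≤ ∑ i, m i * ψ i :=
      Finset.single_le_sum (f := fun i => m i * ψ i)
        (fun i _ => mul_nonneg (hm i).le (hpos i)) (Finset.mem_univ j)
    linarith
  -- compact box
  set M : ℝ := ∑ j, 2 * A * Sm / m j with hM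
  have hM0 : 0 ≤ M := Finset.sum_nonneg fun j _ => by have := hm j; positivity
  have hMj : ∀ j, 2 * A * Sm ≤ m j * M := by
    intro j
    have h1 : 2 * A * Sm / m j ≤ M :=
      Finset.single_le_sum (f := fun j => 2 * A * Sm / m j)
        (fun j _ => by have := hm j; positivity) (Finset.mem_univ j)
    rw [div_le_iff₀ (hm j)] at h1
    linarith
  obtain ⟨ψ₀, hψ₀, hmin⟩ := (isCompact_Icc (a := (0 : ι → ℝ)) (b := fun _ => M)).exists_isMinOn
    ⟨0, by simp only [mem_Icc, le_refl, true_and]; intro i; exact hM0⟩ hcont.continuousOn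
  refine ⟨ψ₀, fun ψ' => ?_⟩
  have hmin' : ∀ ψ ∈ Icc (0 : ι → ℝ) (fun _ => M), D ψ₀ ≤ D ψ := fun ψ h => hmin h
  -- normalise
  obtain ⟨i0, hi0⟩ := exists_eq_ciInf_of_finite (f := ψ')
  set c : ℝ := ⨅ i, ψ' i with hc
  have hcle : ∀ i, c ≤ ψ' i := fun i => ciInf_le (Set.finite_range ψ').bddBelow i
  set ψ'' : ι → ℝ := fun i => ψ' i + (-c) with hψ''
  have hD'' : D ψ'' = D ψ' := hinv ψ' (-c)
  rw [← hD'']
  have hpos : ∀ i, 0 ≤ ψ'' i := fun i => by simp only [hψ'']; linarith [hcle i]
  have hzero : ∃ i, ψ'' i = 0 := ⟨i0, by simp only [hψ'']; rw [hi0]; ring⟩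
  by_cases hbox : ∀ i, ψ'' i ≤ M
  · exact hmin' ψ'' ⟨hpos, hbox⟩
  · push Not at hbox
    obtain ⟨j, hj⟩ := hbox
    have h1 := hcoer ψ'' hpos hzero j
    have h2 : D ψ₀ ≤ D 0 := hmin' 0 ⟨le_refl _, fun i => hM0⟩
    have h3 : m j * M ≤ m j * ψ'' j := mul_le_mul_of_nonneg_left hj.le (hm j).le
    have h4 := hMj j
    linarith

end Vale.Agent.P074
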