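import Mathlib
import Vale.Agent.P074.Defs

open MeasureTheory Set Filter
open scoped ENNReal NNReal InnerProductSpace Topology

namespace Vale.Agent.P074

/-- Difference quotients of a convex function are monotone. -/
lemma interp_quot_mono {w : ℝ → ℝ} (hw : ConvexOn ℝ univ w) {h : ℝ} (hh : 0 < h) :
    Monotone (fun t => (w (t + h) - w t) / h) := by
  intro s t hst
  rcases hst.eq_or_lt with rfl | hst
  · exact le_rfl
  have h1 := hw.secant_mono (mem_univ s) (mem_univ (s + h)) (mem_univ (t + h))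
    (by linarith : s + h ≠ s) (by linarith : t + h ≠ s) (by linarith)
  have h2 := hw.secant_mono (mem_univ (t + h)) (mem_univ s) (mem_univ t)
    (by linarith : s ≠ t + h) (by linarith : t ≠ t + h) hst.le
  have e1 : (w (s + h) - w s) / h = (w (s + h) - w s) / (s + h - s) := by
    congr 1
    ring
  have e2 : (w (t + h) - w s) / (t + h - s) = (w s - w (t + h)) / (s - (t + h)) := by
    rw [← neg_div_neg_eq]
    congr 1 <;> ring
  have e3 : (w t - w (t + h)) / (t - (t + h)) = (w (t + h) - w t) / h := by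
    rw [← neg_div_neg_eq]
    congr 1 <;> ring
  show (w (s + h) - w s) / h ≤ (w (t + h) - w t) / h
  rw [e1, ← e3]
  exact h1.trans (e2.le.trans h2)

lemma interp_lip {w : ℝ → ℝ} {L : ℝ} (hL : 0 ≤ L) (hwL : ∀ x y, |w x - w y| ≤ L * |x - y|) :
    LipschitzWith (Real.toNNReal L) w := by
  apply LipschitzWith.of_dist_le_mul
  intro x y
  rw [Real.dist_eq, Real.dist_eq, Real.coe_toNNReal L hL]
  exact hwL x y

lemma interp_ac {w : ℝ → ℝ} {L : ℝ} (hL : 0 ≤ L) (hwL : ∀ x y, |w x - w y| ≤ L * |x - y|)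
    (a b : ℝ) : AbsolutelyContinuousOnInterval w a b :=
  ((interp_lip hL hwL).lipschitzOnWith).absolutelyContinuousOnInterval

/-- The main integration by parts estimate. -/
lemma interp_ibp {w f : ℝ → ℝ} {L A M a b : ℝ} (hw : ConvexOn ℝ univ w) (hL : 0 ≤ L) (hA : 0 ≤ A)
    (hwL : ∀ x y, |w x - w y| ≤ L * |x - y|) (hf : ∀ x y, |f x - f y| ≤ A * |x - y|)
    (hM : ∀ t ∈ Icc a b, |f t| ≤ M) (hab : a ≤ b) :
    |∫ t in a..b, deriv w t * deriv f t| ≤ 4 * L * M := by
  have hM0 : 0 ≤ M := (abs_nonneg _).trans (hM a (left_mem_Icc.2 hab))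
  set h : ℕ → ℝ := fun n => 1 / ((n : ℝ) + 1) with hh
  have hpos : ∀ n, 0 < h n := fun n => by positivity
  set p : ℕ → ℝ → ℝ := fun n t => (w (t + h n) - w t) / h n with hp
  have hpL : ∀ n t, |p n t| ≤ L := by
    intro n t
    rw [hp]
    simp only
    rw [abs_div, abs_of_pos (hpos n), div_le_iff₀ (hpos n)]
    have := hwL (t + h n) t
    rwa [add_sub_cancel_left, abs_of_pos (hpos n)] at this
  have hpmono : ∀ n, Monotone (p n) := fun n => interp_quot_mono hw (hpos n)
  have hplip : ∀ n x y, |p n x - p n y| ≤ (2 * L / h n) * |x - y| := by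
    intro n x y
    have e : p n x - p n y = ((w (x + h n) - w (y + h n)) - (w x - w y)) / h n := by
      rw [hp]
      ring
    rw [e, abs_div, abs_of_pos (hpos n), div_le_iff₀ (hpos n)]
    have h1 := hwL (x + h n) (y + h n)
    have h2 := hwL x y
    rw [add_sub_add_right_eq_sub] at h1
    calc |(w (x + h n) - w (y + h n)) - (w x - w y)|
        ≤ |w (x + h n) - w (y + h n)| + |w x - w y| := abs_sub _ _
      _ ≤ L * |x - y| + L * |x - y| := add_le_add h1 h2
      _ = 2 * L / h n * |x - y| * h n := by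
        have := (hpos n).ne'
        field_simp
        ring
  have hpac : ∀ n, AbsolutelyContinuousOnInterval (p n) a b := fun n =>
    interp_ac (by have := hpos n; positivity) (hplip n) a b
  have hfac : AbsolutelyContinuousOnInterval f a b := interp_ac hA hf a b
  -- bound for each `n`
  have hbound : ∀ n, |∫ t in a..b, p n t * deriv f t| ≤ 4 * L * M := by
    intro n
    rw [AbsolutelyContinuousOnInterval.integral_mul_deriv_eq_deriv_mul (hpac n) hfac]
    have hd0 : ∀ t, 0 ≤ deriv (p n) t := fun t => (hpmono n).deriv_nonneg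
    have h1 : |∫ t in a..b, deriv (p n) t * f t| ≤ 2 * L * M := by
      calc |∫ t in a..b, deriv (p n) t * f t| ≤ ∫ t in a..b, |deriv (p n) t * f t| :=
            intervalIntegral.abs_integral_le_integral_abs hab
        _ ≤ ∫ t in a..b, deriv (p n) t * M := by
            apply intervalIntegral.integral_mono_on hab
            · exact ((hpac n).intervalIntegrable_deriv.mul_continuousOn hfac.continuousOn).abs
            · exact (hpac n).intervalIntegrable_deriv.mul_const M
            · intro t ht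
              rw [abs_mul, abs_of_nonneg (hd0 t)]
              exact mul_le_mul_of_nonneg_left (hM t ht) (hd0 t)
        _ = (p n b - p n a) * M := by
            rw [intervalIntegral.integral_mul_const, (hpac n).integral_deriv_eq_sub]
        _ ≤ 2 * L * M := by
            have := abs_le.1 (hpL n b)
            have := abs_le.1 (hpL n a)
            gcongr
            linarith
    have h2 : |p n b * f b| ≤ L * M := by
      rw [abs_mul]
      exact mul_le_mul (hpL n b) (hM b (right_mem_Icc.2 hab)) (abs_nonneg _) hL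
    have h3 : |p n a * f a| ≤ L * M := by
      rw [abs_mul]
      exact mul_le_mul (hpL n a) (hM a (left_mem_Icc.2 hab)) (abs_nonneg _) hL
    rw [abs_le] at *
    constructor <;> linarith [h1.1, h1.2, h2.1, h2.2, h3.1, h3.2]
  -- the limit
  have hlim : Tendsto (fun n => ∫ t in a..b, p n t * deriv f t) atTop
      (𝓝 (∫ t in a..b, deriv w t * deriv f t)) := by
    have hdf : IntervalIntegrable (deriv f) volume a b := hfac.intervalIntegrable_deriv
    apply intervalIntegral.tendsto_integral_filter_of_dominated_convergence (fun _ => L * A)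
    · refine Eventually.of_forall (fun n => ?_)
      have : IntervalIntegrable (fun t => p n t * deriv f t) volume a b :=
        hdf.continuousOn_mul (hpac n).continuousOn
      exact this.def'.aestronglyMeasurable
    · refine Eventually.of_forall (fun n => Eventually.of_forall (fun t _ => ?_))
      rw [norm_mul]
      have h1 : ‖deriv f t‖ ≤ A := by
        have := norm_deriv_le_of_lipschitz (x₀ := t) (interp_lip hA hf)
        rwa [Real.coe_toNNReal A hA] at this
      exact mul_le_mul (hpL n t) h1 (norm_nonneg _) hL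
    · exact intervalIntegrable_const
    · filter_upwards [(interp_lip hL hwL).ae_differentiableAt_real] with t ht _
      have h1 := ht.hasDerivAt.tendsto_slope_zero_right
      have h2 : Tendsto h atTop (𝓝[>] 0) := by
        rw [tendsto_nhdsWithin_iff]
        exact ⟨tendsto_one_div_add_atTop_nhds_zero_nat, Eventually.of_forall hpos⟩
      have h3 := h1.comp h2
      have h4 : Tendsto (fun n => p n t) atTop (𝓝 (deriv w t)) := by
        refine h3.congr (fun n => ?_)
        simp only [Function.comp, hp, smul_eq_mul]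
        rw [div_eq_inv_mul]
      exact h4.mul_const _
  exact le_of_tendsto hlim.abs (Eventually.of_forall hbound)

/-- The one dimensional interpolation inequality, with the sup norm. -/
lemma interp_sup {u v : ℝ → ℝ} {L M a b c : ℝ} (hu : ConvexOn ℝ univ u) (hv : ConvexOn ℝ univ v)
    (hL : 0 ≤ L)
    (huL : ∀ x y, |u x - u y| ≤ L * |x - y|) (hvL : ∀ x y, |v x - v y| ≤ L * |x - y|)
    (hM : ∀ t ∈ Icc a b, |u t - v t - c| ≤ M) (hab : a ≤ b) :
    ∫ t in a..b, (deriv u t - deriv v t) ^ 2 ≤ 8 * L * M := by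
  have hfL : ∀ x y, |(u x - v x - c) - (u y - v y - c)| ≤ (2 * L) * |x - y| := by
    intro x y
    have h1 := huL x y
    have h2 := hvL x y
    calc |(u x - v x - c) - (u y - v y - c)| = |(u x - u y) - (v x - v y)| := by
          congr 1
          ring
      _ ≤ |u x - u y| + |v x - v y| := abs_sub _ _
      _ ≤ _ := by linarith
  have h1 := interp_ibp (f := fun t => u t - v t - c) hu hL (by positivity : 0 ≤ 2 * L) huL hfL hM hab
  have h2 := interp_ibp (f := fun t => u t - v t - c) hv hL (by positivity : 0 ≤ 2 * L) hvL hfL hM hab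
  have huac := interp_ac hL huL a b
  have hvac := interp_ac hL hvL a b
  have hfac := interp_ac (w := fun t => u t - v t - c) (by positivity : 0 ≤ 2 * L) hfL a b
  have hbd : ∀ {g : ℝ → ℝ} {B : ℝ}, 0 ≤ B → (∀ x y, |g x - g y| ≤ B * |x - y|) →
      ∀ t, ‖deriv g t‖ ≤ B := by
    intro g B hB hg t
    have := norm_deriv_le_of_lipschitz (x₀ := t) (interp_lip hB hg)
    rwa [Real.coe_toNNReal B hB] at this
  have hint : ∀ {g k : ℝ → ℝ} {B : ℝ}, 0 ≤ B → (∀ x y, |g x - g y| ≤ B * |x - y|) →
      IntervalIntegrable (deriv k) volume a b →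
      IntervalIntegrable (fun t => deriv g t * deriv k t) volume a b := by
    intro g k B hB hg hk
    have h5 := hk.norm.const_mul B
    refine IntervalIntegrable.mono_fun h5 ?_ ?_
    · exact ((measurable_deriv g).aestronglyMeasurable.mul (measurable_deriv k).aestronglyMeasurable)
    · refine Eventually.of_forall (fun t => ?_)
      simp only [norm_mul, norm_norm]
      rw [Real.norm_of_nonneg hB]
      exact mul_le_mul_of_nonneg_right (hbd hB hg t) (norm_nonneg _)
  have e1 : ∫ t in a..b, (deriv u t - deriv v t) ^ 2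
      = (∫ t in a..b, deriv u t * deriv (fun t => u t - v t - c) t)
        - ∫ t in a..b, deriv v t * deriv (fun t => u t - v t - c) t := by
    rw [← intervalIntegral.integral_sub (hint hL huL hfac.intervalIntegrable_deriv)
      (hint hL hvL hfac.intervalIntegrable_deriv)]
    apply intervalIntegral.integral_congr_ae
    filter_upwards [(interp_lip hL huL).ae_differentiableAt_real,
      (interp_lip hL hvL).ae_differentiableAt_real] with t ht1 ht2 _
    have : deriv (fun t => u t - v t - c) t = deriv u t - deriv v t := by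
      have := (ht1.hasDerivAt.sub ht2.hasDerivAt).sub_const c
      exact this.deriv
    rw [this]
    ring
  rw [e1]
  have h3 := (abs_le.1 h1).2
  have h4 := (abs_le.1 h2).1
  linarith

/-- The one dimensional interpolation inequality, with the `L^2` norm. -/
lemma interp_line {u v : ℝ → ℝ} {L a b : ℝ} (c : ℝ) (hu : ConvexOn ℝ univ u)
    (hv : ConvexOn ℝ univ v) (hL : 0 < L)
    (huL : ∀ x y, |u x - u y| ≤ L * |x - y|) (hvL : ∀ x y, |v x - v y| ≤ L * |x - y|)
    (hab : a ≤ b) :
    (∫ t in a..b, (deriv u t - deriv v t) ^ 2) ^ 3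
      ≤ 8192 * L ^ 4 * ∫ t in a..b, (u t - v t - c) ^ 2 := by
  set f : ℝ → ℝ := fun t => u t - v t - c with hf
  have hfL : ∀ x y, |f x - f y| ≤ (2 * L) * |x - y| := by
    intro x y
    have h1 := huL x y
    have h2 := hvL x y
    calc |f x - f y| = |(u x - u y) - (v x - v y)| := by
          rw [hf]
          congr 1
          ring
      _ ≤ |u x - u y| + |v x - v y| := abs_sub _ _
      _ ≤ _ := by linarith
  have hfcont : Continuous f := (interp_lip (by positivity) hfL).continuous
  obtain ⟨ts, hts, hmax⟩ := isCompact_Icc.exists_isMaxOn (nonempty_Icc.2 hab)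
    (hfcont.abs.continuousOn (s := Icc a b))
  set M := |f ts| with hM
  have hM0 : 0 ≤ M := abs_nonneg _
  have hMle : ∀ t ∈ Icc a b, |f t| ≤ M := fun t ht => hmax ht
  have hD := interp_sup (c := c) hu hv hL.le huL hvL hMle hab
  set D := ∫ t in a..b, (deriv u t - deriv v t) ^ 2 with hDdef
  have hD0 : 0 ≤ D := intervalIntegral.integral_nonneg hab (fun t _ => sq_nonneg _)
  set F := ∫ t in a..b, (u t - v t - c) ^ 2 with hFdef
  have hf2 : ∀ x y : ℝ, IntervalIntegrable (fun t => (f t) ^ 2) volume x y := fun x y =>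
    (hfcont.pow 2).intervalIntegrable x y
  -- lower bound of `F`
  set l := min (M / (4 * L)) (b - a) with hl
  have hl0 : 0 ≤ l := le_min (by positivity) (by linarith)
  have hlM : l ≤ M / (4 * L) := min_le_left _ _
  have hlb : l ≤ b - a := min_le_right _ _
  obtain ⟨s, hsa, hsb, hs1, hs2⟩ : ∃ s, a ≤ s ∧ s + l ≤ b ∧ s ≤ ts ∧ ts ≤ s + l := by
    by_cases h : a ≤ ts - l
    · exact ⟨ts - l, h, by linarith [hts.2], by linarith, by linarith⟩
    · push Not at h
      exact ⟨a, le_rfl, by linarith, hts.1, by linarith⟩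
  have hlow : ∀ t ∈ Icc s (s + l), M ^ 2 / 4 ≤ (f t) ^ 2 := by
    intro t ht
    have h1 := hfL ts t
    have h2 : |ts - t| ≤ l := by
      rw [abs_le]
      constructor <;> linarith [ht.1, ht.2]
    have h3 : 2 * L * |ts - t| ≤ M / 2 := by
      calc 2 * L * |ts - t| ≤ 2 * L * (M / (4 * L)) := by
            have := h2.trans hlM
            gcongr
        _ = M / 2 := by
            field_simp
            ring
    have h4 : M - |f t| ≤ |f ts - f t| := abs_sub_abs_le_abs_sub _ _
    have h5 : M / 2 ≤ |f t| := by linarith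
    calc M ^ 2 / 4 = (M / 2) ^ 2 := by ring
      _ ≤ |f t| ^ 2 := by gcongr
      _ = (f t) ^ 2 := sq_abs _
  have hF : M ^ 2 / 4 * l ≤ F := by
    have h1 : M ^ 2 / 4 * l = ∫ _t in s..(s + l), M ^ 2 / 4 := by
      rw [intervalIntegral.integral_const, smul_eq_mul]
      ring
    have h2 : ∫ _t in s..(s + l), M ^ 2 / 4 ≤ ∫ t in s..(s + l), (f t) ^ 2 :=
      intervalIntegral.integral_mono_on (by linarith) intervalIntegrable_const (hf2 _ _) hlow
    have h3 : ∫ t in s..(s + l), (f t) ^ 2 ≤ ∫ t in a..b, (f t) ^ 2 := by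
      apply intervalIntegral.integral_mono_interval hsa (by linarith) hsb
      · exact Eventually.of_forall (fun t => sq_nonneg _)
      · exact hf2 _ _
    rw [h1]
    exact h2.trans h3
  have hF0 : 0 ≤ F := le_trans (by positivity) hF
  by_cases hcase : M / (4 * L) ≤ b - a
  · have hl' : l = M / (4 * L) := min_eq_left hcase
    rw [hl'] at hF
    have h1 : M ^ 3 ≤ 16 * L * F := by
      have : M ^ 2 / 4 * (M / (4 * L)) = M ^ 3 / (16 * L) := by
        field_simp
        ring
      rw [this, div_le_iff₀ (by positivity)] at hF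
      linarith
    calc D ^ 3 ≤ (8 * L * M) ^ 3 := by gcongr
      _ = 512 * L ^ 3 * M ^ 3 := by ring
      _ ≤ 512 * L ^ 3 * (16 * L * F) := by gcongr
      _ = 8192 * L ^ 4 * F := by ring
  · push Not at hcase
    have hl' : l = b - a := min_eq_right hcase.le
    rw [hl'] at hF
    have h1 : 4 * L * (b - a) ≤ M := by
      rw [lt_div_iff₀ (by positivity)] at hcase
      linarith
    have h2 : D ≤ 4 * L ^ 2 * (b - a) := by
      have h3 : ∀ t, (deriv u t - deriv v t) ^ 2 ≤ 4 * L ^ 2 := by
        intro t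
        have h4 := norm_deriv_le_of_lipschitz (x₀ := t) (interp_lip hL.le huL)
        have h5 := norm_deriv_le_of_lipschitz (x₀ := t) (interp_lip hL.le hvL)
        rw [Real.coe_toNNReal L hL.le, Real.norm_eq_abs] at h4 h5
        have h6 : |deriv u t - deriv v t| ≤ 2 * L := by
          calc |deriv u t - deriv v t| ≤ |deriv u t| + |deriv v t| := abs_sub _ _
            _ ≤ _ := by linarith
        calc (deriv u t - deriv v t) ^ 2 = |deriv u t - deriv v t| ^ 2 := (sq_abs _).symm
          _ ≤ (2 * L) ^ 2 := by gcongr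
          _ = 4 * L ^ 2 := by ring
      have h7 : D ≤ ∫ _t in a..b, 4 * L ^ 2 := by
        apply intervalIntegral.integral_mono_on hab _ intervalIntegrable_const (fun t _ => h3 t)
        refine IntervalIntegrable.mono_fun (intervalIntegrable_const (c := 4 * L ^ 2)) ?_ ?_
        · exact (((measurable_deriv u).sub (measurable_deriv v)).pow_const 2).aestronglyMeasurable
        · refine Eventually.of_forall (fun t => ?_)
          show ‖(deriv u t - deriv v t) ^ 2‖ ≤ ‖4 * L ^ 2‖
          rw [Real.norm_of_nonneg (sq_nonneg _), Real.norm_of_nonneg (by positivity)]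
          exact h3 t
      rw [intervalIntegral.integral_const, smul_eq_mul] at h7
      linarith
    have hba : 0 ≤ b - a := by linarith
    have h3 : (4 * L * (b - a)) ^ 2 / 4 * (b - a) ≤ F := by
      refine le_trans ?_ hF
      gcongr
    calc D ^ 3 ≤ (4 * L ^ 2 * (b - a)) ^ 3 := by gcongr
      _ = 16 * L ^ 4 * ((4 * L * (b - a)) ^ 2 / 4 * (b - a)) := by ring
      _ ≤ 16 * L ^ 4 * F := by gcongr
      _ ≤ 8192 * L ^ 4 * F := by
        have : 0 ≤ L ^ 4 * F := by positivity
        linarith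


/-! ### Slicing -/

/-- Splitting off the `j`-th coordinate. -/
noncomputable def lineEquiv (n : ℕ) (j : Fin (n + 1)) : Eu (n + 1) ≃ᵐ (Fin n → ℝ) × ℝ :=
  ((MeasurableEquiv.toLp 2 (Fin (n + 1) → ℝ)).symm.trans
    (MeasurableEquiv.piFinSuccAbove (fun _ => ℝ) j)).trans MeasurableEquiv.prodComm

lemma lineEquiv_mp (n : ℕ) (j : Fin (n + 1)) :
    MeasurePreserving (lineEquiv n j) volume (volume : Measure ((Fin n → ℝ) × ℝ)) := by
  have h1 := EuclideanSpace.volume_preserving_symm_measurableEquiv_toLp (Fin (n + 1))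
  have h2 := volume_preserving_piFinSuccAbove (fun _ : Fin (n + 1) => ℝ) j
  have h3 : MeasurePreserving (Prod.swap : ℝ × (Fin n → ℝ) → (Fin n → ℝ) × ℝ)
      volume volume := Measure.measurePreserving_swap
  exact h3.comp (h2.comp h1)

lemma lineEquiv_symm_apply (n : ℕ) (j : Fin (n + 1)) (x : Fin n → ℝ) (t : ℝ) :
    (lineEquiv n j).symm (x, t) = WithLp.toLp 2 (j.insertNth t x) := rfl

lemma lineEquiv_symm_self (n : ℕ) (j : Fin (n + 1)) (x : Fin n → ℝ) (t : ℝ) :
    ((lineEquiv n j).symm (x, t)) j = t := by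
  rw [lineEquiv_symm_apply]
  simp

lemma lineEquiv_symm_succAbove (n : ℕ) (j : Fin (n + 1)) (x : Fin n → ℝ) (t : ℝ) (i : Fin n) :
    ((lineEquiv n j).symm (x, t)) (j.succAbove i) = x i := by
  rw [lineEquiv_symm_apply]
  simp

lemma lineEquiv_symm_add (n : ℕ) (j : Fin (n + 1)) (x : Fin n → ℝ) (s t : ℝ) :
    (lineEquiv n j).symm (x, t)
      = (lineEquiv n j).symm (x, s) + (t - s) • EuclideanSpace.single j (1 : ℝ) := by
  ext i
  refine Fin.succAboveCases j ?_ (fun i => ?_) i
  · rw [PiLp.add_apply, PiLp.smul_apply, lineEquiv_symm_self, lineEquiv_symm_self]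
    simp
  · rw [PiLp.add_apply, PiLp.smul_apply, lineEquiv_symm_succAbove, lineEquiv_symm_succAbove]
    simp [Fin.succAbove_ne]

/-- A subgradient at a point of differentiability is the derivative. -/
lemma subgrad_eq_deriv {u : ℝ → ℝ} {t p : ℝ} (hu : DifferentiableAt ℝ u t)
    (hp : ∀ s, u t + p * (s - t) ≤ u s) : p = deriv u t := by
  have h1 : IsLocalMin (fun s => u s - p * s) t := by
    refine Eventually.of_forall (fun s => ?_)
    have := hp s
    show u t - p * t ≤ u s - p * s
    linarith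
  have h2 := h1.deriv_eq_zero
  have h3 : HasDerivAt (fun s => u s - p * s) (deriv u t - p * 1) t :=
    hu.hasDerivAt.sub ((hasDerivAt_id t).const_mul p)
  rw [h3.deriv] at h2
  linarith

/-- The estimate on one line. -/
lemma interp_slice (n : ℕ) (j : Fin (n + 1)) (K : Set (Eu (n + 1))) (hK : IsCompact K)
    (hconv : Convex ℝ K) (L : ℝ) (hL : 0 < L) (T0 T1 : Eu (n + 1) → Eu (n + 1))
    (φ0 φ1 : Eu (n + 1) → ℝ) (h0 : ConvexOn ℝ univ φ0) (h1 : ConvexOn ℝ univ φ1)
    (hl0 : ∀ x z, |φ0 x - φ0 z| ≤ L * ‖x - z‖) (hl1 : ∀ x z, |φ1 x - φ1 z| ≤ L * ‖x - z‖)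
    (c : ℝ) (x : Fin n → ℝ)
    (hsub : ∀ᵐ t : ℝ, (lineEquiv n j).symm (x, t) ∈ K →
      (∀ z, φ0 ((lineEquiv n j).symm (x, t)) + ⟪T0 ((lineEquiv n j).symm (x, t)),
        z - (lineEquiv n j).symm (x, t)⟫_ℝ ≤ φ0 z) ∧
      (∀ z, φ1 ((lineEquiv n j).symm (x, t)) + ⟪T1 ((lineEquiv n j).symm (x, t)),
        z - (lineEquiv n j).symm (x, t)⟫_ℝ ≤ φ1 z)) :
    ∫⁻ t : ℝ, ((lineEquiv n j).symm ⁻¹' K).indicator (fun q => ENNReal.ofReal
        ((T1 ((lineEquiv n j).symm q) j - T0 ((lineEquiv n j).symm q) j) ^ 2)) (x, t)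
      ≤ (ENNReal.ofReal (8192 * L ^ 4)) ^ (1 / 3 : ℝ) *
        (∫⁻ t : ℝ, ((lineEquiv n j).symm ⁻¹' K).indicator (fun q => ENNReal.ofReal
        ((φ1 ((lineEquiv n j).symm q) - φ0 ((lineEquiv n j).symm q) - c) ^ 2)) (x, t))
          ^ (1 / 3 : ℝ) := by
  set pt : ℝ → Eu (n + 1) := fun t => (lineEquiv n j).symm (x, t) with hpt
  have hadd : ∀ s t, pt t = pt s + (t - s) • EuclideanSpace.single j (1 : ℝ) := fun s t =>
    lineEquiv_symm_add n j x s t
  have hnorm : ∀ s t, ‖pt s - pt t‖ = |s - t| := by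
    intro s t
    rw [hadd t s, add_sub_cancel_left, norm_smul]
    simp
  have hptc : Continuous pt := by
    have : pt = fun t => pt 0 + (t - 0) • EuclideanSpace.single j (1 : ℝ) := funext (hadd 0)
    rw [this]
    fun_prop
  -- convexity and Lipschitz property along the line
  have hptconv : ∀ (s t a b : ℝ), a + b = 1 → pt (a * s + b * t) = a • pt s + b • pt t := by
    intro s t a b hab
    rw [hadd 0 (a * s + b * t), hadd 0 s, hadd 0 t]
    simp only [sub_zero, smul_add, smul_smul, add_smul]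
    have : pt 0 = a • pt 0 + b • pt 0 := by rw [← add_smul, hab, one_smul]
    nth_rewrite 1 [this]
    abel
  have hconvline : ∀ φ : Eu (n + 1) → ℝ, ConvexOn ℝ univ φ →
      ConvexOn ℝ univ (fun t => φ (pt t)) := by
    intro φ hφ
    refine ⟨convex_univ, fun s _ t _ a b ha hb hab => ?_⟩
    have := hφ.2 (mem_univ (pt s)) (mem_univ (pt t)) ha hb hab
    simp only [smul_eq_mul] at *
    rw [hptconv s t a b hab]
    exact this
  have hlipline : ∀ φ : Eu (n + 1) → ℝ, (∀ x z, |φ x - φ z| ≤ L * ‖x - z‖) →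
      ∀ s t, |φ (pt s) - φ (pt t)| ≤ L * |s - t| := by
    intro φ hφ s t
    rw [← hnorm s t]
    exact hφ _ _
  set u0 : ℝ → ℝ := fun t => φ0 (pt t) with hu0
  set u1 : ℝ → ℝ := fun t => φ1 (pt t) with hu1
  have hu0c := hconvline φ0 h0
  have hu1c := hconvline φ1 h1
  have hu0l := hlipline φ0 hl0
  have hu1l := hlipline φ1 hl1
  -- the section
  set I : Set ℝ := {t | pt t ∈ K} with hI
  have hIclosed : IsClosed I := hK.isClosed.preimage hptc
  have hIconv : Convex ℝ I := by
    intro s hs t ht a b ha hb hab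
    simp only [hI, mem_ofPred_eq, smul_eq_mul] at *
    rw [hptconv s t a b hab]
    exact hconv hs ht ha hb hab
  have hIbdd : Bornology.IsBounded I := by
    obtain ⟨R, hR⟩ := hK.isBounded.subset_closedBall 0
    rw [Metric.isBounded_iff]
    refine ⟨2 * R, fun s hs t ht => ?_⟩
    have e1 := hR hs
    have e2 := hR ht
    rw [mem_closedBall_zero_iff] at e1 e2
    rw [Real.dist_eq, ← hnorm]
    calc ‖pt s - pt t‖ ≤ ‖pt s‖ + ‖pt t‖ := norm_sub_le _ _
      _ ≤ 2 * R := by linarith
  have hIcomp : IsCompact I := Metric.isCompact_of_isClosed_isBounded hIclosed hIbdd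
  have hIm : MeasurableSet I := hIclosed.measurableSet
  have hind : ∀ g : (Fin n → ℝ) × ℝ → ℝ≥0∞, ∀ t,
      ((lineEquiv n j).symm ⁻¹' K).indicator g (x, t) = I.indicator (fun t => g (x, t)) t := by
    intro g t
    by_cases ht : t ∈ I
    · rw [indicator_of_mem ht, indicator_of_mem]
      exact ht
    · rw [indicator_of_notMem ht, indicator_of_notMem]
      exact ht
  simp_rw [hind]
  rw [lintegral_indicator hIm, lintegral_indicator hIm]
  rcases I.eq_empty_or_nonempty with hIe | hIne
  · rw [hIe]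
    simp
  have hIcc : I = Icc (sInf I) (sSup I) :=
    eq_Icc_of_connected_compact ⟨hIne, hIconv.isPreconnected⟩ hIcomp
  set a := sInf I with ha
  set b := sSup I with hb
  have hab : a ≤ b := by
    rw [hIcc] at hIne
    exact nonempty_Icc.1 hIne
  have hline := interp_line c hu1c hu0c hL hu1l hu0l hab
  -- left side
  have hleft : ∫⁻ t in I, ENNReal.ofReal
        ((T1 ((lineEquiv n j).symm (x, t)) j - T0 ((lineEquiv n j).symm (x, t)) j) ^ 2)
      = ENNReal.ofReal (∫ t in a..b, (deriv u1 t - deriv u0 t) ^ 2) := by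
    have e1 : ∫⁻ t in I, ENNReal.ofReal
        ((T1 ((lineEquiv n j).symm (x, t)) j - T0 ((lineEquiv n j).symm (x, t)) j) ^ 2)
      = ∫⁻ t in I, ENNReal.ofReal ((deriv u1 t - deriv u0 t) ^ 2) := by
      apply setLIntegral_congr_fun_ae hIm
      filter_upwards [hsub, (interp_lip hL.le hu0l).ae_differentiableAt_real,
        (interp_lip hL.le hu1l).ae_differentiableAt_real] with t ht hd0 hd1 htI
      obtain ⟨hs0, hs1⟩ := ht htI
      have key : ∀ (T : Eu (n + 1) → Eu (n + 1)) (φ : Eu (n + 1) → ℝ),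
          (∀ z, φ (pt t) + ⟪T (pt t), z - pt t⟫_ℝ ≤ φ z) →
          ∀ s, φ (pt t) + T (pt t) j * (s - t) ≤ φ (pt s) := by
        intro T φ hφ s
        have e := hφ (pt s)
        rw [hadd t s, add_sub_cancel_left, real_inner_smul_right] at e
        rw [hadd t s]
        have e2 : ⟪T (pt t), EuclideanSpace.single j (1 : ℝ)⟫_ℝ = T (pt t) j := by
          rw [EuclideanSpace.inner_single_right]
          simp
        rw [e2] at e
        linarith
      have k0 := subgrad_eq_deriv hd0 (key T0 φ0 hs0)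
      have k1 := subgrad_eq_deriv hd1 (key T1 φ1 hs1)
      show ENNReal.ofReal ((T1 (pt t) j - T0 (pt t) j) ^ 2) = _
      rw [k0, k1]
    rw [e1, hIcc, intervalIntegral.integral_of_le hab, integral_Icc_eq_integral_Ioc.symm]
    rw [ofReal_integral_eq_lintegral_ofReal]
    · have hbd : ∀ {g : ℝ → ℝ}, (∀ x y, |g x - g y| ≤ L * |x - y|) → ∀ t, ‖deriv g t‖ ≤ L := by
        intro g hg t
        have := norm_deriv_le_of_lipschitz (x₀ := t) (interp_lip hL.le hg)
        rwa [Real.coe_toNNReal L hL.le] at this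
      refine Measure.integrableOn_of_bounded (M := 4 * L ^ 2) ?_ ?_ ?_
      · rw [Real.volume_Icc]
        exact ENNReal.ofReal_ne_top
      · exact (((measurable_deriv u1).sub (measurable_deriv u0)).pow_const 2).aestronglyMeasurable
      · refine Eventually.of_forall (fun t => ?_)
        show ‖(deriv u1 t - deriv u0 t) ^ 2‖ ≤ 4 * L ^ 2
        rw [Real.norm_of_nonneg (sq_nonneg _)]
        have h4 := hbd hu1l t
        have h5 := hbd hu0l t
        rw [Real.norm_eq_abs] at h4 h5
        have h6 : |deriv u1 t - deriv u0 t| ≤ 2 * L := by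
          calc |deriv u1 t - deriv u0 t| ≤ |deriv u1 t| + |deriv u0 t| := abs_sub _ _
            _ ≤ _ := by linarith
        calc (deriv u1 t - deriv u0 t) ^ 2 = |deriv u1 t - deriv u0 t| ^ 2 := (sq_abs _).symm
          _ ≤ (2 * L) ^ 2 := by gcongr
          _ = 4 * L ^ 2 := by ring
    · exact Eventually.of_forall (fun t => sq_nonneg _)
  have hright : ∫⁻ t in I, ENNReal.ofReal
        ((φ1 ((lineEquiv n j).symm (x, t)) - φ0 ((lineEquiv n j).symm (x, t)) - c) ^ 2)
      = ENNReal.ofReal (∫ t in a..b, (u1 t - u0 t - c) ^ 2) := by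
    rw [hIcc, intervalIntegral.integral_of_le hab, integral_Icc_eq_integral_Ioc.symm]
    rw [ofReal_integral_eq_lintegral_ofReal]
    · have : Continuous (fun t => (u1 t - u0 t - c) ^ 2) :=
        ((((interp_lip hL.le hu1l).continuous).sub
          ((interp_lip hL.le hu0l).continuous)).sub continuous_const).pow 2
      exact this.continuousOn.integrableOn_compact isCompact_Icc
    · exact Eventually.of_forall (fun t => sq_nonneg _)
  rw [hleft, hright]
  set D := ∫ t in a..b, (deriv u1 t - deriv u0 t) ^ 2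
  set F := ∫ t in a..b, (u1 t - u0 t - c) ^ 2
  have hD0 : 0 ≤ D := intervalIntegral.integral_nonneg hab (fun t _ => sq_nonneg _)
  rw [← ENNReal.mul_rpow_of_nonneg _ _ (by norm_num : (0 : ℝ) ≤ 1 / 3),
    ← ENNReal.ofReal_mul (by positivity)]
  have e3 : ENNReal.ofReal D = (ENNReal.ofReal (D ^ 3)) ^ (1 / 3 : ℝ) := by
    rw [ENNReal.ofReal_rpow_of_nonneg (by positivity) (by norm_num), ← Real.rpow_natCast,
      ← Real.rpow_mul hD0]
    norm_num
  rw [e3]
  exact ENNReal.rpow_le_rpow (ENNReal.ofReal_le_ofReal hline) (by norm_num)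

/-- The estimate for one coordinate. -/
lemma interp_coord (n : ℕ) (j : Fin (n + 1)) (K : Set (Eu (n + 1))) (hK : IsCompact K)
    (hconv : Convex ℝ K) (L R : ℝ) (hL : 0 < L) (hR : K ⊆ Metric.closedBall 0 R)
    (T0 T1 : Eu (n + 1) → Eu (n + 1)) (φ0 φ1 : Eu (n + 1) → ℝ)
    (h0 : IsPot K L T0 φ0) (h1 : IsPot K L T1 φ1) (c : ℝ) :
    ∫⁻ x in K, ENNReal.ofReal ((T1 x j - T0 x j) ^ 2)
      ≤ (ENNReal.ofReal (8192 * L ^ 4)) ^ (1 / 3 : ℝ)
        * (volume (Icc (fun _ : Fin n => -R) (fun _ => R))) ^ (2 / 3 : ℝ)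
        * (∫⁻ x in K, ENNReal.ofReal ((φ1 x - φ0 x - c) ^ 2)) ^ (1 / 3 : ℝ) := by
  set E := lineEquiv n j with hE
  have hmp : MeasurePreserving E.symm volume volume := (lineEquiv_mp n j).symm
  have hKm : MeasurableSet K := hK.measurableSet
  have hcont0 : Continuous φ0 := by
    have : LipschitzWith (Real.toNNReal L) φ0 := by
      apply LipschitzWith.of_dist_le_mul
      intro x y
      rw [Real.dist_eq, dist_eq_norm, Real.coe_toNNReal L hL.le]
      exact h0.lip x y
    exact this.continuous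
  have hcont1 : Continuous φ1 := by
    have : LipschitzWith (Real.toNNReal L) φ1 := by
      apply LipschitzWith.of_dist_le_mul
      intro x y
      rw [Real.dist_eq, dist_eq_norm, Real.coe_toNNReal L hL.le]
      exact h1.lip x y
    exact this.continuous
  -- change of variables
  have hchange : ∀ g : Eu (n + 1) → ℝ≥0∞, Measurable g → ∫⁻ x in K, g x
      = ∫⁻ x : Fin n → ℝ, ∫⁻ t : ℝ, (E.symm ⁻¹' K).indicator (fun q => g (E.symm q)) (x, t) := by
    intro g hg
    rw [← lintegral_indicator hKm, ← hmp.lintegral_comp_emb E.symm.measurableEmbedding]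
    have : (fun q => K.indicator g (E.symm q))
        = (E.symm ⁻¹' K).indicator (fun q => g (E.symm q)) := by
      ext q
      rfl
    rw [this, Measure.volume_eq_prod, lintegral_prod]
    exact ((hg.comp E.symm.measurable).indicator (E.symm.measurable hKm)).aemeasurable
  have hg1 : Measurable (fun x : Eu (n + 1) => ENNReal.ofReal ((T1 x j - T0 x j) ^ 2)) := by
    have e1 : Measurable (fun x : Eu (n + 1) => T1 x j) :=
      (measurable_pi_apply j).comp ((WithLp.measurable_ofLp 2 _).comp h1.meas)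
    have e0 : Measurable (fun x : Eu (n + 1) => T0 x j) :=
      (measurable_pi_apply j).comp ((WithLp.measurable_ofLp 2 _).comp h0.meas)
    exact ((e1.sub e0).pow_const 2).ennreal_ofReal
  have hg2 : Measurable (fun x : Eu (n + 1) => ENNReal.ofReal ((φ1 x - φ0 x - c) ^ 2)) :=
    (((hcont1.sub hcont0).sub continuous_const).pow 2).measurable.ennreal_ofReal
  rw [hchange _ hg1, hchange _ hg2]
  set κ := (ENNReal.ofReal (8192 * L ^ 4)) ^ (1 / 3 : ℝ)
  set B := Icc (fun _ : Fin n => -R) (fun _ => R) with hB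
  set F : (Fin n → ℝ) → ℝ≥0∞ := fun x => ∫⁻ t : ℝ, (E.symm ⁻¹' K).indicator
    (fun q => ENNReal.ofReal ((φ1 (E.symm q) - φ0 (E.symm q) - c) ^ 2)) (x, t) with hF
  have hFm : Measurable F := by
    apply Measurable.lintegral_prod_right'
      (f := (E.symm ⁻¹' K).indicator
        (fun q => ENNReal.ofReal ((φ1 (E.symm q) - φ0 (E.symm q) - c) ^ 2)))
    exact (hg2.comp E.symm.measurable).indicator (E.symm.measurable hKm)
  -- the sections outside of the box are empty
  have hout : ∀ x ∉ B, ∀ t, (x, t) ∉ E.symm ⁻¹' K := by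
    intro x hx t ht
    apply hx
    have h2 := hR ht
    rw [mem_closedBall_zero_iff] at h2
    have h3 : ∀ i, |x i| ≤ R := by
      intro i
      have h4 := PiLp.norm_apply_le (E.symm (x, t)) (j.succAbove i)
      rw [hE, lineEquiv_symm_succAbove, Real.norm_eq_abs] at h4
      exact h4.trans h2
    rw [hB, mem_Icc, Pi.le_def, Pi.le_def]
    exact ⟨fun i => (abs_le.1 (h3 i)).1, fun i => (abs_le.1 (h3 i)).2⟩
  -- almost every line is good
  have hae : ∀ᵐ q : (Fin n → ℝ) × ℝ, E.symm q ∈ K →
      (∀ z, φ0 (E.symm q) + ⟪T0 (E.symm q), z - E.symm q⟫_ℝ ≤ φ0 z) ∧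
      (∀ z, φ1 (E.symm q) + ⟪T1 (E.symm q), z - E.symm q⟫_ℝ ≤ φ1 z) := by
    have e1 : ∀ᵐ x : Eu (n + 1), x ∈ K →
        (∀ z, φ0 x + ⟪T0 x, z - x⟫_ℝ ≤ φ0 z) ∧ (∀ z, φ1 x + ⟪T1 x, z - x⟫_ℝ ≤ φ1 z) := by
      have e0 := (ae_restrict_iff' hKm).1 h0.sub
      have e2 := (ae_restrict_iff' hKm).1 h1.sub
      filter_upwards [e0, e2] with x hx0 hx1 hxK
      exact ⟨hx0 hxK, hx1 hxK⟩
    exact hmp.quasiMeasurePreserving.ae e1
  rw [Measure.volume_eq_prod] at hae
  have hae2 := Measure.ae_ae_of_ae_prod hae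
  have hstep : ∀ᵐ x : Fin n → ℝ, ∫⁻ t : ℝ, (E.symm ⁻¹' K).indicator
      (fun q => ENNReal.ofReal ((T1 (E.symm q) j - T0 (E.symm q) j) ^ 2)) (x, t)
      ≤ B.indicator (fun x => κ * (F x) ^ (1 / 3 : ℝ)) x := by
    filter_upwards [hae2] with x hx
    by_cases hxB : x ∈ B
    · rw [indicator_of_mem hxB]
      exact interp_slice n j K hK hconv L hL T0 T1 φ0 φ1 h0.conv h1.conv h0.lip h1.lip c x hx
    · rw [indicator_of_notMem hxB]
      have : ∀ t, (E.symm ⁻¹' K).indicator
          (fun q => ENNReal.ofReal ((T1 (E.symm q) j - T0 (E.symm q) j) ^ 2)) (x, t) = 0 :=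
        fun t => indicator_of_notMem (hout x hxB t) _
      simp_rw [this]
      simp
  have hBm : MeasurableSet B := measurableSet_Icc
  calc _ ≤ ∫⁻ x : Fin n → ℝ, B.indicator (fun x => κ * (F x) ^ (1 / 3 : ℝ)) x :=
        lintegral_mono_ae hstep
    _ = ∫⁻ x in B, κ * (F x) ^ (1 / 3 : ℝ) := lintegral_indicator hBm _
    _ = κ * ∫⁻ x in B, (F x) ^ (1 / 3 : ℝ) := lintegral_const_mul _ (hFm.pow_const _)
    _ ≤ κ * ((volume B) ^ (2 / 3 : ℝ) * (∫⁻ x, F x) ^ (1 / 3 : ℝ)) := by
        gcongr
        have hpq : Real.HolderConjugate (3 : ℝ) (3 / 2) := by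
          rw [Real.holderConjugate_iff]
          norm_num
        have hh := ENNReal.lintegral_mul_le_Lp_mul_Lq (volume.restrict B) hpq
          (f := fun x => (F x) ^ (1 / 3 : ℝ)) (g := fun _ => 1)
          (hFm.pow_const _).aemeasurable aemeasurable_const
        simp only [Pi.mul_apply, mul_one, ENNReal.one_rpow, lintegral_const,
          Measure.restrict_apply MeasurableSet.univ, univ_inter, one_mul] at hh
        have e2 : ∀ x, ((F x) ^ (1 / 3 : ℝ)) ^ (3 : ℝ) = F x := by
          intro x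
          rw [← ENNReal.rpow_mul]
          norm_num
        simp_rw [e2] at hh
        have e3 : (1 / (3 / 2) : ℝ) = 2 / 3 := by norm_num
        rw [e3] at hh
        refine hh.trans ?_
        rw [mul_comm]
        gcongr
        exact Measure.restrict_le_self
    _ = _ := by ring

/-- `var` is the integral of the squared deviation from the mean. -/
lemma interp_var_eq {d : ℕ} (K : Set (Eu d)) (f : Eu d → ℝ) (hK : 0 < (volume K).toReal)
    (hf : IntegrableOn f K) (hf2 : IntegrableOn (fun x => (f x) ^ 2) K) :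
    ∫ x in K, (f x - (∫ z in K, f z) / (volume K).toReal) ^ 2 = var K f := by
  set c := (∫ z in K, f z) / (volume K).toReal with hc
  have hfin : volume K ≠ ⊤ := by
    intro h
    rw [h] at hK
    simp at hK
  have e1 : ∀ x, (f x - c) ^ 2 = (f x) ^ 2 - 2 * c * f x + c ^ 2 := fun x => by ring
  simp_rw [e1]
  have hconst : IntegrableOn (fun _ : Eu d => c ^ 2) K := integrableOn_const hfin
  have hlin : IntegrableOn (fun x => 2 * c * f x) K := hf.const_mul _
  have hadd : ∫ x in K, ((f x) ^ 2 - 2 * c * f x + c ^ 2)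
      = (∫ x in K, ((f x) ^ 2 - 2 * c * f x)) + ∫ _x in K, c ^ 2 :=
    integral_add (hf2.sub hlin) hconst
  have hsub : ∫ x in K, ((f x) ^ 2 - 2 * c * f x)
      = (∫ x in K, (f x) ^ 2) - ∫ x in K, 2 * c * f x := integral_sub hf2 hlin
  rw [hadd, hsub, integral_const_mul, setIntegral_const, smul_eq_mul]
  have e2 : volume.real K = (volume K).toReal := rfl
  rw [e2]
  unfold var
  rw [hc]
  field_simp
  ring

theorem interp : S_INTERP := by
  intro d K L hK hconv hint hL
  rcases d with _ | n
  · refine ⟨1, one_pos, fun T0 T1 φ0 φ1 h0 h1 => ?_⟩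
    have e1 : ∀ x, ‖T1 x - T0 x‖ ^ 2 = 0 := by
      intro x
      have : T1 x - T0 x = 0 := Subsingleton.elim _ _
      rw [this]
      simp
    simp_rw [e1]
    simp only [integral_zero, one_mul]
    apply Real.rpow_nonneg
    have hKpos : 0 < (volume K).toReal :=
      ENNReal.toReal_pos (Measure.measure_pos_of_nonempty_interior volume hint).ne' hK.measure_lt_top.ne
    have hcont : Continuous (fun x => φ1 x - φ0 x) := continuous_of_discreteTopology
    rw [← interp_var_eq K _ hKpos (hcont.continuousOn.integrableOn_compact hK)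
      ((hcont.pow 2).continuousOn.integrableOn_compact hK)]
    exact integral_nonneg (fun x => sq_nonneg _)
  obtain ⟨R, hR⟩ := hK.isBounded.subset_closedBall 0
  have hKpos : 0 < (volume K).toReal :=
    ENNReal.toReal_pos (Measure.measure_pos_of_nonempty_interior volume hint).ne' hK.measure_lt_top.ne
  set κ := (ENNReal.ofReal (8192 * L ^ 4)) ^ (1 / 3 : ℝ)
        * (volume (Icc (fun _ : Fin n => -R) (fun _ => R))) ^ (2 / 3 : ℝ) with hκ
  have hκtop : κ ≠ ⊤ := by
    apply ENNReal.mul_ne_top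
    · exact ENNReal.rpow_ne_top_of_nonneg (by norm_num) ENNReal.ofReal_ne_top
    · exact ENNReal.rpow_ne_top_of_nonneg (by norm_num) isCompact_Icc.measure_lt_top.ne
  refine ⟨((n + 1 : ℕ) * κ).toReal + 1, by positivity, fun T0 T1 φ0 φ1 h0 h1 => ?_⟩
  have hcont : ∀ {T : Eu (n + 1) → Eu (n + 1)} {φ : Eu (n + 1) → ℝ}, IsPot K L T φ →
      Continuous φ := by
    intro T φ h
    have : LipschitzWith (Real.toNNReal L) φ := by
      apply LipschitzWith.of_dist_le_mul
      intro x y
      rw [Real.dist_eq, dist_eq_norm, Real.coe_toNNReal L hL.le]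
      exact h.lip x y
    exact this.continuous
  set f : Eu (n + 1) → ℝ := fun x => φ1 x - φ0 x with hf
  have hfc : Continuous f := (hcont h1).sub (hcont h0)
  set c := (∫ z in K, f z) / (volume K).toReal with hc
  have hvar : ∫ x in K, (f x - c) ^ 2 = var K f :=
    interp_var_eq K f hKpos (hfc.continuousOn.integrableOn_compact hK)
      ((hfc.pow 2).continuousOn.integrableOn_compact hK)
  have hvar0 : 0 ≤ var K f := by
    rw [← hvar]
    exact integral_nonneg (fun x => sq_nonneg _)
  have hV : ∫⁻ x in K, ENNReal.ofReal ((φ1 x - φ0 x - c) ^ 2) = ENNReal.ofReal (var K f) := by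
    rw [← hvar, ofReal_integral_eq_lintegral_ofReal]
    · exact ((hfc.sub continuous_const).pow 2).continuousOn.integrableOn_compact hK
    · exact Eventually.of_forall (fun x => sq_nonneg _)
  have hcoord : ∀ j : Fin (n + 1), ∫⁻ x in K, ENNReal.ofReal ((T1 x j - T0 x j) ^ 2)
      ≤ κ * (ENNReal.ofReal (var K f)) ^ (1 / 3 : ℝ) := by
    intro j
    have := interp_coord n j K hK hconv L R hL hR T0 T1 φ0 φ1 h0 h1 c
    rw [hV] at this
    exact this
  have hm : ∀ j : Fin (n + 1), Measurable (fun x : Eu (n + 1) => ENNReal.ofReal ((T1 x j - T0 x j) ^ 2)) := by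
    intro j
    have e1 : Measurable (fun x : Eu (n + 1) => T1 x j) :=
      (measurable_pi_apply j).comp ((WithLp.measurable_ofLp 2 _).comp h1.meas)
    have e0 : Measurable (fun x : Eu (n + 1) => T0 x j) :=
      (measurable_pi_apply j).comp ((WithLp.measurable_ofLp 2 _).comp h0.meas)
    exact ((e1.sub e0).pow_const 2).ennreal_ofReal
  have hsum : ∫⁻ x in K, ENNReal.ofReal (‖T1 x - T0 x‖ ^ 2)
      ≤ ((n + 1 : ℕ) * κ) * (ENNReal.ofReal (var K f)) ^ (1 / 3 : ℝ) := by
    have e1 : ∀ x, ENNReal.ofReal (‖T1 x - T0 x‖ ^ 2)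
        = ∑ j : Fin (n + 1), ENNReal.ofReal ((T1 x j - T0 x j) ^ 2) := by
      intro x
      rw [EuclideanSpace.norm_sq_eq, ENNReal.ofReal_sum_of_nonneg (fun i _ => sq_nonneg _)]
      apply Finset.sum_congr rfl
      intro j _
      rw [Real.norm_eq_abs, sq_abs]
      rfl
    simp_rw [e1]
    rw [lintegral_finsetSum _ (fun j _ => hm j)]
    calc ∑ j : Fin (n + 1), ∫⁻ x in K, ENNReal.ofReal ((T1 x j - T0 x j) ^ 2)
        ≤ ∑ _j : Fin (n + 1), κ * (ENNReal.ofReal (var K f)) ^ (1 / 3 : ℝ) :=
          Finset.sum_le_sum (fun j _ => hcoord j)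
      _ = _ := by
          rw [Finset.sum_const, Finset.card_univ, Fintype.card_fin, nsmul_eq_mul]
          ring
  have hmeas : AEStronglyMeasurable (fun x => ‖T1 x - T0 x‖ ^ 2) (volume.restrict K) :=
    ((h1.meas.sub h0.meas).norm.pow_const 2).aestronglyMeasurable
  rw [integral_eq_lintegral_of_nonneg_ae (Eventually.of_forall (fun x => sq_nonneg _)) hmeas]
  have hrhs : ((n + 1 : ℕ) * κ) * (ENNReal.ofReal (var K f)) ^ (1 / 3 : ℝ) ≠ ⊤ := by
    apply ENNReal.mul_ne_top
    · exact ENNReal.mul_ne_top (ENNReal.natCast_ne_top _) hκtop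
    · exact ENNReal.rpow_ne_top_of_nonneg (by norm_num) ENNReal.ofReal_ne_top
  have h5 := ENNReal.toReal_mono hrhs hsum
  rw [ENNReal.toReal_mul, ← ENNReal.toReal_rpow, ENNReal.toReal_ofReal hvar0] at h5
  have h6 : 0 ≤ (var K f) ^ (1 / 3 : ℝ) := Real.rpow_nonneg hvar0 _
  calc _ ≤ ((n + 1 : ℕ) * κ).toReal * (var K f) ^ (1 / 3 : ℝ) := h5
    _ ≤ (((n + 1 : ℕ) * κ).toReal + 1) * (var K f) ^ (1 / 3 : ℝ) := by
        gcongr
        linarith

end Vale.Agent.P074
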