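import Vale.Agent.P074.VarBasics

open MeasureTheory Set Filter
open scoped ENNReal NNReal InnerProductSpace Topology

namespace Vale.Agent.P074

lemma IsPot.continuous {d : ℕ} {K : Set (Eu d)} {L : ℝ} {T : Eu d → Eu d} {φ : Eu d → ℝ}
    (h : IsPot K L T φ) : Continuous φ := by
  have hL : 0 ≤ L ∨ ∀ x z : Eu d, x = z := by
    by_cases hs : ∃ x z : Eu d, x ≠ z
    · obtain ⟨x, z, hxz⟩ := hs
      left
      have h1 := h.lip x z
      have h2 : 0 < ‖x - z‖ := norm_pos_iff.mpr (sub_ne_zero.mpr hxz)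
      by_contra hneg
      push Not at hneg
      have : L * ‖x - z‖ < 0 := mul_neg_of_neg_of_pos hneg h2
      linarith [abs_nonneg (φ x - φ z)]
    · right
      push Not at hs
      exact hs
  rcases hL with hL | hL
  · have : LipschitzWith L.toNNReal φ := by
      apply LipschitzWith.of_dist_le_mul
      intro x z
      rw [Real.dist_eq, dist_eq_norm, Real.coe_toNNReal L hL]
      exact h.lip x z
    exact this.continuous
  · have : φ = fun _ => φ 0 := by
      ext x; rw [hL x 0]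
    rw [this]; exact continuous_const

theorem lower (hB : S_BRENIER) (hP : S_POTVAR) (hI : S_INTERP) : S_LOWER := by
  intro d hd
  refine ⟨by norm_num, by norm_num, ?_⟩
  intro K hKc hKconv hKint Y hYc hYne
  -- radii
  obtain ⟨R, hR0, hKR⟩ : ∃ R : ℝ, 0 < R ∧ K ⊆ Metric.closedBall 0 R := by
    obtain ⟨R, hR⟩ := hKc.isBounded.subset_closedBall 0
    exact ⟨max R 1, by positivity, hR.trans (Metric.closedBall_subset_closedBall (le_max_left _ _))⟩
  obtain ⟨L, hL0, hYL⟩ : ∃ L : ℝ, 0 < L ∧ Y ⊆ Metric.closedBall 0 L := by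
    obtain ⟨R, hR⟩ := hYc.isBounded.subset_closedBall 0
    exact ⟨max R 1, by positivity, hR.trans (Metric.closedBall_subset_closedBall (le_max_left _ _))⟩
  have hvol : 0 < (volume K).toReal := volume_toReal_pos hKc hKint
  have hvol0 : volume K ≠ 0 := (volume_pos_of_interior hKint).ne'
  have hvolt : volume K ≠ ∞ := hKc.measure_lt_top.ne
  obtain ⟨C1, hC1, hP'⟩ := hP d K R L (by omega) hKc hKconv hKint hR0 hKR hL0
  obtain ⟨C2, hC2, hI'⟩ := hI d K L hKc hKconv hKint hL0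
  set CE : ℝ≥0∞ := ((volume K)⁻¹ * (ENNReal.ofReal C2 * (ENNReal.ofReal C1) ^ (1 / 3 : ℝ))) ^
    (1 / 2 : ℝ) with hCE
  have hCEtop : CE ≠ ∞ := by
    apply ENNReal.rpow_ne_top_of_nonneg (by norm_num)
    apply ENNReal.mul_ne_top (ENNReal.inv_ne_top.mpr hvol0)
    apply ENNReal.mul_ne_top ENNReal.ofReal_ne_top
    exact ENNReal.rpow_ne_top_of_nonneg (by norm_num) ENNReal.ofReal_ne_top
  refine ⟨CE.toReal, ?_⟩
  rw [ENNReal.ofReal_toReal hCEtop]
  intro μ ν hμ hν hμY hνY T S hT hS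
  have hμL : μ (Metric.closedBall 0 L)ᶜ = 0 :=
    measure_mono_null (compl_subset_compl.mpr hYL) hμY
  have hνL : ν (Metric.closedBall 0 L)ᶜ = 0 :=
    measure_mono_null (compl_subset_compl.mpr hYL) hνY
  obtain ⟨φ, hφ⟩ := hB d K L μ T hKc hKconv hKint hL0 hμL hT
  obtain ⟨χ, hχ⟩ := hB d K L ν S hKc hKconv hKint hL0 hνL hS
  have hcont : ContinuousOn (fun x => χ x - φ x) K :=
    (hχ.continuous.sub hφ.continuous).continuousOn
  set v := var K (fun x => χ x - φ x) with hv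
  have hv0 : 0 ≤ v := var_nonneg' hKc hvol hcont
  -- the infimum of transport costs
  set I : ℝ≥0∞ := ⨅ (π : Measure (Eu d × Eu d)) (_ : IsCoupling μ ν π),
    ∫⁻ p, ‖p.1 - p.2‖ₑ ^ 2 ∂π with hIdef
  have hC1pos : ENNReal.ofReal C1 ≠ 0 := by simpa using hC1
  have hvI : ENNReal.ofReal v ≤ ENNReal.ofReal C1 * I := by
    rw [← ENNReal.div_le_iff' hC1pos ENNReal.ofReal_ne_top]
    apply le_iInf₂
    intro π hπ
    rw [ENNReal.div_le_iff' hC1pos ENNReal.ofReal_ne_top]
    apply hP' T S φ χ hφ hχ π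
    rw [hT.push, hS.push]
    exact hπ
  have hW : (W2 μ ν) ^ (1 / 3 : ℝ) = (I ^ (1 / 3 : ℝ)) ^ (1 / 2 : ℝ) := by
    unfold W2
    rw [← hIdef, ← ENNReal.rpow_mul, ← ENNReal.rpow_mul]
    congr 1
    ring
  rw [hW, hCE, ← ENNReal.mul_rpow_of_nonneg _ _ (by norm_num : (0:ℝ) ≤ 1 / 2)]
  apply ENNReal.rpow_le_rpow _ (by norm_num)
  -- the L² distance
  unfold unif
  rw [lintegral_smul_measure, smul_eq_mul, mul_assoc]
  gcongr
  -- convert to the Bochner integral
  have henorm : ∀ v : Eu d, ‖v‖ₑ ^ 2 = ENNReal.ofReal (‖v‖ ^ 2) := by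
    intro v
    rw [← ofReal_norm, ENNReal.ofReal_pow (norm_nonneg v)]
  have hfin : IsFiniteMeasure (volume.restrict K) := ⟨by simpa using hKc.measure_lt_top⟩
  have hint : Integrable (fun x => ‖S x - T x‖ ^ 2) (volume.restrict K) := by
    refine Integrable.mono' (integrable_const ((2 * L) ^ 2)) ?_ ?_
    · exact ((hχ.meas.sub hφ.meas).norm.pow_const 2).aestronglyMeasurable
    · filter_upwards [hφ.bdd, hχ.bdd] with x h1 h2
      rw [Real.norm_of_nonneg (by positivity)]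
      have : ‖S x - T x‖ ≤ 2 * L := (norm_sub_le _ _).trans (by linarith)
      exact pow_le_pow_left₀ (norm_nonneg _) this 2
  calc ∫⁻ x in K, ‖T x - S x‖ₑ ^ 2
      = ∫⁻ x in K, ENNReal.ofReal (‖S x - T x‖ ^ 2) := by
        apply lintegral_congr
        intro x
        rw [henorm, norm_sub_rev]
    _ = ENNReal.ofReal (∫ x in K, ‖S x - T x‖ ^ 2) := by
        rw [ofReal_integral_eq_lintegral_ofReal hint]
        exact Filter.Eventually.of_forall fun x => by positivity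
    _ ≤ ENNReal.ofReal (C2 * v ^ (1 / 3 : ℝ)) :=
        ENNReal.ofReal_le_ofReal (hI' T S φ χ hφ hχ)
    _ = ENNReal.ofReal C2 * (ENNReal.ofReal v) ^ (1 / 3 : ℝ) := by
        rw [ENNReal.ofReal_mul hC2.le, ENNReal.ofReal_rpow_of_nonneg hv0 (by norm_num)]
    _ ≤ ENNReal.ofReal C2 * (ENNReal.ofReal C1 * I) ^ (1 / 3 : ℝ) := by
        gcongr
    _ = ENNReal.ofReal C2 * (ENNReal.ofReal C1) ^ (1 / 3 : ℝ) * I ^ (1 / 3 : ℝ) := by
        rw [ENNReal.mul_rpow_of_nonneg _ _ (by norm_num : (0:ℝ) ≤ 1 / 3), mul_assoc]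

end Vale.Agent.P074
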