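import Vale.Agent.P074.Defs

open MeasureTheory Set Filter
open scoped ENNReal NNReal InnerProductSpace Topology

namespace Vale.Agent.P074

namespace PathAux

variable {d : ℕ} {ι : Type} [Fintype ι] [Nonempty ι]

omit [Nonempty ι] in
lemma le_pot (y : ι → Eu d) (ψ : ι → ℝ) (x : Eu d) (i : ι) :
    ⟪x, y i⟫_ℝ - ψ i ≤ pot y ψ x :=
  le_ciSup (f := fun i => ⟪x, y i⟫_ℝ - ψ i) (Set.finite_range _).bddAbove i

omit [Fintype ι] in
lemma pot_le {y : ι → Eu d} {ψ : ι → ℝ} {x : Eu d} {c : ℝ}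
    (h : ∀ i, ⟪x, y i⟫_ℝ - ψ i ≤ c) : pot y ψ x ≤ c := ciSup_le h

lemma continuous_pot (y : ι → Eu d) (ψ : ι → ℝ) : Continuous (pot y ψ) := by
  have h : (pot y ψ) = fun x => Finset.univ.sup' Finset.univ_nonempty
      (fun i => ⟪x, y i⟫_ℝ - ψ i) := by
    funext x
    rw [Finset.sup'_univ_eq_ciSup]
    rfl
  rw [h, continuous_iff_continuousAt]
  intro x
  apply Filter.Tendsto.finset_sup'_nhds_apply
  intro i _
  have : Continuous (fun a : Eu d => ⟪a, y i⟫_ℝ - ψ i) := by fun_prop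
  exact this.tendsto x

omit [Fintype ι] [Nonempty ι] in
lemma isClosed_cell {K : Set (Eu d)} (hK : IsClosed K) (y : ι → Eu d) (ψ : ι → ℝ) (i : ι) :
    IsClosed (cell K y ψ i) := by
  have : cell K y ψ i = K ∩ ⋂ j, {x | ⟪x, y j⟫_ℝ - ψ j ≤ ⟪x, y i⟫_ℝ - ψ i} := by
    ext x; simp [cell]
  rw [this]
  apply hK.inter
  apply isClosed_iInter
  intro j
  exact isClosed_le (by fun_prop) (by fun_prop)

lemma pot_eq_of_mem {K : Set (Eu d)} {y : ι → Eu d} {ψ : ι → ℝ} {i : ι} {x : Eu d}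
    (hx : x ∈ cell K y ψ i) : pot y ψ x = ⟪x, y i⟫_ℝ - ψ i :=
  le_antisymm (pot_le hx.2) (le_pot y ψ x i)

lemma exists_cell {K : Set (Eu d)} (y : ι → Eu d) (ψ : ι → ℝ) {x : Eu d} (hx : x ∈ K) :
    ∃ i, x ∈ cell K y ψ i := by
  obtain ⟨i, hi⟩ := Finite.exists_max (fun i => ⟪x, y i⟫_ℝ - ψ i)
  exact ⟨i, hx, hi⟩

omit [Nonempty ι] in
/-- If measurable subsets of `K` cover `K` and their `w`-masses add up to the mass of `K`, then
integrals over `K` split. -/
lemma split_integral {K : Set (Eu d)} (hK : IsCompact K) {w : Eu d → ℝ} (hw : Measurable w)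
    (hw1 : ∀ x ∈ K, 1 / 2 ≤ w x ∧ w x ≤ 3 / 2) {C : ι → Set (Eu d)}
    (hCm : ∀ i, MeasurableSet (C i)) (hCK : ∀ i, C i ⊆ K) (hcov : ∀ x ∈ K, ∃ i, x ∈ C i)
    (hsum : ∑ i, ∫ x in C i, w x = ∫ x in K, w x) {F : Eu d → ℝ} (hF : IntegrableOn F K) :
    ∫ x in K, F x = ∑ i, ∫ x in C i, F x := by
  classical
  have hKm : MeasurableSet K := hK.isClosed.measurableSet
  have hKfin : volume K ≠ ⊤ := hK.measure_lt_top.ne
  have hwint : IntegrableOn w K := by
    refine Measure.integrableOn_of_bounded (M := 3 / 2) hKfin hw.aestronglyMeasurable ?_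
    filter_upwards [ae_restrict_mem hKm] with x hx
    rw [Real.norm_eq_abs, abs_le]
    constructor <;> linarith [(hw1 x hx).1, (hw1 x hx).2]
  have key : ∀ G : Eu d → ℝ, IntegrableOn G K →
      ∑ i, ∫ x in C i, G x = ∫ x in K, (∑ i, (C i).indicator (fun _ => (1 : ℝ)) x) * G x := by
    intro G hG
    have h1 : ∀ i, ∫ x in C i, G x = ∫ x in K, (C i).indicator G x := by
      intro i
      rw [setIntegral_indicator (hCm i), inter_eq_self_of_subset_right (hCK i)]
    simp_rw [h1]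
    rw [← integral_finsetSum]
    · apply integral_congr_ae
      filter_upwards with x
      rw [Finset.sum_mul]
      apply Finset.sum_congr rfl
      intro i _
      by_cases hx : x ∈ C i <;> simp [hx]
    · intro i _
      exact hG.indicator (hCm i)
  have hge : ∀ x ∈ K, 1 ≤ ∑ i, (C i).indicator (fun _ => (1 : ℝ)) x := by
    intro x hx
    obtain ⟨i, hi⟩ := hcov x hx
    have h0 : (C i).indicator (fun _ => (1 : ℝ)) x = 1 := by simp [hi]
    calc (1 : ℝ) = (C i).indicator (fun _ => (1 : ℝ)) x := h0.symm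
      _ ≤ _ := Finset.single_le_sum (f := fun i => (C i).indicator (fun _ => (1 : ℝ)) x)
        (fun j _ => by
          by_cases hj : x ∈ C j <;> simp [hj]) (Finset.mem_univ i)
  have hSint : IntegrableOn (fun x => (∑ i, (C i).indicator (fun _ => (1 : ℝ)) x) * w x) K := by
    have : (fun x => (∑ i, (C i).indicator (fun _ => (1 : ℝ)) x) * w x)
        = fun x => ∑ i, (C i).indicator w x := by
      funext x
      rw [Finset.sum_mul]
      apply Finset.sum_congr rfl
      intro i _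
      by_cases hx : x ∈ C i <;> simp [hx]
    rw [this]
    apply integrable_finsetSum
    intro i _
    exact hwint.indicator (hCm i)
  have hzero : ∫ x in K, ((∑ i, (C i).indicator (fun _ => (1 : ℝ)) x) * w x - w x) = 0 := by
    rw [integral_sub hSint hwint, ← key w hwint, hsum, sub_self]
  have hae : ∀ᵐ x ∂(volume.restrict K),
      (∑ i, (C i).indicator (fun _ => (1 : ℝ)) x) * w x - w x = 0 := by
    have hnn : 0 ≤ᵐ[volume.restrict K]
        fun x => (∑ i, (C i).indicator (fun _ => (1 : ℝ)) x) * w x - w x := by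
      filter_upwards [ae_restrict_mem hKm] with x hx
      have h1 := hge x hx
      have h2 := (hw1 x hx).1
      simp only [Pi.zero_apply]
      nlinarith
    have := (setIntegral_eq_zero_iff_of_nonneg_ae hnn (hSint.sub hwint)).1 hzero
    filter_upwards [this] with x hx using hx
  rw [key F hF]
  apply integral_congr_ae
  filter_upwards [hae, ae_restrict_mem hKm] with x hx hxK
  have h2 := (hw1 x hxK).1
  have h3 : ((∑ i, (C i).indicator (fun _ => (1 : ℝ)) x) - 1) * w x = 0 := by linarith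
  have h4 : (∑ i, (C i).indicator (fun _ => (1 : ℝ)) x) = 1 := by
    rcases mul_eq_zero.1 h3 with h | h
    · linarith
    · linarith
  rw [h4, one_mul]

lemma integrableOn_mul {K : Set (Eu d)} (hK : IsCompact K) {w : Eu d → ℝ} (hw : Measurable w)
    (hw1 : ∀ x ∈ K, 1 / 2 ≤ w x ∧ w x ≤ 3 / 2) {f : Eu d → ℝ} (hf : Continuous f) :
    IntegrableOn (fun x => f x * w x) K := by
  have hKm : MeasurableSet K := hK.isClosed.measurableSet
  obtain ⟨M, hM⟩ := hK.exists_bound_of_continuousOn hf.continuousOn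
  refine Measure.integrableOn_of_bounded (M := M * (3 / 2)) hK.measure_lt_top.ne
    (hf.measurable.mul hw).aestronglyMeasurable ?_
  filter_upwards [ae_restrict_mem hKm] with x hx
  rw [norm_mul]
  have h1 := hM x hx
  have h2 : ‖w x‖ ≤ 3 / 2 := by
    rw [Real.norm_eq_abs, abs_le]
    constructor <;> linarith [(hw1 x hx).1, (hw1 x hx).2]
  have h3 : 0 ≤ M := le_trans (norm_nonneg _) h1
  exact mul_le_mul h1 h2 (norm_nonneg _) h3

lemma integrableOn_smul {K : Set (Eu d)} (hK : IsCompact K) {w : Eu d → ℝ} (hw : Measurable w)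
    (hw1 : ∀ x ∈ K, 1 / 2 ≤ w x ∧ w x ≤ 3 / 2) :
    IntegrableOn (fun x => w x • x) K := by
  have hKm : MeasurableSet K := hK.isClosed.measurableSet
  obtain ⟨M, hM⟩ := hK.exists_bound_of_continuousOn (f := fun x : Eu d => x) continuousOn_id
  refine Measure.integrableOn_of_bounded (M := (3 / 2) * M) hK.measure_lt_top.ne
    (hw.smul measurable_id).aestronglyMeasurable ?_
  filter_upwards [ae_restrict_mem hKm] with x hx
  rw [norm_smul]
  have h1 := hM x hx
  have h2 : ‖w x‖ ≤ 3 / 2 := by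
    rw [Real.norm_eq_abs, abs_le]
    constructor <;> linarith [(hw1 x hx).1, (hw1 x hx).2]
  exact mul_le_mul h2 h1 (norm_nonneg _) (by norm_num)

/-- Weighted first moments of the cells. -/
noncomputable def mom (K : Set (Eu d)) (w : Eu d → ℝ) (y : ι → Eu d) (ψ : ι → ℝ) (i : ι) : Eu d :=
  ∫ x in cell K y ψ i, w x • x

omit [Fintype ι] [Nonempty ι] in
lemma cell_subset (K : Set (Eu d)) (y : ι → Eu d) (ψ : ι → ℝ) (i : ι) : cell K y ψ i ⊆ K :=
  fun _ hx => hx.1

omit [Fintype ι] [Nonempty ι] in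
lemma integral_affine {K : Set (Eu d)} (hK : IsCompact K) {w : Eu d → ℝ} (hw : Measurable w)
    (hw1 : ∀ x ∈ K, 1 / 2 ≤ w x ∧ w x ≤ 3 / 2) (y : ι → Eu d) (ψ : ι → ℝ) (i : ι)
    (v : Eu d) (c : ℝ) :
    ∫ x in cell K y ψ i, (⟪x, v⟫_ℝ - c) * w x
      = ⟪v, mom K w y ψ i⟫_ℝ - c * ∫ x in cell K y ψ i, w x := by
  have hCK := cell_subset K y ψ i
  have h1 : IntegrableOn (fun x => w x • x) (cell K y ψ i) :=
    (integrableOn_smul hK hw hw1).mono_set hCK
  have h2 : IntegrableOn w (cell K y ψ i) := by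
    have := integrableOn_mul hK hw hw1 (f := fun _ => 1) continuous_const
    simp only [one_mul] at this
    exact this.mono_set hCK
  have h3 : ∀ x, (⟪x, v⟫_ℝ - c) * w x = ⟪v, w x • x⟫_ℝ - c * w x := by
    intro x
    rw [inner_smul_right, real_inner_comm x v]
    ring
  simp_rw [h3]
  rw [integral_sub (h1.const_inner v) (h2.const_mul c), integral_inner h1 v,
    integral_const_mul]
  rfl

/-- Lower bound for the dual value. -/
lemma le_dualM {K : Set (Eu d)} (hK : IsCompact K) {w : Eu d → ℝ} (hw : Measurable w)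
    (hw1 : ∀ x ∈ K, 1 / 2 ≤ w x ∧ w x ≤ 3 / 2) {y : ι → Eu d} {ψ : ι → ℝ} {m : ι → ℝ}
    (hm : ∑ i, m i = ∫ x in K, w x) (hmass : ∀ i, ∫ x in cell K y ψ i, w x = m i)
    (y' : ι → Eu d) :
    ∑ i, ⟪y' i, mom K w y ψ i⟫_ℝ ≤ dualM K w m y' := by
  apply le_ciInf
  intro ψ'
  have hKcl := hK.isClosed
  have hKm := hKcl.measurableSet
  have hsplit := split_integral hK hw hw1 (C := cell K y ψ)
    (fun i => (isClosed_cell hKcl y ψ i).measurableSet) (cell_subset K y ψ)
    (fun x hx => exists_cell y ψ hx) (by rw [hm.symm]; exact Finset.sum_congr rfl fun i _ => hmass i)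
    (integrableOn_mul hK hw hw1 (continuous_pot y' ψ'))
  unfold dualJ
  rw [hsplit, ← Finset.sum_add_distrib]
  apply Finset.sum_le_sum
  intro i _
  have h1 : ∫ x in cell K y ψ i, (⟪x, y' i⟫_ℝ - ψ' i) * w x
      ≤ ∫ x in cell K y ψ i, pot y' ψ' x * w x := by
    apply setIntegral_mono_on
    · exact (integrableOn_mul hK hw hw1 (by fun_prop)).mono_set (cell_subset K y ψ i)
    · exact (integrableOn_mul hK hw hw1 (continuous_pot y' ψ')).mono_set (cell_subset K y ψ i)
    · exact (isClosed_cell hKcl y ψ i).measurableSet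
    · intro x hx
      have := (hw1 x hx.1).1
      exact mul_le_mul_of_nonneg_right (le_pot y' ψ' x i) (by linarith)
  rw [integral_affine hK hw hw1, hmass i] at h1
  linarith

/-- Value of the dual functional at a minimiser. -/
lemma dualM_eq {K : Set (Eu d)} (hK : IsCompact K) {w : Eu d → ℝ} (hw : Measurable w)
    (hw1 : ∀ x ∈ K, 1 / 2 ≤ w x ∧ w x ≤ 3 / 2) {y : ι → Eu d} {ψ : ι → ℝ} {m : ι → ℝ}
    (hm : ∑ i, m i = ∫ x in K, w x) (hmass : ∀ i, ∫ x in cell K y ψ i, w x = m i)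
    (hmin : ∀ ψ', dualJ K w m y ψ ≤ dualJ K w m y ψ') :
    dualM K w m y = ∑ i, ⟪y i, mom K w y ψ i⟫_ℝ := by
  apply le_antisymm _ (le_dualM hK hw hw1 hm hmass y)
  have h0 : dualM K w m y ≤ dualJ K w m y ψ :=
    ciInf_le ⟨dualJ K w m y ψ, by rintro _ ⟨ψ', rfl⟩; exact hmin ψ'⟩ ψ
  refine h0.trans (le_of_eq ?_)
  have hKcl := hK.isClosed
  have hsplit := split_integral hK hw hw1 (C := cell K y ψ)
    (fun i => (isClosed_cell hKcl y ψ i).measurableSet) (cell_subset K y ψ)
    (fun x hx => exists_cell y ψ hx) (by rw [hm.symm]; exact Finset.sum_congr rfl fun i _ => hmass i)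
    (integrableOn_mul hK hw hw1 (continuous_pot y ψ))
  unfold dualJ
  rw [hsplit, ← Finset.sum_add_distrib]
  apply Finset.sum_congr rfl
  intro i _
  have h1 : ∫ x in cell K y ψ i, pot y ψ x * w x
      = ∫ x in cell K y ψ i, (⟪x, y i⟫_ℝ - ψ i) * w x := by
    apply setIntegral_congr_fun (isClosed_cell hKcl y ψ i).measurableSet
    intro x hx
    simp only [pot_eq_of_mem hx]
  rw [h1, integral_affine hK hw hw1, hmass i]
  ring

/-- Lipschitz dependence of the dual value on the sites. -/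
lemma dualM_lip (hE : S_EXIST) {K : Set (Eu d)} (hK : IsCompact K) {w : Eu d → ℝ}
    (hw : Measurable w) (hw1 : ∀ x ∈ K, 1 / 2 ≤ w x ∧ w x ≤ 3 / 2) {m : ι → ℝ}
    (hm0 : ∀ i, 0 < m i) (hm : ∑ i, m i = ∫ x in K, w x) {R : ℝ} (hR : 0 < R)
    (hKR : K ⊆ Metric.closedBall 0 R) {D : ℝ} {y y' : ι → Eu d} (hD : ∀ i, ‖y i - y' i‖ ≤ D) :
    dualM K w m y ≤ dualM K w m y' + R * D * ∑ i, m i := by
  obtain ⟨ψ, hψ⟩ := hE d ι K w y m hK hw hw1 hm0 hm
  have hbdd : BddBelow (Set.range (dualJ K w m y)) :=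
    ⟨dualJ K w m y ψ, by rintro _ ⟨ψ', rfl⟩; exact hψ ψ'⟩
  rw [← sub_le_iff_le_add]
  apply le_ciInf
  intro ψ'
  rw [sub_le_iff_le_add]
  refine (ciInf_le hbdd ψ').trans ?_
  have hKm := hK.isClosed.measurableSet
  have hDn : 0 ≤ D := by
    obtain ⟨i⟩ := (inferInstance : Nonempty ι)
    exact (norm_nonneg _).trans (hD i)
  have h1 : ∫ x in K, pot y ψ' x * w x ≤ ∫ x in K, (pot y' ψ' x + R * D) * w x := by
    apply setIntegral_mono_on
    · exact integrableOn_mul hK hw hw1 (continuous_pot y ψ')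
    · exact integrableOn_mul hK hw hw1 ((continuous_pot y' ψ').add continuous_const)
    · exact hKm
    · intro x hx
      have hwx := (hw1 x hx).1
      refine mul_le_mul_of_nonneg_right ?_ (by linarith)
      apply pot_le
      intro i
      have h2 := le_pot y' ψ' x i
      have h3 : ⟪x, y i⟫_ℝ - ⟪x, y' i⟫_ℝ ≤ R * D := by
        rw [← inner_sub_right]
        refine (real_inner_le_norm _ _).trans ?_
        have hxR : ‖x‖ ≤ R := by simpa using hKR hx
        exact mul_le_mul hxR (hD i) (norm_nonneg _) hR.le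
      linarith
  have h2 : ∫ x in K, (pot y' ψ' x + R * D) * w x
      = (∫ x in K, pot y' ψ' x * w x) + R * D * ∫ x in K, w x := by
    simp_rw [add_mul]
    rw [integral_add (integrableOn_mul hK hw hw1 (continuous_pot y' ψ'))
      (integrableOn_mul hK hw hw1 continuous_const), integral_const_mul]
  unfold dualJ
  rw [hm]
  linarith

omit [Nonempty ι] in
/-- Generic perturbation makes finitely many configurations injective. -/
lemma exists_eps (Y : ℕ → ι → Eu d) (N : ℕ) {c : ι → ℝ} (hc : Function.Injective c) {e : Eu d}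
    (he : e ≠ 0) {δ : ℝ} (hδ : 0 < δ) :
    ∃ ε, 0 < ε ∧ ε < δ ∧ ∀ k ≤ N, Function.Injective (fun i => Y k i + (ε * c i) • e) := by
  classical
  let S : ℕ → ι × ι → Set ℝ := fun k p =>
    if p.1 = p.2 then ∅ else {ε | Y k p.1 + (ε * c p.1) • e = Y k p.2 + (ε * c p.2) • e}
  have hS : ∀ k p, (S k p).Finite := by
    intro k p
    by_cases hp : p.1 = p.2
    · simp [S, hp]
    · simp only [S, hp, if_false]
      apply Set.Subsingleton.finite
      intro a ha b hb
      simp only [Set.mem_ofPred_eq] at ha hb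
      have h1 : ((a - b) * (c p.1 - c p.2)) • e = 0 := by
        have h2 : (a * c p.1) • e - (a * c p.2) • e = Y k p.2 - Y k p.1 := by
          have := ha
          rw [← sub_eq_zero] at this ⊢
          rw [← this]; abel
        have h3 : (b * c p.1) • e - (b * c p.2) • e = Y k p.2 - Y k p.1 := by
          have := hb
          rw [← sub_eq_zero] at this ⊢
          rw [← this]; abel
        have h4 : ((a - b) * (c p.1 - c p.2)) • e
            = ((a * c p.1) • e - (a * c p.2) • e) - ((b * c p.1) • e - (b * c p.2) • e) := by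
          rw [← sub_smul, ← sub_smul, ← sub_smul]
          congr 1
          ring
        rw [h4, h2, h3, sub_self]
      rw [smul_eq_zero] at h1
      rcases h1 with h1 | h1
      · rcases mul_eq_zero.1 h1 with h | h
        · linarith
        · exact absurd (hc (by linarith)) hp
      · exact absurd h1 he
  have hfin : (⋃ k ∈ Finset.range (N + 1), ⋃ p, S k p).Finite := by
    apply Set.Finite.biUnion (Finset.finite_toSet _)
    intro k _
    exact Set.finite_iUnion (fun p => hS k p)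
  obtain ⟨ε, hε, hεn⟩ := (Set.Ioo_infinite hδ).exists_notMem_finite hfin
  refine ⟨ε, hε.1, hε.2, ?_⟩
  intro k hk i j hij
  by_contra hne
  apply hεn
  simp only [mem_iUnion]
  refine ⟨k, Finset.mem_range.2 (by omega), (i, j), ?_⟩
  simp only [S, hne, if_false]
  exact hij

omit [Fintype ι] [Nonempty ι] in
lemma norm_mom_one_le {K : Set (Eu d)} (hK : IsCompact K) {R : ℝ}
    (hKR : K ⊆ Metric.closedBall 0 R) (y : ι → Eu d) (ψ : ι → ℝ) (i : ι) :
    ‖mom K (fun _ => 1) y ψ i‖ ≤ R * ∫ _x in cell K y ψ i, (1 : ℝ) := by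
  unfold mom
  have h1 : volume (cell K y ψ i) < ⊤ :=
    (measure_mono (cell_subset K y ψ i)).trans_lt hK.measure_lt_top
  refine (norm_setIntegral_le_of_norm_le_const (C := R) h1 ?_).trans (le_of_eq ?_)
  · intro x hx
    simpa using hKR hx.1
  · simp

end PathAux

open PathAux in
theorem path : S_BARY → S_EXIST → S_CELLMASS → S_PATH := by
  rintro ⟨h0, hh0, C0, hC0, hbary⟩ hE hCM
  refine ⟨min h0 (1 / 2), by positivity, √C0, Real.sqrt_pos.2 hC0, ?_⟩
  intro d ι _ _ K R y0 y1 m h hd hK hKc hR hKR hm0 hm hh hhb hhint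
  have hKm := hK.isClosed.measurableSet
  -- weights
  have hwA : Measurable (fun x => 1 + h x) := measurable_const.add hh
  have hwB : Measurable (fun _ : Eu d => (1 : ℝ)) := measurable_const
  have hwA1 : ∀ x ∈ K, 1 / 2 ≤ 1 + h x ∧ 1 + h x ≤ 3 / 2 := by
    intro x hx
    have h1 := (hhb x hx).trans (min_le_right _ _)
    rw [abs_le] at h1
    constructor <;> linarith
  have hwB1 : ∀ x ∈ K, (1 : ℝ) / 2 ≤ 1 ∧ (1 : ℝ) ≤ 3 / 2 := fun _ _ => by norm_num
  have hmB : ∑ i, m i = ∫ _x in K, (1 : ℝ) := by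
    rw [hm]; simp [Measure.real]
  have hhi : IntegrableOn h K := by
    refine Measure.integrableOn_of_bounded (M := h0) hK.measure_lt_top.ne
      hh.aestronglyMeasurable ?_
    filter_upwards [ae_restrict_mem hKm] with x hx
    exact (hhb x hx).trans (min_le_left _ _)
  have h1i : IntegrableOn (fun _ : Eu d => (1 : ℝ)) K :=
    integrableOn_const hK.measure_lt_top.ne
  have hmA : ∑ i, m i = ∫ x in K, (1 + h x) := by
    rw [integral_add h1i hhi, hhint, add_zero]
    exact hmB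
  set A : (ι → Eu d) → ℝ := dualM K (fun x => 1 + h x) m with hAdef
  set B : (ι → Eu d) → ℝ := dualM K (fun _ => 1) m with hBdef
  set v : ι → Eu d := fun i => y1 i - y0 i with hvdef
  set Bd : ℝ := √C0 * R * √(∫ x in K, (h x) ^ 2) * √(∑ i, m i * ‖v i‖ ^ 2) with hBd
  change A y1 - B y1 - (A y0 - B y0) ≤ Bd
  -- subgradients at injective configurations
  have hsub : ∀ y : ι → Eu d, Function.Injective y → ∃ a b : ι → Eu d,
      A y = ∑ i, ⟪y i, a i⟫_ℝ ∧ B y = ∑ i, ⟪y i, b i⟫_ℝ ∧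
      (∀ y', ∑ i, ⟪y' i, a i⟫_ℝ ≤ A y') ∧ (∀ y', ∑ i, ⟪y' i, b i⟫_ℝ ≤ B y') ∧
      ∑ i, ⟪v i, a i - b i⟫_ℝ ≤ Bd ∧ (∀ i, ‖b i‖ ≤ R * m i) := by
    intro y hy
    obtain ⟨ψA, hψA⟩ := hE d ι K (fun x => 1 + h x) y m hK hwA hwA1 hm0 hmA
    obtain ⟨ψB, hψB⟩ := hE d ι K (fun _ => 1) y m hK hwB hwB1 hm0 hmB
    have hcA := hCM d ι K (fun x => 1 + h x) y m ψA hK hwA hwA1 hm0 hmA hy hψA
    have hcB := hCM d ι K (fun _ => 1) y m ψB hK hwB hwB1 hm0 hmB hy hψB
    refine ⟨mom K (fun x => 1 + h x) y ψA, mom K (fun _ => 1) y ψB,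
      dualM_eq hK hwA hwA1 hmA hcA hψA, dualM_eq hK hwB hwB1 hmB hcB hψB,
      fun y' => le_dualM hK hwA hwA1 hmA hcA y', fun y' => le_dualM hK hwB hwB1 hmB hcB y',
      ?_, ?_⟩
    · have hb := hbary d ι K R y ψB ψA m h hK hKc hR hKR hy hm0 hh
        (fun x hx => (hhb x hx).trans (min_le_left _ _)) hcB hcA
      have hb' : ∑ i, ‖mom K (fun x => 1 + h x) y ψA i - mom K (fun _ => 1) y ψB i‖ ^ 2 / m i
          ≤ C0 * R ^ 2 * ∫ x in K, (h x) ^ 2 := by
        simpa [mom] using hb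
      set a := mom K (fun x => 1 + h x) y ψA
      set b := mom K (fun _ => 1) y ψB
      calc ∑ i, ⟪v i, a i - b i⟫_ℝ
          ≤ ∑ i, (√(m i) * ‖v i‖) * (‖a i - b i‖ / √(m i)) := by
            apply Finset.sum_le_sum
            intro i _
            have hmi : 0 < √(m i) := Real.sqrt_pos.2 (hm0 i)
            refine (real_inner_le_norm _ _).trans (le_of_eq ?_)
            field_simp
        _ ≤ √(∑ i, (√(m i) * ‖v i‖) ^ 2) * √(∑ i, (‖a i - b i‖ / √(m i)) ^ 2) :=
            Real.sum_mul_le_sqrt_mul_sqrt _ _ _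
        _ ≤ √(∑ i, m i * ‖v i‖ ^ 2) * √(C0 * R ^ 2 * ∫ x in K, (h x) ^ 2) := by
            apply mul_le_mul
            · apply Real.sqrt_le_sqrt
              apply le_of_eq
              apply Finset.sum_congr rfl
              intro i _
              rw [mul_pow, Real.sq_sqrt (hm0 i).le]
            · apply Real.sqrt_le_sqrt
              refine le_trans (le_of_eq ?_) hb'
              apply Finset.sum_congr rfl
              intro i _
              rw [div_pow, Real.sq_sqrt (hm0 i).le]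
            · positivity
            · positivity
        _ = Bd := by
            rw [hBd, Real.sqrt_mul (by positivity), Real.sqrt_mul hC0.le, Real.sqrt_sq hR.le]
            ring
    · intro i
      have := norm_mom_one_le hK hKR y ψB i
      rwa [hcB i] at this
  -- constants
  obtain ⟨e, he⟩ : ∃ e : Eu d, e ≠ 0 := by
    have : Nonempty (Fin d) := ⟨⟨0, hd⟩⟩
    obtain ⟨j⟩ := (inferInstance : Nonempty (Fin d))
    refine ⟨EuclideanSpace.single j 1, ?_⟩
    intro h0
    have := congrArg (fun z : Eu d => z j) h0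
    simp at this
  set c : ι → ℝ := fun i => ((Fintype.equivFin ι i : ℕ) : ℝ) with hc
  have hcinj : Function.Injective c := by
    intro i j hij
    simp only [hc, Nat.cast_inj] at hij
    exact (Fintype.equivFin ι).injective (Fin.ext hij)
  set M : ℝ := ∑ i, ‖v i‖ * (R * m i) with hM
  have hM0 : 0 ≤ M := by
    apply Finset.sum_nonneg
    intro i _
    have := (hm0 i).le
    positivity
  set cm : ℝ := (Fintype.card ι : ℝ) * ‖e‖ with hcm
  have hcm0 : 0 ≤ cm := by positivity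
  set Sm : ℝ := ∑ i, m i with hSm
  have hSm0 : 0 ≤ Sm := Finset.sum_nonneg fun i _ => (hm0 i).le
  apply le_of_forall_pos_le_add
  intro η hη
  obtain ⟨N, hN⟩ := exists_nat_gt (2 * M / (η / 2))
  have hNpos : (0 : ℝ) < N := lt_of_le_of_lt (by positivity) hN
  have hN' : 2 * M / N ≤ η / 2 := by
    rw [div_le_iff₀ hNpos]
    rw [div_lt_iff₀ (by positivity)] at hN
    linarith
  set δ : ℝ := (η / 2) / (4 * R * Sm * cm + 1) with hδ
  have hden : 0 < 4 * R * Sm * cm + 1 := by positivity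
  have hδ0 : 0 < δ := by positivity
  obtain ⟨ε, hε0, hεδ, hinj⟩ := exists_eps
    (fun k i => y0 i + ((k : ℝ) / N) • v i) N hcinj he hδ0
  set Y : ℕ → ι → Eu d := fun k i => (y0 i + ((k : ℝ) / N) • v i) + (ε * c i) • e with hY
  have hYstep : ∀ k i, Y (k + 1) i - Y k i = (1 / (N : ℝ)) • v i := by
    intro k i
    simp only [hY, add_sub_add_right_eq_sub, add_sub_add_left_eq_sub, ← sub_smul]
    congr 1
    push_cast
    ring
  choose! a b hA hB hA' hB' hab hbn using fun (k : ℕ) (hk : k ≤ N) => hsub (Y k) (hinj k hk)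
  have hind : ∀ k, k ≤ N → A (Y k) - B (Y k) - (A (Y 0) - B (Y 0))
      ≤ (1 / (N : ℝ)) * (k * Bd + (∑ i, ⟪v i, b k i⟫_ℝ) - ∑ i, ⟪v i, b 0 i⟫_ℝ) := by
    intro k
    induction k with
    | zero => intro _; simp
    | succ k ih =>
      intro hk
      have ih' := ih (by omega)
      have h1 : A (Y (k + 1)) - A (Y k) ≤ (1 / (N : ℝ)) * ∑ i, ⟪v i, a (k + 1) i⟫_ℝ := by
        have e1 := hA (k + 1) hk
        have e2 := hA' (k + 1) hk (Y k)
        calc A (Y (k + 1)) - A (Y k)
            ≤ ∑ i, ⟪Y (k + 1) i, a (k + 1) i⟫_ℝ - ∑ i, ⟪Y k i, a (k + 1) i⟫_ℝ := by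
              rw [e1]; linarith
          _ = ∑ i, ⟪Y (k + 1) i - Y k i, a (k + 1) i⟫_ℝ := by
              rw [← Finset.sum_sub_distrib]
              apply Finset.sum_congr rfl
              intro i _
              rw [inner_sub_left]
          _ = _ := by
              rw [Finset.mul_sum]
              apply Finset.sum_congr rfl
              intro i _
              rw [hYstep, real_inner_smul_left]
      have h2 : (1 / (N : ℝ)) * ∑ i, ⟪v i, b k i⟫_ℝ ≤ B (Y (k + 1)) - B (Y k) := by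
        have e1 := hB k (by omega)
        have e2 := hB' k (by omega) (Y (k + 1))
        calc (1 / (N : ℝ)) * ∑ i, ⟪v i, b k i⟫_ℝ
            = ∑ i, ⟪Y (k + 1) i - Y k i, b k i⟫_ℝ := by
              rw [Finset.mul_sum]
              apply Finset.sum_congr rfl
              intro i _
              rw [hYstep, real_inner_smul_left]
          _ = ∑ i, ⟪Y (k + 1) i, b k i⟫_ℝ - ∑ i, ⟪Y k i, b k i⟫_ℝ := by
              rw [← Finset.sum_sub_distrib]
              apply Finset.sum_congr rfl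
              intro i _
              rw [inner_sub_left]
          _ ≤ _ := by rw [e1]; linarith
      have h3 : ∑ i, ⟪v i, a (k + 1) i⟫_ℝ ≤ Bd + ∑ i, ⟪v i, b (k + 1) i⟫_ℝ := by
        have := hab (k + 1) hk
        simp_rw [inner_sub_right] at this
        rw [Finset.sum_sub_distrib] at this
        linarith
      have hNi : (0 : ℝ) ≤ 1 / N := by positivity
      have h4 := mul_le_mul_of_nonneg_left h3 hNi
      push_cast
      have h5 : (1 / (N : ℝ)) * ((k + 1) * Bd + (∑ i, ⟪v i, b (k + 1) i⟫_ℝ)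
          - ∑ i, ⟪v i, b 0 i⟫_ℝ) =
          (1 / (N : ℝ)) * (k * Bd + (∑ i, ⟪v i, b k i⟫_ℝ) - ∑ i, ⟪v i, b 0 i⟫_ℝ)
          + (1 / (N : ℝ)) * (Bd + ∑ i, ⟪v i, b (k + 1) i⟫_ℝ)
          - (1 / (N : ℝ)) * ∑ i, ⟪v i, b k i⟫_ℝ := by ring
      rw [h5]
      linarith
  have hbM : ∀ k, k ≤ N → |∑ i, ⟪v i, b k i⟫_ℝ| ≤ M := by
    intro k hk
    refine (Finset.abs_sum_le_sum_abs _ _).trans ?_
    apply Finset.sum_le_sum
    intro i _
    refine (abs_real_inner_le_norm _ _).trans ?_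
    exact mul_le_mul_of_nonneg_left (hbn k hk i) (norm_nonneg _)
  have hfin := hind N le_rfl
  have hN1 : (1 / (N : ℝ)) * (N * Bd + (∑ i, ⟪v i, b N i⟫_ℝ) - ∑ i, ⟪v i, b 0 i⟫_ℝ)
      ≤ Bd + η / 2 := by
    have h1 := abs_le.1 (hbM N le_rfl)
    have h2 := abs_le.1 (hbM 0 (Nat.zero_le _))
    have h3 : (1 / (N : ℝ)) * (N * Bd + (∑ i, ⟪v i, b N i⟫_ℝ) - ∑ i, ⟪v i, b 0 i⟫_ℝ)
        = Bd + ((∑ i, ⟪v i, b N i⟫_ℝ) - ∑ i, ⟪v i, b 0 i⟫_ℝ) / N := by
      field_simp
      ring
    rw [h3]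
    have h4 : ((∑ i, ⟪v i, b N i⟫_ℝ) - ∑ i, ⟪v i, b 0 i⟫_ℝ) / N ≤ 2 * M / N := by
      apply div_le_div_of_nonneg_right _ hNpos.le
      linarith [h1.2, h2.1]
    linarith
  -- Lipschitz comparison of the end points
  set D : ℝ := ε * cm with hD
  have hshift : ∀ i, ‖(ε * c i) • e‖ ≤ D := by
    intro i
    rw [norm_smul, Real.norm_eq_abs, abs_of_nonneg (by positivity), hD, hcm, mul_assoc]
    apply mul_le_mul_of_nonneg_left _ hε0.le
    apply mul_le_mul_of_nonneg_right _ (norm_nonneg _)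
    simp only [hc]
    exact_mod_cast (Fintype.equivFin ι i).2.le
  have hd1 : ∀ i, ‖y1 i - Y N i‖ ≤ D := by
    intro i
    have : y1 i - Y N i = -((ε * c i) • e) := by
      simp only [hY, hvdef]
      rw [div_self hNpos.ne', one_smul]
      abel
    rw [this, norm_neg]
    exact hshift i
  have hd1' : ∀ i, ‖Y N i - y1 i‖ ≤ D := fun i => by rw [norm_sub_rev]; exact hd1 i
  have hd0' : ∀ i, ‖Y 0 i - y0 i‖ ≤ D := by
    intro i
    have : Y 0 i - y0 i = (ε * c i) • e := by
      simp only [hY]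
      simp
    rw [this]
    exact hshift i
  have hd0 : ∀ i, ‖y0 i - Y 0 i‖ ≤ D := fun i => by rw [norm_sub_rev]; exact hd0' i
  have l1 := dualM_lip hE hK hwA hwA1 hm0 hmA hR hKR hd1
  have l2 := dualM_lip hE hK hwB hwB1 hm0 hmB hR hKR hd1'
  have l3 := dualM_lip hE hK hwA hwA1 hm0 hmA hR hKR hd0'
  have l4 := dualM_lip hE hK hwB hwB1 hm0 hmB hR hKR hd0
  have hsmall : 4 * (R * D * Sm) ≤ η / 2 := by
    have h1 : 4 * (R * D * Sm) = (4 * R * Sm * cm) * ε := by rw [hD]; ring
    rw [h1]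
    have h2 : (4 * R * Sm * cm) * ε ≤ (4 * R * Sm * cm + 1) * δ := by
      apply mul_le_mul _ hεδ.le hε0.le (by positivity)
      linarith
    have h3 : (4 * R * Sm * cm + 1) * δ = η / 2 := by
      rw [hδ]; field_simp
    linarith
  have l1' : A y1 ≤ A (Y N) + R * D * Sm := l1
  have l2' : B (Y N) ≤ B y1 + R * D * Sm := l2
  have l3' : A (Y 0) ≤ A y0 + R * D * Sm := l3
  have l4' : B y0 ≤ B (Y 0) + R * D * Sm := l4
  linarith

end Vale.Agent.P074
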