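import Vale.Agent.P074.Defs

open MeasureTheory Set Filter
open scoped ENNReal NNReal InnerProductSpace Topology

namespace Vale.Agent.P074

namespace PotVar

/-! ### Discretisation of a ball -/

theorem exists_simple {d : ℕ} (L η : ℝ) (hL : 0 < L) (hη : 0 < η) :
    ∃ A : SimpleFunc (Eu d) (Eu d), (∀ y, ‖A y‖ ≤ L) ∧ ∀ y, ‖y‖ ≤ L → ‖A y - y‖ ≤ η := by
  obtain ⟨t, htK, htf, hcov⟩ := (isCompact_closedBall (0 : Eu d) L).finite_cover_balls hη
  have h0 : (0 : Eu d) ∈ Metric.closedBall (0 : Eu d) L := by simp [hL.le]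
  obtain ⟨x0, hx0, -⟩ := Set.mem_iUnion₂.mp (hcov h0)
  let l := htf.toFinset.toList
  let e : ℕ → Eu d := fun k => l.getD k x0
  have hmem : ∀ k, e k ∈ t := by
    intro k
    by_cases hk : k < l.length
    · have : e k = l[k] := by simp [e, hk]
      rw [this]
      have h := List.getElem_mem (l := l) hk
      exact htf.mem_toFinset.mp (Finset.mem_toList.mp h)
    · have : e k = x0 := by simp [e, not_lt.mp hk]
      rw [this]; exact hx0
  refine ⟨SimpleFunc.nearestPt e l.length, ?_, ?_⟩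
  · intro y
    have : SimpleFunc.nearestPt e l.length y = e (SimpleFunc.nearestPtInd e l.length y) := rfl
    rw [this]
    have := htK (hmem (SimpleFunc.nearestPtInd e l.length y))
    simpa using this
  · intro y hy
    have hyb : y ∈ Metric.closedBall (0 : Eu d) L := by simpa using hy
    obtain ⟨x, hx, hyx⟩ := Set.mem_iUnion₂.mp (hcov hyb)
    have hxl : x ∈ l := by simpa [l] using hx
    obtain ⟨k, hk, rfl⟩ := List.getElem_of_mem hxl
    have he : e k = l[k] := by simp [e, hk]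
    have h1 := SimpleFunc.edist_nearestPt_le e y hk.le
    rw [he, edist_dist, edist_dist] at h1
    have h2 := (ENNReal.ofReal_le_ofReal_iff dist_nonneg).mp h1
    rw [Metric.mem_ball, dist_comm] at hyx
    rw [← dist_eq_norm]
    exact h2.trans hyx.le

/-! ### Convex conjugate on `K` -/

/-- conjugate of `φ` restricted to `K` -/
noncomputable def cj {d : ℕ} (K : Set (Eu d)) (φ : Eu d → ℝ) (y : Eu d) : ℝ :=
  ⨆ x : K, (⟪(x : Eu d), y⟫_ℝ - φ x)

section conj

variable {d : ℕ} {K : Set (Eu d)} {R L : ℝ} {φ : Eu d → ℝ}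

theorem cj_bdd (hKR : K ⊆ Metric.closedBall 0 R) (hL : 0 ≤ L)
    (hlip : ∀ x z, |φ x - φ z| ≤ L * ‖x - z‖) (y : Eu d) :
    BddAbove (Set.range fun x : K => (⟪(x : Eu d), y⟫_ℝ - φ x)) := by
  refine ⟨R * ‖y‖ + (L * R - φ 0), ?_⟩
  rintro _ ⟨⟨x, hx⟩, rfl⟩
  have hxR : ‖x‖ ≤ R := by simpa using hKR hx
  have h1 : ⟪x, y⟫_ℝ ≤ ‖x‖ * ‖y‖ := real_inner_le_norm x y
  have h2 := hlip x 0
  rw [sub_zero] at h2
  have h3 := (abs_le.mp h2).1
  have h4 : ‖x‖ * ‖y‖ ≤ R * ‖y‖ := mul_le_mul_of_nonneg_right hxR (norm_nonneg _)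
  have h5 : L * ‖x‖ ≤ L * R := mul_le_mul_of_nonneg_left hxR hL
  simp only
  linarith

theorem cj_ge (hKR : K ⊆ Metric.closedBall 0 R) (hL : 0 ≤ L)
    (hlip : ∀ x z, |φ x - φ z| ≤ L * ‖x - z‖) (y : Eu d) {x : Eu d} (hx : x ∈ K) :
    ⟪x, y⟫_ℝ - φ x ≤ cj K φ y :=
  le_ciSup (cj_bdd hKR hL hlip y) ⟨x, hx⟩

theorem cj_le (hne : K.Nonempty) (y : Eu d) {c : ℝ} (h : ∀ x ∈ K, ⟪x, y⟫_ℝ - φ x ≤ c) :
    cj K φ y ≤ c := by
  have : Nonempty K := hne.to_subtype
  exact ciSup_le fun x => h x x.2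

theorem cj_lip (hne : K.Nonempty) (hKR : K ⊆ Metric.closedBall 0 R) (hL : 0 ≤ L)
    (hlip : ∀ x z, |φ x - φ z| ≤ L * ‖x - z‖) (y y' : Eu d) :
    cj K φ y ≤ cj K φ y' + R * ‖y - y'‖ := by
  apply cj_le hne
  intro x hx
  have hxR : ‖x‖ ≤ R := by simpa using hKR hx
  have h1 := cj_ge hKR hL hlip y' hx
  have h2 : ⟪x, y⟫_ℝ = ⟪x, y'⟫_ℝ + ⟪x, y - y'⟫_ℝ := by rw [← inner_add_right]; congr 1; abel
  have h3 : ⟪x, y - y'⟫_ℝ ≤ ‖x‖ * ‖y - y'‖ := real_inner_le_norm _ _
  have h4 : ‖x‖ * ‖y - y'‖ ≤ R * ‖y - y'‖ := mul_le_mul_of_nonneg_right hxR (norm_nonneg _)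
  linarith

theorem cj_sub (hne : K.Nonempty) {x t : Eu d}
    (hsub : ∀ z, φ x + ⟪t, z - x⟫_ℝ ≤ φ z) : cj K φ t ≤ ⟪x, t⟫_ℝ - φ x := by
  apply cj_le hne
  intro z _
  have h1 := hsub z
  rw [inner_sub_right] at h1
  rw [real_inner_comm t x, real_inner_comm t z]
  linarith

end conj

/-! ### Semi-discrete potentials -/

section pot

variable {d : ℕ} {ι : Type} [Fintype ι] [Nonempty ι] (y : ι → Eu d) (ψ : ι → ℝ)

theorem pot_ge (x : Eu d) (i : ι) : ⟪x, y i⟫_ℝ - ψ i ≤ pot y ψ x :=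
  le_ciSup (f := fun i => ⟪x, y i⟫_ℝ - ψ i) (Set.finite_range _).bddAbove i

theorem pot_le (x : Eu d) {c : ℝ} (h : ∀ i, ⟪x, y i⟫_ℝ - ψ i ≤ c) : pot y ψ x ≤ c :=
  ciSup_le h

theorem pot_lip {L : ℝ} (hy : ∀ i, ‖y i‖ ≤ L) (x z : Eu d) :
    pot y ψ x ≤ pot y ψ z + L * ‖x - z‖ := by
  apply pot_le
  intro i
  have h1 := pot_ge y ψ z i
  have h2 : ⟪x, y i⟫_ℝ = ⟪z, y i⟫_ℝ + ⟪x - z, y i⟫_ℝ := by rw [← inner_add_left]; congr 1; abel
  have h3 : ⟪x - z, y i⟫_ℝ ≤ ‖x - z‖ * ‖y i‖ := real_inner_le_norm _ _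
  have h4 : ‖x - z‖ * ‖y i‖ ≤ L * ‖x - z‖ := by
    rw [mul_comm]; exact mul_le_mul_of_nonneg_right (hy i) (norm_nonneg _)
  linarith

theorem pot_continuous {L : ℝ} (hL : 0 ≤ L) (hy : ∀ i, ‖y i‖ ≤ L) : Continuous (pot y ψ) := by
  have : LipschitzWith ⟨L, hL⟩ (pot y ψ) := by
    apply LipschitzWith.of_le_add_mul
    intro x z
    rw [dist_eq_norm]
    exact pot_lip y ψ hy x z
  exact this.continuous

end pot

/-! ### Variance -/

section var

variable {d : ℕ} {K : Set (Eu d)}

theorem int_lin3 {μ : Measure (Eu d)} {f1 f2 f3 : Eu d → ℝ} (h1 : Integrable f1 μ)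
    (h2 : Integrable f2 μ) (h3 : Integrable f3 μ) (a b c : ℝ) :
    ∫ x, (a * f1 x + b * f2 x + c * f3 x) ∂μ =
      a * (∫ x, f1 x ∂μ) + b * (∫ x, f2 x ∂μ) + c * ∫ x, f3 x ∂μ := by
  rw [integral_add, integral_add, integral_const_mul, integral_const_mul, integral_const_mul]
  · exact h1.const_mul a
  · exact h2.const_mul b
  · exact (h1.const_mul a).add (h2.const_mul b)
  · exact h3.const_mul c

theorem sq_int_le (hK : IsCompact K) (hV : 0 < (volume K).toReal) {h : Eu d → ℝ}
    (hh : ContinuousOn h K) :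
    (∫ x in K, h x) ^ 2 / (volume K).toReal ≤ ∫ x in K, (h x) ^ 2 := by
  set V := (volume K).toReal with hVdef
  have hKf : volume K ≠ ⊤ := hK.measure_lt_top.ne
  have hi : IntegrableOn h K := hh.integrableOn_compact hK
  have hi2 : IntegrableOn (fun x => (h x) ^ 2) K := (hh.pow 2).integrableOn_compact hK
  set c := (∫ x in K, h x) / V with hc
  have hcst : IntegrableOn (fun _ : Eu d => c ^ 2) K := integrableOn_const hKf
  have h0 : 0 ≤ ∫ x in K, (h x - c) ^ 2 := integral_nonneg fun x => sq_nonneg _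
  have h1 : ∫ x in K, (h x - c) ^ 2 = 1 * (∫ x in K, (h x) ^ 2) + (- 2 * c) * (∫ x in K, h x)
      + 1 * ∫ _x in K, c ^ 2 := by
    rw [← int_lin3 hi2 hi hcst]
    congr 1
    ext x; ring
  have h1' : ∫ _x in K, c ^ 2 = c ^ 2 * V := by
    rw [setIntegral_const]
    simp [Measure.real, hVdef, mul_comm]
  rw [h1'] at h1
  have h2 : c * V = ∫ x in K, h x := by rw [hc]; field_simp
  have h3 : (∫ x in K, h x) ^ 2 / V = c * ∫ x in K, h x := by rw [hc]; field_simp
  rw [h3]
  have h4 : c ^ 2 * V = c * ∫ x in K, h x := by rw [← h2]; ring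
  linarith

theorem var_nonneg (hK : IsCompact K) (hV : 0 < (volume K).toReal) {h : Eu d → ℝ}
    (hh : ContinuousOn h K) : 0 ≤ var K h := by
  unfold var
  linarith [sq_int_le hK hV hh]

theorem var_add_le (hK : IsCompact K) (hV : 0 < (volume K).toReal) {g e : Eu d → ℝ}
    (hg : ContinuousOn g K) (he : ContinuousOn e K) :
    var K (fun x => g x + e x) ≤ 2 * var K g + 2 * ∫ x in K, (e x) ^ 2 := by
  have h1 := var_nonneg hK hV (hg.sub he)
  have ig : IntegrableOn g K := hg.integrableOn_compact hK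
  have ie : IntegrableOn e K := he.integrableOn_compact hK
  have ig2 : IntegrableOn (fun x => (g x) ^ 2) K := (hg.pow 2).integrableOn_compact hK
  have ie2 : IntegrableOn (fun x => (e x) ^ 2) K := (he.pow 2).integrableOn_compact hK
  have ige : IntegrableOn (fun x => g x * e x) K := (hg.mul he).integrableOn_compact hK
  unfold var at *
  have e1 : ∫ x in K, (g x + e x) ^ 2 = 1 * (∫ x in K, (g x) ^ 2) + 2 * (∫ x in K, g x * e x)
      + 1 * ∫ x in K, (e x) ^ 2 := by
    rw [← int_lin3 ig2 ige ie2]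
    congr 1
    ext x; ring
  have e2 : ∫ x in K, ((g - e) x) ^ 2 = 1 * (∫ x in K, (g x) ^ 2) + (-2) * (∫ x in K, g x * e x)
      + 1 * ∫ x in K, (e x) ^ 2 := by
    rw [← int_lin3 ig2 ige ie2]
    congr 1
    ext x; simp only [Pi.sub_apply]; ring
  have e3 : ∫ x in K, (g x + e x) = (∫ x in K, g x) + ∫ x in K, e x := integral_add ig ie
  have e4 : ∫ x in K, (g - e) x = (∫ x in K, g x) - ∫ x in K, e x := integral_sub ig ie
  rw [e2, e4] at h1
  rw [e1, e3]
  have h5 : 0 ≤ (∫ x in K, e x) ^ 2 / (volume K).toReal := by positivity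
  have h6 : ((∫ x in K, g x) + ∫ x in K, e x) ^ 2 / (volume K).toReal
      = 2 * ((∫ x in K, g x) ^ 2 / (volume K).toReal) + 2 * ((∫ x in K, e x) ^ 2 / (volume K).toReal)
        - ((∫ x in K, g x) - ∫ x in K, e x) ^ 2 / (volume K).toReal := by
    field_simp; ring
  rw [h6]
  linarith

end var

/-! ### One side of the discretisation -/

section side

variable {d : ℕ} {K : Set (Eu d)} {R L η : ℝ} {T : Eu d → Eu d} {φ : Eu d → ℝ}

theorem int_simple (hK : IsCompact K) (hT : Measurable T) (A : SimpleFunc (Eu d) (Eu d))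
    (F : Eu d → ℝ) : IntegrableOn (fun x => F (A (T x))) K := by
  obtain ⟨C, hC⟩ := (A.map F).exists_forall_norm_le
  have hm : Measurable fun x => F (A (T x)) := (A.map F).measurable.comp hT
  exact Measure.integrableOn_of_bounded hK.measure_lt_top.ne hm.aestronglyMeasurable
    (M := C) (Eventually.of_forall fun x => hC (T x))

theorem side (hK : IsCompact K) (hne : K.Nonempty) (hR : 0 < R)
    (hKR : K ⊆ Metric.closedBall 0 R) (hL : 0 < L) (hpot : IsPot K L T φ)
    (A : SimpleFunc (Eu d) (Eu d)) (hη : 0 ≤ η)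
    (hA : ∀ y, ‖y‖ ≤ L → ‖A y - y‖ ≤ η)
    {ι : Type} [Fintype ι] [Nonempty ι] (y : ι → Eu d) (m : ι → ℝ) (hy : ∀ i, ‖y i‖ ≤ L)
    (hm : ∀ i, 0 < m i) (H : ∀ F : Eu d → ℝ, ∑ i, m i * F (y i) = ∫ x in K, F (A (T x))) :
    dualJ K (fun _ => 1) m y (fun i => cj K φ (y i)) - dualM K (fun _ => 1) m y
      ≤ 2 * R * η * (volume K).toReal ∧
    ∫ x in K, (φ x - pot y (fun i => cj K φ (y i)) x) ^ 2
      ≤ 8 * L * R ^ 2 * η * (volume K).toReal := by
  set V := (volume K).toReal with hV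
  set ψ : ι → ℝ := fun i => cj K φ (y i) with hψ
  have hKf : volume K ≠ ⊤ := hK.measure_lt_top.ne
  have hKm : MeasurableSet K := hK.measurableSet
  have hnorm : ∀ x ∈ K, ‖x‖ ≤ R := fun x hx => by simpa using hKR hx
  have hφc : Continuous φ := by
    have : LipschitzWith ⟨L, hL.le⟩ φ := by
      apply LipschitzWith.of_dist_le_mul
      intro x z
      rw [Real.dist_eq, dist_eq_norm]
      exact hpot.lip x z
    exact this.continuous
  have iφ : IntegrableOn φ K := hφc.continuousOn.integrableOn_compact hK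
  have hpc : ∀ ψ' : ι → ℝ, Continuous (pot y ψ') := fun ψ' => pot_continuous y ψ' hL.le hy
  have ipot : ∀ ψ' : ι → ℝ, IntegrableOn (pot y ψ') K := fun ψ' =>
    (hpc ψ').continuousOn.integrableOn_compact hK
  have icst : ∀ c : ℝ, IntegrableOn (fun _ : Eu d => c) K := fun c => integrableOn_const hKf
  have hcst : ∀ c : ℝ, ∫ _x in K, c = c * V := fun c => by
    rw [setIntegral_const]; simp [Measure.real, hV, mul_comm]
  -- integrability of `⟪x, T x⟫`
  have iT : IntegrableOn (fun x => ⟪x, T x⟫_ℝ) K := by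
    refine Measure.integrableOn_of_bounded hKf (M := R * L) ?_ ?_
    · exact (measurable_id.inner hpot.meas).aestronglyMeasurable
    · filter_upwards [hpot.bdd, ae_restrict_mem hKm] with x hx hxK
      exact (norm_inner_le_norm _ _).trans
        (mul_le_mul (hnorm x hxK) hx (norm_nonneg _) hR.le)
  have iAT : IntegrableOn (fun x => ⟪x, A (T x)⟫_ℝ) K := by
    obtain ⟨C, hC⟩ := A.exists_forall_norm_le
    refine Measure.integrableOn_of_bounded hKf (M := R * C) ?_ ?_
    · exact (measurable_id.inner (A.measurable.comp hpot.meas)).aestronglyMeasurable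
    · filter_upwards [ae_restrict_mem hKm] with x hxK
      exact (norm_inner_le_norm _ _).trans
        (mul_le_mul (hnorm x hxK) (hC _) (norm_nonneg _) hR.le)
  set N := ∫ x in K, ⟪x, T x⟫_ℝ with hN
  -- `∑ m ψ`
  have hS1 : ∑ i, m i * ψ i ≤ N - (∫ x in K, φ x) + R * η * V := by
    have h1 : ∑ i, m i * ψ i = ∫ x in K, cj K φ (A (T x)) := H (cj K φ)
    rw [h1]
    have h2 : ∫ x in K, (1 * ⟪x, T x⟫_ℝ + (-1) * φ x + 1 * (R * η))
        = 1 * N + (-1) * (∫ x in K, φ x) + 1 * ∫ _x in K, R * η := int_lin3 iT iφ (icst _) 1 (-1) 1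
    have h3 : ∫ x in K, cj K φ (A (T x)) ≤ ∫ x in K, (1 * ⟪x, T x⟫_ℝ + (-1) * φ x + 1 * (R * η)) := by
      apply integral_mono_ae (int_simple hK hpot.meas A _)
      · exact ((iT.const_mul 1).add (iφ.const_mul (-1))).add ((icst (R * η)).const_mul 1)
      · filter_upwards [hpot.bdd, ae_restrict_mem hKm, hpot.sub] with x hx hxK hsub
        have e1 := cj_lip hne hKR hL.le hpot.lip (A (T x)) (T x)
        have e2 := cj_sub hne hsub
        have e3 := mul_le_mul_of_nonneg_left (hA (T x) hx) hR.le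
        linarith
    rw [h2, hcst] at h3
    linarith
  have hS2 : ∫ x in K, pot y ψ x ≤ ∫ x in K, φ x := by
    apply setIntegral_mono_on (ipot ψ) iφ hKm
    intro x hx
    apply pot_le
    intro i
    have := cj_ge hKR hL.le hpot.lip (y i) hx
    simp only [hψ]
    linarith
  -- lower bound for all `ψ'`
  have hlow : ∀ ψ' : ι → ℝ, N - R * η * V ≤ (∫ x in K, pot y ψ' x) + ∑ i, m i * ψ' i := by
    intro ψ'
    classical
    -- the minimal value of ψ' over the fibre
    let fib : Eu d → Finset ι := fun a => Finset.univ.filter (fun i => y i = a)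
    let ψm : Eu d → ℝ := fun a => if h : (fib a).Nonempty then (fib a).inf' h ψ' else 0
    have hψm1 : ∀ i, ψm (y i) ≤ ψ' i := by
      intro i
      have hi : i ∈ fib (y i) := by simp [fib]
      have hne' : (fib (y i)).Nonempty := ⟨i, hi⟩
      simp only [ψm, dif_pos hne']
      exact Finset.inf'_le _ hi
    have hψm2 : ∀ a, (fib a).Nonempty → ∀ x, ⟪x, a⟫_ℝ - ψm a ≤ pot y ψ' x := by
      intro a ha x
      obtain ⟨i, hi, hi2⟩ := Finset.exists_mem_eq_inf' ha ψ'
      have hyi : y i = a := by simpa [fib] using hi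
      have : ψm a = ψ' i := by simp only [ψm, dif_pos ha, hi2]
      rw [this, ← hyi]
      exact pot_ge y ψ' x i
    have h1 : ∑ i, m i * ψm (y i) ≤ ∑ i, m i * ψ' i :=
      Finset.sum_le_sum fun i _ => mul_le_mul_of_nonneg_left (hψm1 i) (hm i).le
    rw [H ψm] at h1
    -- a.e. fibre nonempty
    have h2 : ∀ᵐ x ∂(volume.restrict K), (fib (A (T x))).Nonempty := by
      let F : Eu d → ℝ := fun a => if (fib a).Nonempty then 0 else 1
      have hF : ∑ i, m i * F (y i) = 0 := by
        apply Finset.sum_eq_zero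
        intro i _
        have hi : i ∈ fib (y i) := by simp [fib]
        have hne' : (fib (y i)).Nonempty := ⟨i, hi⟩
        simp [F, hne']
      rw [H F] at hF
      have hF0 : ∀ a, 0 ≤ F a := by intro a; simp only [F]; split_ifs <;> norm_num
      rw [integral_eq_zero_iff_of_nonneg (fun x => hF0 _) (int_simple hK hpot.meas A F)] at hF
      filter_upwards [hF] with x hx
      by_contra hcon
      have : F (A (T x)) = 1 := by simp only [F, if_neg hcon]
      rw [this] at hx
      exact one_ne_zero hx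
    have h3 : ∫ x in K, (⟪x, A (T x)⟫_ℝ - ψm (A (T x))) ≤ ∫ x in K, pot y ψ' x := by
      apply integral_mono_ae (iAT.sub (int_simple hK hpot.meas A ψm)) (ipot ψ')
      filter_upwards [h2] with x hx
      exact hψm2 _ hx x
    rw [integral_sub iAT (int_simple hK hpot.meas A ψm)] at h3
    have h4 : N - R * η * V ≤ ∫ x in K, ⟪x, A (T x)⟫_ℝ := by
      have h5 : ∫ x in K, (⟪x, T x⟫_ℝ - R * η) = N - ∫ _x in K, R * η :=
        integral_sub iT (icst _)
      rw [hcst] at h5
      rw [← h5]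
      apply integral_mono_ae (iT.sub (icst _)) iAT
      filter_upwards [hpot.bdd, ae_restrict_mem hKm] with x hx hxK
      have e1 : ⟪x, T x⟫_ℝ = ⟪x, A (T x)⟫_ℝ + ⟪x, T x - A (T x)⟫_ℝ := by
        rw [← inner_add_right]; congr 1; abel
      have e2 : ⟪x, T x - A (T x)⟫_ℝ ≤ ‖x‖ * ‖T x - A (T x)‖ := real_inner_le_norm _ _
      have e3 : ‖x‖ * ‖T x - A (T x)‖ ≤ R * η := by
        apply mul_le_mul (hnorm x hxK) _ (norm_nonneg _) hR.le
        rw [norm_sub_rev]; exact hA _ hx
      change ⟪x, T x⟫_ℝ - R * η ≤ ⟪x, A (T x)⟫_ℝ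
      linarith
    linarith
  have hdJ : ∀ ψ' : ι → ℝ, dualJ K (fun _ => 1) m y ψ' = (∫ x in K, pot y ψ' x) + ∑ i, m i * ψ' i := by
    intro ψ'
    simp [dualJ]
  have hM : N - R * η * V ≤ dualM K (fun _ => 1) m y := by
    unfold dualM
    apply le_ciInf
    intro ψ'
    rw [hdJ]
    exact hlow ψ'
  refine ⟨?_, ?_⟩
  · rw [hdJ]
    linarith
  · -- `0 ≤ φ - pot ≤ 4 L R`
    have hb0 : ∀ x ∈ K, 0 ≤ φ x - pot y ψ x := by
      intro x hx
      have : pot y ψ x ≤ φ x := by
        apply pot_le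
        intro i
        have := cj_ge hKR hL.le hpot.lip (y i) hx
        simp only [hψ]
        linarith
      linarith
    have hb1 : ∀ x ∈ K, φ x - pot y ψ x ≤ 4 * L * R := by
      intro x hx
      obtain ⟨i⟩ := (inferInstance : Nonempty ι)
      have h1 := pot_ge y ψ x i
      have h2 : ψ i ≤ ⟪x, y i⟫_ℝ - φ x + 4 * L * R := by
        apply cj_le hne
        intro z hz
        have e1 : ⟪z, y i⟫_ℝ = ⟪x, y i⟫_ℝ + ⟪z - x, y i⟫_ℝ := by
          rw [← inner_add_left]; congr 1; abel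
        have e2 : ⟪z - x, y i⟫_ℝ ≤ ‖z - x‖ * ‖y i‖ := real_inner_le_norm _ _
        have e3 : ‖z - x‖ ≤ 2 * R := by
          have := norm_sub_le z x
          have := hnorm x hx
          have := hnorm z hz
          linarith
        have e4 : ‖z - x‖ * ‖y i‖ ≤ 2 * R * L := mul_le_mul e3 (hy i) (norm_nonneg _) (by linarith)
        have e5 := (abs_le.mp (hpot.lip x z)).2
        have e6 : L * ‖x - z‖ ≤ L * (2 * R) := by
          rw [norm_sub_rev]
          exact mul_le_mul_of_nonneg_left e3 hL.le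
        linarith
      linarith
    have hdiff : ContinuousOn (fun x => φ x - pot y ψ x) K :=
      (hφc.sub (hpc ψ)).continuousOn
    have h1 : ∫ x in K, (φ x - pot y ψ x) ^ 2 ≤ ∫ x in K, 4 * L * R * (φ x - pot y ψ x) := by
      apply setIntegral_mono_on ((hdiff.pow 2).integrableOn_compact hK)
        ((hdiff.integrableOn_compact hK).const_mul _) hKm
      intro x hx
      have h0 := hb0 x hx
      have h1 := hb1 x hx
      change (φ x - pot y ψ x) ^ 2 ≤ 4 * L * R * (φ x - pot y ψ x)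
      nlinarith
    rw [integral_const_mul, integral_sub iφ (ipot ψ)] at h1
    have h2 := hlow ψ
    have h3 : (∫ x in K, φ x) - ∫ x in K, pot y ψ x ≤ 2 * R * η * V := by linarith
    have h4 : 4 * L * R * ((∫ x in K, φ x) - ∫ x in K, pot y ψ x) ≤ 4 * L * R * (2 * R * η * V) :=
      mul_le_mul_of_nonneg_left h3 (by positivity)
    calc _ ≤ _ := h1
      _ ≤ _ := h4
      _ = _ := by ring

end side

/-! ### Assembly -/

section main

variable {d : ℕ}

theorem sum_formula {π : Measure (Eu d × Eu d)} [IsProbabilityMeasure π]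
    (B : SimpleFunc (Eu d × Eu d) (Eu d × Eu d)) (F : Eu d × Eu d → ℝ) :
    ∑ s ∈ B.range, π.real (B ⁻¹' {s}) * F s = ∫ p, F (B p) ∂π := by
  have h1 : ∀ p, F (B p) = ∑ s ∈ B.range, (B ⁻¹' {s}).indicator (fun _ => F s) p := by
    intro p
    rw [Finset.sum_eq_single (B p)]
    · rw [Set.indicator_of_mem]
      simp
    · intro s _ hs
      rw [Set.indicator_of_notMem]
      simp only [Set.mem_preimage, Set.mem_singleton_iff]
      exact fun h => hs h.symm
    · intro h
      exact absurd (B.mem_range_self p) h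
  simp_rw [h1]
  rw [integral_finset_sum]
  · refine Finset.sum_congr rfl fun s _ => ?_
    rw [integral_indicator_const _ (B.measurableSet_preimage _), smul_eq_mul]
  · intro s _
    exact (integrable_const (F s)).indicator (B.measurableSet_preimage _)

theorem sum_sub_formula {π : Measure (Eu d × Eu d)} [IsProbabilityMeasure π]
    (B : SimpleFunc (Eu d × Eu d) (Eu d × Eu d)) (V : ℝ) (F : Eu d × Eu d → ℝ)
    (S : Finset (Eu d × Eu d))
    (hS : ∀ s, s ∈ S ↔ s ∈ B.range ∧ 0 < π.real (B ⁻¹' {s})) :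
    ∑ i : {s // s ∈ S}, (V * π.real (B ⁻¹' {i.1})) * F i.1 = V * ∫ p, F (B p) ∂π := by
  rw [← sum_formula B F, Finset.mul_sum]
  rw [Finset.sum_coe_sort S (fun s => (V * π.real (B ⁻¹' {s})) * F s)]
  rw [Finset.sum_subset (s₂ := B.range)]
  · refine Finset.sum_congr rfl fun s _ => ?_
    ring
  · intro s hs
    exact ((hS s).mp hs).1
  · intro s hs hs'
    have h0 : π.real (B ⁻¹' {s}) = 0 := by
      by_contra hne
      exact hs' ((hS s).mpr ⟨hs, lt_of_le_of_ne measureReal_nonneg (Ne.symm hne)⟩)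
    rw [h0]; ring

theorem push_formula {K : Set (Eu d)} (hV : 0 < (volume K).toReal)
    {T : Eu d → Eu d} (hT : Measurable T)
    (A : SimpleFunc (Eu d) (Eu d)) (F : Eu d → ℝ)
    {π : Measure (Eu d × Eu d)} {q : Eu d × Eu d → Eu d} (hq : Measurable q)
    (hπ : π.map q = (unif K).map T) :
    (volume K).toReal * ∫ p, F (A (q p)) ∂π = ∫ x in K, F (A (T x)) := by
  have h1 : ∫ p, F (A (q p)) ∂π = ∫ y, F (A y) ∂(π.map q) := by
    rw [integral_map hq.aemeasurable]
    exact (A.map F).aestronglyMeasurable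
  have h2 : ∫ y, F (A y) ∂((unif K).map T) = ∫ x, F (A (T x)) ∂(unif K) := by
    rw [integral_map hT.aemeasurable]
    exact (A.map F).aestronglyMeasurable
  rw [h1, hπ, h2, unif, integral_smul_measure, ENNReal.toReal_inv, smul_eq_mul,
    ← mul_assoc, mul_inv_cancel₀ hV.ne', one_mul]

theorem ae_push {K : Set (Eu d)} {L : ℝ}
    {T : Eu d → Eu d} (hT : Measurable T) (hb : ∀ᵐ x ∂(volume.restrict K), ‖T x‖ ≤ L)
    {π : Measure (Eu d × Eu d)} {q : Eu d × Eu d → Eu d} (hq : Measurable q)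
    (hπ : π.map q = (unif K).map T) : ∀ᵐ p ∂π, ‖q p‖ ≤ L := by
  have hms : MeasurableSet {y : Eu d | ‖y‖ ≤ L} := measurableSet_le measurable_norm measurable_const
  have h1 : ∀ᵐ y ∂((unif K).map T), ‖y‖ ≤ L := by
    rw [ae_map_iff hT.aemeasurable hms]
    exact Measure.ae_smul_measure hb _
  rw [← hπ, ae_map_iff hq.aemeasurable hms] at h1
  exact h1

end main

end PotVar

open PotVar in
theorem potvar : S_VAR → S_POTVAR := by
  intro hVAR d K R L hd hK hKc hKi hR hKR hL
  obtain ⟨C, hC, hvar⟩ := hVAR d K R L hd hK hKc hKi hR hKR hL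
  have hKf : volume K ≠ ⊤ := hK.measure_lt_top.ne
  have hKpos : 0 < volume K :=
    (isOpen_interior.measure_pos volume hKi).trans_le (measure_mono interior_subset)
  have hVpos : 0 < (volume K).toReal := ENNReal.toReal_pos hKpos.ne' hKf
  have hne : K.Nonempty := hKi.mono interior_subset
  refine ⟨4 * C * (volume K).toReal, by positivity, ?_⟩
  intro T0 T1 φ0 φ1 h0 h1 π hπ
  set V := (volume K).toReal with hV
  -- probability measures
  have hunif : IsProbabilityMeasure (unif K) := by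
    constructor
    simp only [unif, Measure.smul_apply, Measure.restrict_apply MeasurableSet.univ,
      Set.univ_inter, smul_eq_mul]
    exact ENNReal.inv_mul_cancel hKpos.ne' hKf
  have hπp : IsProbabilityMeasure π := by
    constructor
    have e1 : (π.map Prod.fst) Set.univ = π Set.univ := by
      rw [Measure.map_apply measurable_fst MeasurableSet.univ, Set.preimage_univ]
    rw [← e1, hπ.fst, Measure.map_apply h0.meas MeasurableSet.univ, Set.preimage_univ]
    exact measure_univ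
  have hb1 : ∀ᵐ p ∂π, ‖p.1‖ ≤ L := ae_push h0.meas h0.bdd measurable_fst hπ.fst
  have hb2 : ∀ᵐ p ∂π, ‖p.2‖ ≤ L := ae_push h1.meas h1.bdd measurable_snd hπ.snd
  -- the cost
  have hmeas : Measurable fun p : Eu d × Eu d => ‖p.1 - p.2‖ ^ 2 :=
    ((measurable_fst.sub measurable_snd).norm).pow_const 2
  have hDi : Integrable (fun p : Eu d × Eu d => ‖p.1 - p.2‖ ^ 2) π := by
    refine Integrable.of_bound hmeas.aestronglyMeasurable ((2 * L) ^ 2) ?_
    filter_upwards [hb1, hb2] with p hp1 hp2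
    have := norm_sub_le p.1 p.2
    rw [Real.norm_eq_abs, abs_of_nonneg (by positivity)]
    exact pow_le_pow_left₀ (norm_nonneg _) (by linarith) 2
  set D := ∫ p, ‖p.1 - p.2‖ ^ 2 ∂π with hD
  have hD0 : 0 ≤ D := integral_nonneg fun p => by positivity
  have hDl : ∫⁻ p, ‖p.1 - p.2‖ₑ ^ 2 ∂π = ENNReal.ofReal D := by
    rw [hD, ofReal_integral_eq_lintegral_ofReal hDi (Eventually.of_forall fun p => by positivity)]
    refine lintegral_congr fun p => ?_
    rw [ENNReal.ofReal_pow (norm_nonneg _), ofReal_norm]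
  rw [hDl, ← ENNReal.ofReal_mul (by positivity)]
  apply ENNReal.ofReal_le_ofReal
  -- continuity of the potentials
  have hcont : ∀ {T : Eu d → Eu d} {φ : Eu d → ℝ}, IsPot K L T φ → Continuous φ := by
    intro T φ hp
    have : LipschitzWith ⟨L, hL.le⟩ φ := by
      apply LipschitzWith.of_dist_le_mul
      intro x z
      rw [Real.dist_eq, dist_eq_norm]
      exact hp.lip x z
    exact this.continuous
  -- main estimate at scale `η`
  have hmain : ∀ η : ℝ, 0 < η → var K (fun x => φ1 x - φ0 x) ≤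
      4 * C * V * D + (16 * C * V * η ^ 2 + (8 * C * R * V + 64 * L * R ^ 2 * V) * η) := by
    intro η hη
    obtain ⟨A, hAL, hA⟩ := exists_simple (d := d) L η hL hη
    let B : SimpleFunc (Eu d × Eu d) (Eu d × Eu d) :=
      (A.comp Prod.fst measurable_fst).pair (A.comp Prod.snd measurable_snd)
    have hB : ∀ p, B p = (A p.1, A p.2) := fun p => rfl
    classical
    let S : Finset (Eu d × Eu d) := B.range.filter (fun s => 0 < π.real (B ⁻¹' {s}))
    have hS : ∀ s, s ∈ S ↔ s ∈ B.range ∧ 0 < π.real (B ⁻¹' {s}) := fun s => by simp [S]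
    have hsum := fun F => sum_sub_formula (π := π) B V F S hS
    have hSne : Nonempty {s // s ∈ S} := by
      by_contra hcon
      rw [not_nonempty_iff] at hcon
      have := hsum (fun _ => 1)
      simp at this
      exact hVpos.ne' this.symm
    let y0 : {s // s ∈ S} → Eu d := fun i => i.1.1
    let y1 : {s // s ∈ S} → Eu d := fun i => i.1.2
    let m : {s // s ∈ S} → ℝ := fun i => V * π.real (B ⁻¹' {i.1})
    have hmpos : ∀ i, 0 < m i := fun i => mul_pos hVpos ((hS i.1).mp i.2).2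
    have hmem : ∀ i : {s // s ∈ S}, ∃ p, B p = i.1 := fun i => by
      have := ((hS i.1).mp i.2).1
      exact SimpleFunc.mem_range.mp this
    have hy0 : ∀ i, ‖y0 i‖ ≤ L := fun i => by
      obtain ⟨p, hp⟩ := hmem i
      have : y0 i = A p.1 := by simp only [y0, ← hp, hB]
      rw [this]; exact hAL _
    have hy1 : ∀ i, ‖y1 i‖ ≤ L := fun i => by
      obtain ⟨p, hp⟩ := hmem i
      have : y1 i = A p.2 := by simp only [y1, ← hp, hB]
      rw [this]; exact hAL _
    have hmsum : ∑ i, m i = V := by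
      have := hsum (fun _ => 1)
      simpa [m] using this
    have H0 : ∀ F : Eu d → ℝ, ∑ i, m i * F (y0 i) = ∫ x in K, F (A (T0 x)) := by
      intro F
      rw [← push_formula hVpos h0.meas A F measurable_fst hπ.fst]
      exact hsum (fun s => F s.1)
    have H1 : ∀ F : Eu d → ℝ, ∑ i, m i * F (y1 i) = ∫ x in K, F (A (T1 x)) := by
      intro F
      rw [← push_formula hVpos h1.meas A F measurable_snd hπ.snd]
      exact hsum (fun s => F s.2)
    obtain ⟨g0, e0⟩ := side hK hne hR hKR hL h0 A hη.le hA y0 m hy0 hmpos H0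
    obtain ⟨g1, e1⟩ := side hK hne hR hKR hL h1 A hη.le hA y1 m hy1 hmpos H1
    set ψ0 : {s // s ∈ S} → ℝ := fun i => cj K φ0 (y0 i)
    set ψ1 : {s // s ∈ S} → ℝ := fun i => cj K φ1 (y1 i)
    have hv := hvar {s // s ∈ S} y0 y1 m ψ0 ψ1 hy0 hy1 hmpos hmsum
    have hcost : ∑ i, m i * ‖y1 i - y0 i‖ ^ 2 ≤ V * (2 * D + 8 * η ^ 2) := by
      have e2 : ∑ i, m i * ‖y1 i - y0 i‖ ^ 2 = V * ∫ p, ‖A p.2 - A p.1‖ ^ 2 ∂π :=
        hsum (fun s => ‖s.2 - s.1‖ ^ 2)
      rw [e2]
      apply mul_le_mul_of_nonneg_left _ hVpos.le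
      have e3 : ∫ p, (2 * ‖p.1 - p.2‖ ^ 2 + 8 * η ^ 2) ∂π = 2 * D + 8 * η ^ 2 := by
        rw [integral_add (hDi.const_mul 2) (integrable_const _), integral_const_mul, ← hD]
        simp
      rw [← e3]
      apply integral_mono_ae
      · refine Integrable.of_bound ?_ ((2 * L) ^ 2) (Eventually.of_forall fun p => ?_)
        · exact (((A.measurable.comp measurable_snd).sub
            (A.measurable.comp measurable_fst)).norm.pow_const 2).aestronglyMeasurable
        · have := norm_sub_le (A p.2) (A p.1)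
          have a1 := hAL p.1
          have a2 := hAL p.2
          rw [Real.norm_eq_abs, abs_of_nonneg (by positivity)]
          exact pow_le_pow_left₀ (norm_nonneg _) (by linarith) 2
      · exact (hDi.const_mul 2).add (integrable_const _)
      · filter_upwards [hb1, hb2] with p hp1 hp2
        have a1 := hA p.1 hp1
        have a2 := hA p.2 hp2
        have a3 : ‖A p.2 - A p.1‖ ≤ ‖p.1 - p.2‖ + 2 * η := by
          have : A p.2 - A p.1 = (A p.2 - p.2) - (A p.1 - p.1) - (p.1 - p.2) := by abel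
          rw [this]
          have b1 := norm_sub_le ((A p.2 - p.2) - (A p.1 - p.1)) (p.1 - p.2)
          have b2 := norm_sub_le (A p.2 - p.2) (A p.1 - p.1)
          linarith
        have a4 : 0 ≤ ‖p.1 - p.2‖ := norm_nonneg _
        have a5 : 0 ≤ ‖A p.2 - A p.1‖ := norm_nonneg _
        nlinarith [sq_nonneg (‖p.1 - p.2‖ - 2 * η)]
    -- compare the potentials
    have c0 : Continuous φ0 := hcont h0
    have c1 : Continuous φ1 := hcont h1
    have p0 : Continuous (pot y0 ψ0) := pot_continuous y0 ψ0 hL.le hy0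
    have p1 : Continuous (pot y1 ψ1) := pot_continuous y1 ψ1 hL.le hy1
    have hfe : (fun x => φ1 x - φ0 x) = fun x => (pot y1 ψ1 x - pot y0 ψ0 x)
        + ((φ1 x - pot y1 ψ1 x) - (φ0 x - pot y0 ψ0 x)) := by
      ext x; ring
    have hv2 := var_add_le hK hVpos (g := fun x => pot y1 ψ1 x - pot y0 ψ0 x)
      (e := fun x => (φ1 x - pot y1 ψ1 x) - (φ0 x - pot y0 ψ0 x))
      (p1.sub p0).continuousOn ((c1.sub p1).sub (c0.sub p0)).continuousOn
    rw [← hfe] at hv2
    have he : ∫ x in K, ((φ1 x - pot y1 ψ1 x) - (φ0 x - pot y0 ψ0 x)) ^ 2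
        ≤ 32 * L * R ^ 2 * η * V := by
      have i0 : IntegrableOn (fun x => (φ0 x - pot y0 ψ0 x) ^ 2) K :=
        ((c0.sub p0).pow 2).continuousOn.integrableOn_compact hK
      have i1 : IntegrableOn (fun x => (φ1 x - pot y1 ψ1 x) ^ 2) K :=
        ((c1.sub p1).pow 2).continuousOn.integrableOn_compact hK
      have h3 : ∫ x in K, ((φ1 x - pot y1 ψ1 x) - (φ0 x - pot y0 ψ0 x)) ^ 2 ≤
          ∫ x in K, (2 * (φ1 x - pot y1 ψ1 x) ^ 2 + 2 * (φ0 x - pot y0 ψ0 x) ^ 2) := by
        apply setIntegral_mono_on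
        · exact (((c1.sub p1).sub (c0.sub p0)).pow 2).continuousOn.integrableOn_compact hK
        · exact (i1.const_mul 2).add (i0.const_mul 2)
        · exact hK.measurableSet
        · intro x _
          change ((φ1 x - pot y1 ψ1 x) - (φ0 x - pot y0 ψ0 x)) ^ 2 ≤ _
          nlinarith [sq_nonneg ((φ1 x - pot y1 ψ1 x) + (φ0 x - pot y0 ψ0 x))]
      rw [integral_add (i1.const_mul 2) (i0.const_mul 2), integral_const_mul,
        integral_const_mul] at h3
      linarith
    have hfin : var K (fun x => pot y1 ψ1 x - pot y0 ψ0 x) ≤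
        C * (V * (2 * D + 8 * η ^ 2) + 2 * R * η * V + 2 * R * η * V) := by
      refine hv.trans ?_
      apply mul_le_mul_of_nonneg_left _ hC.le
      linarith
    calc var K (fun x => φ1 x - φ0 x) ≤ _ := hv2
      _ ≤ 2 * (C * (V * (2 * D + 8 * η ^ 2) + 2 * R * η * V + 2 * R * η * V))
          + 2 * (32 * L * R ^ 2 * η * V) := by linarith
      _ = _ := by ring
  -- let `η → 0`
  have hlim : Tendsto (fun η : ℝ => 4 * C * V * D +
      (16 * C * V * η ^ 2 + (8 * C * R * V + 64 * L * R ^ 2 * V) * η)) (𝓝[>] 0)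
      (𝓝 (4 * C * V * D)) := by
    have hc : Continuous (fun η : ℝ => 4 * C * V * D +
      (16 * C * V * η ^ 2 + (8 * C * R * V + 64 * L * R ^ 2 * V) * η)) := by fun_prop
    have := hc.tendsto 0
    simp only [ne_eq, OfNat.ofNat_ne_zero, not_false_eq_true, zero_pow, mul_zero, add_zero] at this
    exact this.mono_left nhdsWithin_le_nhds
  exact ge_of_tendsto hlim (eventually_nhdsWithin_of_forall fun η hη => hmain η hη)

end Vale.Agent.P074
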