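import Vale.Agent.P074.VarBasics

open MeasureTheory Set Filter
open scoped ENNReal NNReal InnerProductSpace Topology

namespace Vale.Agent.P074

lemma exp_quad {s M : ℝ} (hM : 2 ≤ M) (hs : -M ≤ s) : 1 + s + s ^ 2 / (2 * M) ≤ Real.exp s := by
  by_cases h : -2 ≤ s
  · have h1 : (1 + s / 2) ≤ Real.exp (s / 2) := by
      have := Real.add_one_le_exp (s / 2); linarith
    have h2 : Real.exp s = Real.exp (s / 2) ^ 2 := by
      rw [← Real.exp_nat_mul]; congr 1; push_cast; ring
    have h3 : (1 + s / 2) ^ 2 ≤ Real.exp s := by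
      rw [h2]; exact pow_le_pow_left₀ (by linarith) h1 2
    have h4 : s ^ 2 / (2 * M) ≤ s ^ 2 / 4 := by
      apply div_le_div_of_nonneg_left (sq_nonneg s) (by norm_num) (by linarith)
    nlinarith
  · push Not at h
    have h5 : s ^ 2 / (2 * M) ≤ -s / 2 := by
      rw [div_le_iff₀ (by linarith)]
      nlinarith
    have := Real.exp_pos s
    linarith

/-- Real-valued form of Prékopa–Leindler on a compact convex set. -/
lemma pl_real (hPL : S_PL) {d : ℕ} {K : Set (Eu d)} (hKc : IsCompact K) (hK : Convex ℝ K)
    {f0 f1 fm : Eu d → ℝ} (h0 : ContinuousOn f0 K) (h1 : ContinuousOn f1 K)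
    (hm : ContinuousOn fm K)
    (H : ∀ x ∈ K, ∀ y ∈ K, fm ((2 : ℝ)⁻¹ • (x + y)) ≤ (f0 x + f1 y) / 2) :
    (∫ x in K, Real.exp (-f0 x)) * (∫ x in K, Real.exp (-f1 x)) ≤
      (∫ x in K, Real.exp (-fm x)) ^ 2 := by
  classical
  have hKm : MeasurableSet K := measurableSet_of_compact hKc
  have hcont : ∀ {u : Eu d → ℝ}, ContinuousOn u K → ContinuousOn (fun x => Real.exp (-u x)) K :=
    fun hu => Real.continuous_exp.comp_continuousOn hu.neg
  have hmeas : ∀ {u : Eu d → ℝ}, ContinuousOn u K →
      Measurable (K.indicator (fun x => ENNReal.ofReal (Real.exp (-u x)))) := by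
    intro u hu
    rw [← Set.piecewise_eq_indicator]
    apply ContinuousOn.measurable_piecewise _ continuousOn_const hKm
    exact ENNReal.continuous_ofReal.comp_continuousOn (hcont hu)
  have hint : ∀ {u : Eu d → ℝ}, ContinuousOn u K →
      ∫⁻ x, K.indicator (fun x => ENNReal.ofReal (Real.exp (-u x))) x =
        ENNReal.ofReal (∫ x in K, Real.exp (-u x)) := by
    intro u hu
    rw [lintegral_indicator hKm, ofReal_integral_eq_lintegral_ofReal]
    · exact (hcont hu).integrableOn_compact hKc
    · exact Filter.Eventually.of_forall fun x => (Real.exp_pos _).le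
  have key := hPL d _ _ _ (hmeas h0) (hmeas h1) (hmeas hm) (by
    intro x y
    by_cases hx : x ∈ K
    · by_cases hy : y ∈ K
      · have hxy : (2 : ℝ)⁻¹ • (x + y) ∈ K := by
          have := hK hx hy (by norm_num : (0:ℝ) ≤ 2⁻¹) (by norm_num : (0:ℝ) ≤ 2⁻¹) (by norm_num)
          rwa [smul_add]
        rw [indicator_of_mem hx, indicator_of_mem hy, indicator_of_mem hxy,
          ← ENNReal.ofReal_mul (Real.exp_pos _).le, ← ENNReal.ofReal_pow (Real.exp_pos _).le]
        apply ENNReal.ofReal_le_ofReal
        rw [← Real.exp_add, ← Real.exp_nat_mul]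
        apply Real.exp_le_exp.mpr
        have := H x hx y hy
        push_cast
        linarith
      · simp [indicator_of_notMem hy]
    · simp [indicator_of_notMem hx])
  rw [hint h0, hint h1, hint hm, ← ENNReal.ofReal_mul (integral_nonneg fun x => (Real.exp_pos _).le),
    ← ENNReal.ofReal_pow (integral_nonneg fun x => (Real.exp_pos _).le)] at key
  exact (ENNReal.ofReal_le_ofReal_iff (by positivity)).mp key

theorem sc (hPL : S_PL) : S_SC := by
  intro B
  set M : ℝ := 2 * |B| + 2 with hM
  have hB0 := abs_nonneg B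
  refine ⟨8 * M * Real.exp (4 * |B|), by positivity, ?_⟩
  intro d K f0 f1 fm hKc hK hvol h0 h1 hm b0' b1' bm' H
  have hBB := le_abs_self B
  have b0 : ∀ x ∈ K, |f0 x| ≤ |B| := fun x hx => (b0' x hx).trans hBB
  have b1 : ∀ x ∈ K, |f1 x| ≤ |B| := fun x hx => (b1' x hx).trans hBB
  have bm : ∀ x ∈ K, |fm x| ≤ |B| := fun x hx => (bm' x hx).trans hBB
  set β : ℝ := |B| with hβ
  have hKm : MeasurableSet K := measurableSet_of_compact hKc
  have hpl := pl_real hPL hKc hK h0 h1 hm H
  -- notation
  set a : Eu d → ℝ := fun x => (f0 x + f1 x) / 2 with ha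
  set r : Eu d → ℝ := fun x => (f1 x - f0 x) / 2 with hr
  set w : Eu d → ℝ := fun x => (f0 x + f1 x) / 2 - fm x with hw
  have hac : ContinuousOn a K := (h0.add h1).div_const 2
  have hrc : ContinuousOn r K := (h1.sub h0).div_const 2
  have hwc : ContinuousOn w K := hac.sub hm
  have hea : ContinuousOn (fun x => Real.exp (-a x)) K :=
    Real.continuous_exp.comp_continuousOn hac.neg
  have hab : ∀ x ∈ K, |a x| ≤ β := by
    intro x hx
    have h2 := abs_le.mp (b0 x hx); have h3 := abs_le.mp (b1 x hx)
    rw [abs_le]; constructor <;> simp only [ha] <;> linarith [h2.1, h2.2, h3.1, h3.2]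
  have hrb : ∀ x ∈ K, |r x| ≤ β := by
    intro x hx
    have h2 := abs_le.mp (b0 x hx); have h3 := abs_le.mp (b1 x hx)
    rw [abs_le]; constructor <;> simp only [hr] <;> linarith [h2.1, h2.2, h3.1, h3.2]
  have hw0 : ∀ x ∈ K, 0 ≤ w x := by
    intro x hx
    have := H x hx x hx
    rw [← two_smul ℝ x, smul_smul, inv_mul_cancel₀ (two_ne_zero), one_smul] at this
    simp only [hw]; linarith
  have hwb : ∀ x ∈ K, w x ≤ 2 * β := by
    intro x hx
    have h2 := abs_le.mp (b0 x hx); have h3 := abs_le.mp (b1 x hx); have h4 := abs_le.mp (bm x hx)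
    simp only [hw]; linarith [h2.2, h3.2, h4.1]
  -- integrals
  set Z : ℝ := ∫ x in K, Real.exp (-a x) with hZ
  have hIa : IntegrableOn (fun x => Real.exp (-a x)) K := hea.integrableOn_compact hKc
  have hZpos : 0 < Z := by
    have : Real.exp (-β) * (volume K).toReal ≤ Z := by
      have h5 : ∫ x in K, Real.exp (-β) ≤ Z := by
        apply setIntegral_mono_on _ hIa hKm
        · intro x hx
          apply Real.exp_le_exp.mpr
          have := (abs_le.mp (hab x hx)).2; linarith
        · exact integrableOn_const hKc.measure_lt_top.ne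
      rw [setIntegral_const] at h5
      simpa [Measure.real, mul_comm] using h5
    have : 0 < Real.exp (-β) * (volume K).toReal := by positivity
    linarith
  set c : ℝ := (∫ x in K, Real.exp (-a x) * r x) / Z with hc
  have hIar : IntegrableOn (fun x => Real.exp (-a x) * r x) K :=
    (hea.mul hrc).integrableOn_compact hKc
  have hcb : |c| ≤ β := by
    rw [hc, abs_div, abs_of_pos hZpos, div_le_iff₀ hZpos]
    calc |∫ x in K, Real.exp (-a x) * r x| ≤ ∫ x in K, |Real.exp (-a x) * r x| :=
          abs_integral_le_integral_abs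
      _ ≤ ∫ x in K, β * Real.exp (-a x) := by
          apply setIntegral_mono_on hIar.abs (hIa.const_mul β) hKm
          intro x hx
          rw [abs_mul, abs_of_pos (Real.exp_pos _), mul_comm]
          exact mul_le_mul_of_nonneg_right (hrb x hx) (Real.exp_pos _).le
      _ = β * Z := by rw [integral_const_mul]
  set V : ℝ := ∫ x in K, Real.exp (-a x) * (r x - c) ^ 2 with hV
  have hIV : IntegrableOn (fun x => Real.exp (-a x) * (r x - c) ^ 2) K :=
    (hea.mul ((hrc.sub continuousOn_const).pow 2)).integrableOn_compact hKc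
  have hV0 : 0 ≤ V := integral_nonneg fun x => by positivity
  have hIlin : IntegrableOn (fun x => Real.exp (-a x) * (r x - c)) K :=
    (hea.mul (hrc.sub continuousOn_const)).integrableOn_compact hKc
  have hlin : ∫ x in K, Real.exp (-a x) * (r x - c) = 0 := by
    have e1 : ∀ x, Real.exp (-a x) * (r x - c) =
        Real.exp (-a x) * r x - c * Real.exp (-a x) := by intro x; ring
    simp_rw [e1]
    rw [integral_sub hIar (hIa.const_mul c), integral_const_mul, hc]
    field_simp
    ring
  have hM2 : 2 ≤ M := by rw [hM]; linarith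
  have hM0 : 0 < M := by linarith
  have hshift : ∀ x ∈ K, -M ≤ r x - c ∧ -M ≤ -(r x - c) := by
    intro x hx
    have h2 := abs_le.mp (hrb x hx); have h3 := abs_le.mp hcb
    constructor <;> linarith [h2.1, h2.2, h3.1, h3.2]
  have j1 : IntegrableOn (fun x => Real.exp (-a x) + Real.exp (-a x) * (r x - c)) K :=
    hIa.add hIlin
  have j2 : IntegrableOn (fun x => Real.exp (-a x) - Real.exp (-a x) * (r x - c)) K :=
    hIa.sub hIlin
  have j3 : IntegrableOn (fun x => Real.exp (-a x) * (r x - c) ^ 2 / (2 * M)) K :=
    hIV.div_const _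
  have j4 : IntegrableOn (fun x => Real.exp (-a x) + Real.exp (-a x) * (r x - c)
        + Real.exp (-a x) * (r x - c) ^ 2 / (2 * M)) K := j1.add j3
  have j5 : IntegrableOn (fun x => Real.exp (-a x) - Real.exp (-a x) * (r x - c)
        + Real.exp (-a x) * (r x - c) ^ 2 / (2 * M)) K := j2.add j3
  -- lower bounds for the two factors
  have hP : Z + V / (2 * M) ≤ Real.exp (-c) * ∫ x in K, Real.exp (-f0 x) := by
    rw [← integral_const_mul]
    have e2 : Z + V / (2 * M) = ∫ x in K, (Real.exp (-a x) + Real.exp (-a x) * (r x - c)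
        + Real.exp (-a x) * (r x - c) ^ 2 / (2 * M)) := by
      rw [integral_add j1 j3, integral_add hIa hIlin, hlin, integral_div]
      ring
    rw [e2]
    apply setIntegral_mono_on j4 _ hKm
    · intro x hx
      have h6 := exp_quad hM2 (hshift x hx).1
      have h7 : Real.exp (-c) * Real.exp (-f0 x) = Real.exp (-a x) * Real.exp (r x - c) := by
        rw [← Real.exp_add, ← Real.exp_add]; congr 1; simp only [ha, hr]; ring
      rw [h7]
      have h8 := mul_le_mul_of_nonneg_left h6 (Real.exp_pos (-a x)).le
      calc _ = Real.exp (-a x) * (1 + (r x - c) + (r x - c) ^ 2 / (2 * M)) := by ring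
        _ ≤ _ := h8
    · exact ((Real.continuous_exp.comp_continuousOn h0.neg).integrableOn_compact hKc).const_mul _
  have hQ : Z + V / (2 * M) ≤ Real.exp c * ∫ x in K, Real.exp (-f1 x) := by
    rw [← integral_const_mul]
    have e2 : Z + V / (2 * M) = ∫ x in K, (Real.exp (-a x) - Real.exp (-a x) * (r x - c)
        + Real.exp (-a x) * (r x - c) ^ 2 / (2 * M)) := by
      rw [integral_add j2 j3, integral_sub hIa hIlin, hlin, integral_div]
      ring
    rw [e2]
    apply setIntegral_mono_on j5 _ hKm
    · intro x hx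
      have h6 := exp_quad hM2 (hshift x hx).2
      have h7 : Real.exp c * Real.exp (-f1 x) = Real.exp (-a x) * Real.exp (-(r x - c)) := by
        rw [← Real.exp_add, ← Real.exp_add]; congr 1; simp only [ha, hr]; ring
      rw [h7]
      have h8 := mul_le_mul_of_nonneg_left h6 (Real.exp_pos (-a x)).le
      calc _ = Real.exp (-a x) * (1 + -(r x - c) + (-(r x - c)) ^ 2 / (2 * M)) := by ring
        _ ≤ _ := h8
    · exact ((Real.continuous_exp.comp_continuousOn h1.neg).integrableOn_compact hKc).const_mul _
  -- upper bound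
  set W : ℝ := ∫ x in K, w x with hWdef
  have hIw : IntegrableOn w K := hwc.integrableOn_compact hKc
  have hW0 : 0 ≤ W := setIntegral_nonneg hKm hw0
  have hU : ∫ x in K, Real.exp (-fm x) ≤ Z + Real.exp (3 * β) * W := by
    have j6 : IntegrableOn (fun x => Real.exp (3 * β) * w x) K := hIw.const_mul _
    have j7 : IntegrableOn (fun x => Real.exp (-a x) + Real.exp (3 * β) * w x) K := hIa.add j6
    rw [hZ, hWdef, ← integral_const_mul, ← integral_add hIa j6]
    apply setIntegral_mono_on _ j7 hKm
    · intro x hx
      have h9 : Real.exp (-fm x) = Real.exp (-a x) * Real.exp (w x) := by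
        rw [← Real.exp_add]; congr 1; simp only [ha, hw]; ring
      have h10 : Real.exp (w x) - 1 ≤ w x * Real.exp (w x) := by
        have := Real.add_one_le_exp (-w x)
        have h11 : Real.exp (-w x) * Real.exp (w x) = 1 := by
          rw [← Real.exp_add]; simp
        nlinarith [Real.exp_pos (w x)]
      have h12 : Real.exp (w x) ≤ Real.exp (2 * β) := Real.exp_le_exp.mpr (hwb x hx)
      have h13 : Real.exp (-a x) ≤ Real.exp β := Real.exp_le_exp.mpr (by
        have := (abs_le.mp (hab x hx)).1; linarith)
      have h14 : Real.exp (3 * β) = Real.exp β * Real.exp (2 * β) := by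
        rw [← Real.exp_add]; congr 1; ring
      rw [h9, h14]
      have h15 : Real.exp (-a x) * (Real.exp (w x) - 1) ≤ Real.exp β * Real.exp (2 * β) * w x := by
        calc Real.exp (-a x) * (Real.exp (w x) - 1)
            ≤ Real.exp (-a x) * (w x * Real.exp (w x)) :=
              mul_le_mul_of_nonneg_left h10 (Real.exp_pos _).le
          _ ≤ Real.exp β * (w x * Real.exp (2 * β)) := by
              apply mul_le_mul h13 _ (mul_nonneg (hw0 x hx) (Real.exp_pos _).le) (Real.exp_pos _).le
              exact mul_le_mul_of_nonneg_left h12 (hw0 x hx)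
          _ = _ := by ring
      linarith
    · exact (Real.continuous_exp.comp_continuousOn hm.neg).integrableOn_compact hKc
  -- combine
  have hVM : 0 ≤ V / (2 * M) := by positivity
  have hsq : (Z + V / (2 * M)) ^ 2 ≤ (Z + Real.exp (3 * β) * W) ^ 2 := by
    calc (Z + V / (2 * M)) ^ 2 = (Z + V / (2 * M)) * (Z + V / (2 * M)) := by ring
      _ ≤ (Real.exp (-c) * ∫ x in K, Real.exp (-f0 x)) *
          (Real.exp c * ∫ x in K, Real.exp (-f1 x)) := by
          apply mul_le_mul hP hQ (by positivity)
          exact mul_nonneg (Real.exp_pos _).le (integral_nonneg fun x => (Real.exp_pos _).le)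
      _ = (∫ x in K, Real.exp (-f0 x)) * (∫ x in K, Real.exp (-f1 x)) := by
          have : Real.exp (-c) * Real.exp c = 1 := by rw [← Real.exp_add]; simp
          calc _ = (Real.exp (-c) * Real.exp c) * ((∫ x in K, Real.exp (-f0 x)) *
                (∫ x in K, Real.exp (-f1 x))) := by ring
            _ = _ := by rw [this, one_mul]
      _ ≤ (∫ x in K, Real.exp (-fm x)) ^ 2 := hpl
      _ ≤ (Z + Real.exp (3 * β) * W) ^ 2 := by
          apply pow_le_pow_left₀ _ hU
          exact integral_nonneg fun x => (Real.exp_pos _).le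
  have hle : V / (2 * M) ≤ Real.exp (3 * β) * W := by
    have := (sq_le_sq₀ (by positivity) (by positivity)).mp hsq
    linarith
  -- V controls the variance
  have hvar : var K (fun x => f1 x - f0 x) ≤ 4 * Real.exp β * V := by
    have hD : ContinuousOn (fun x => f1 x - f0 x) K := h1.sub h0
    have h16 := var_le hKc hvol (hD.integrableOn_compact hKc)
      (integrableOn_sq_of_continuousOn hKc hD) (2 * c)
    refine h16.trans ?_
    rw [hV, ← integral_const_mul]
    apply setIntegral_mono_on _ (hIV.const_mul _) hKm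
    · intro x hx
      have h17 : 1 ≤ Real.exp β * Real.exp (-a x) := by
        rw [← Real.exp_add]
        apply Real.one_le_exp
        have := (abs_le.mp (hab x hx)).2; linarith
      have h18 : (f1 x - f0 x - 2 * c) ^ 2 = 4 * (r x - c) ^ 2 := by
        simp only [hr]; ring
      rw [h18]
      nlinarith [sq_nonneg (r x - c)]
    · exact ((hD.sub continuousOn_const).pow 2).integrableOn_compact hKc
  calc var K (fun x => f1 x - f0 x) ≤ 4 * Real.exp β * V := hvar
    _ ≤ 4 * Real.exp β * (2 * M * (Real.exp (3 * β) * W)) := by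
        apply mul_le_mul_of_nonneg_left _ (by positivity)
        rw [div_le_iff₀ (by positivity)] at hle
        linarith
    _ = 8 * M * Real.exp (4 * β) * W := by
        have : Real.exp (4 * β) = Real.exp β * Real.exp (3 * β) := by
          rw [← Real.exp_add]; congr 1; ring
        rw [this]; ring

end Vale.Agent.P074
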