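import Vale.Agent.P074.Defs

open MeasureTheory Set Filter
open scoped ENNReal NNReal InnerProductSpace Topology

namespace Vale.Agent.P074

/-- A dual certificate implies optimality. -/
lemma isOptimalMap_of_dual {d : ℕ} {ρ : Measure (Eu d)} [IsFiniteMeasure ρ] {T : Eu d → Eu d}
    (hT : Measurable T) (a b : Eu d → ℝ) (ha : Integrable a ρ) (hb : Measurable b) (M : ℝ)
    (hbM : ∀ y, |b y| ≤ M) (V : Set (Eu d)) (hV : MeasurableSet V) (hTV : ∀ x, T x ∈ V)
    (heq : ∀ᵐ x ∂ρ, ‖x - T x‖ ^ 2 = a x + b (T x))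
    (hle : ∀ᵐ x ∂ρ, ∀ y ∈ V, a x + b y ≤ ‖x - y‖ ^ 2) : IsOptimalMap ρ (ρ.map T) T := by
  refine ⟨hT, rfl, ?_⟩
  intro S hS hmap
  have hbint : ∀ (U : Eu d → Eu d), Measurable U → Integrable (fun x => b (U x)) ρ := by
    intro U hU
    refine Integrable.mono' (integrable_const M) (hb.comp hU).aestronglyMeasurable ?_
    exact Filter.Eventually.of_forall fun x => by simpa [Real.norm_eq_abs] using hbM (U x)
  have hSV : ∀ᵐ x ∂ρ, S x ∈ V := by
    have h1 : (ρ.map S) Vᶜ = 0 := by
      rw [hmap, Measure.map_apply hT hV.compl]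
      have : T ⁻¹' Vᶜ = ∅ := by
        ext x; simp [hTV x]
      simp [this]
    rw [Measure.map_apply hS hV.compl] at h1
    exact h1
  have hintT : ∫ x, b (T x) ∂ρ = ∫ x, b (S x) ∂ρ := by
    have e1 : ∫ x, b (T x) ∂ρ = ∫ y, b y ∂(ρ.map T) :=
      (integral_map hT.aemeasurable hb.aestronglyMeasurable).symm
    have e2 : ∫ x, b (S x) ∂ρ = ∫ y, b y ∂(ρ.map S) :=
      (integral_map hS.aemeasurable hb.aestronglyMeasurable).symm
    rw [e1, e2, hmap]
  have henorm : ∀ v : Eu d, ‖v‖ₑ ^ 2 = ENNReal.ofReal (‖v‖ ^ 2) := by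
    intro v
    rw [← ofReal_norm, ENNReal.ofReal_pow (norm_nonneg v)]
  have hintaT : Integrable (fun x => a x + b (T x)) ρ := ha.add (hbint T hT)
  have hL : ∫⁻ x, ‖x - T x‖ₑ ^ 2 ∂ρ = ENNReal.ofReal (∫ x, (a x + b (T x)) ∂ρ) := by
    rw [ofReal_integral_eq_lintegral_ofReal hintaT]
    · refine lintegral_congr_ae ?_
      filter_upwards [heq] with x hx
      rw [henorm, hx]
    · filter_upwards [heq] with x hx
      simp only [Pi.zero_apply]
      rw [← hx]; positivity
  rw [hL]
  have h2 : ∫ x, (a x + b (T x)) ∂ρ = ∫ x, (a x + b (S x)) ∂ρ := by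
    rw [integral_add ha (hbint T hT), integral_add ha (hbint S hS), hintT]
  rw [h2]
  have hint2 : Integrable (fun x => a x + b (S x)) ρ := ha.add (hbint S hS)
  calc ENNReal.ofReal (∫ x, (a x + b (S x)) ∂ρ)
      ≤ ENNReal.ofReal (∫ x, max (a x + b (S x)) 0 ∂ρ) := by
        apply ENNReal.ofReal_le_ofReal
        exact integral_mono hint2 hint2.pos_part (fun x => le_max_left _ _)
    _ = ∫⁻ x, ENNReal.ofReal (max (a x + b (S x)) 0) ∂ρ := by
        rw [ofReal_integral_eq_lintegral_ofReal hint2.pos_part]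
        exact Filter.Eventually.of_forall fun x => le_max_right _ _
    _ ≤ ∫⁻ x, ‖x - S x‖ₑ ^ 2 ∂ρ := by
        apply lintegral_mono_ae
        filter_upwards [hle, hSV] with x hx hxV
        rw [henorm]
        apply ENNReal.ofReal_le_ofReal
        exact max_le (hx _ hxV) (by positivity)

/-- Threshold map. -/
noncomputable def thr {d : ℕ} (e : Eu d) (t : ℝ) (x : Eu d) : Eu d :=
  open Classical in if t < ⟪x, e⟫_ℝ then e else 0

lemma measurable_thr {d : ℕ} (e : Eu d) (t : ℝ) : Measurable (thr e t) := by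
  unfold thr
  refine Measurable.ite ?_ measurable_const measurable_const
  exact measurableSet_lt measurable_const (by fun_prop)

lemma thr_optimal {d : ℕ} {ρ : Measure (Eu d)} [IsFiniteMeasure ρ] (e : Eu d) (he : ‖e‖ = 1)
    (t : ℝ) (hρ : Integrable (fun x => ‖x‖ ^ 2) ρ) :
    IsOptimalMap ρ (ρ.map (thr e t)) (thr e t) := by
  classical
  have he0 : e ≠ 0 := by
    intro h; rw [h] at he; simp at he
  have hx1 : Integrable (fun x : Eu d => ⟪x, e⟫_ℝ) ρ := by
    refine Integrable.mono' ((integrable_const (1 : ℝ)).add hρ) (by fun_prop) ?_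
    refine Filter.Eventually.of_forall fun x => ?_
    have h1 : |⟪x, e⟫_ℝ| ≤ ‖x‖ * ‖e‖ := abs_real_inner_le_norm x e
    rw [he, mul_one] at h1
    simp only [Real.norm_eq_abs, Pi.add_apply]
    nlinarith [sq_nonneg (‖x‖ - 1), norm_nonneg x]
  have hsq : ∀ x : Eu d, ‖x - e‖ ^ 2 = ‖x‖ ^ 2 - 2 * ⟪x, e⟫_ℝ + 1 := by
    intro x
    rw [norm_sub_sq_real, he]; ring
  refine isOptimalMap_of_dual (measurable_thr e t)
    (fun x => ‖x‖ ^ 2 - 2 * max (⟪x, e⟫_ℝ - t) 0) (fun y => if y = e then 1 - 2 * t else 0)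
    ?_ ?_ |1 - 2 * t| ?_ {0, e} ?_ ?_ ?_ ?_
  · exact hρ.sub (((hx1.sub (integrable_const t)).pos_part).const_mul 2)
  · exact Measurable.ite (measurableSet_singleton e) measurable_const measurable_const
  · intro y; split_ifs <;> simp
  · exact (measurableSet_singleton e).insert 0
  · intro x; unfold thr; split_ifs <;> simp
  · refine Filter.Eventually.of_forall fun x => ?_
    unfold thr
    by_cases h : t < ⟪x, e⟫_ℝ
    · simp only [h, if_true, hsq]
      rw [max_eq_left (by linarith)]; ring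
    · simp only [h, if_false]
      rw [max_eq_right (by linarith), if_neg (Ne.symm he0)]; simp
  · refine Filter.Eventually.of_forall fun x => ?_
    intro y hy
    rcases hy with hy | hy
    · subst hy
      simp only [sub_zero]
      rw [if_neg (Ne.symm he0)]
      have := le_max_right (⟪x, e⟫_ℝ - t) 0
      linarith
    · rw [mem_singleton_iff] at hy
      subst hy
      simp only [if_true, hsq]
      have := le_max_left (⟪x, y⟫_ℝ - t) 0
      linarith

/-! ### The cube `[-1,1]^d` -/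

/-- The cube `[-1,1]^d`. -/
def cube (d : ℕ) : Set (Eu d) := {x | ∀ i, x i ∈ Icc (-1 : ℝ) 1}

lemma volume_box {d : ℕ} (s : Fin d → Set ℝ) (hs : ∀ i, MeasurableSet (s i)) :
    volume {x : Eu d | ∀ i, x i ∈ s i} = ∏ i, volume (s i) := by
  have h := (PiLp.volume_preserving_ofLp (Fin d)).measure_preimage
    (s := Set.univ.pi s) (MeasurableSet.univ_pi hs).nullMeasurableSet
  rw [volume_pi_pi] at h
  rw [← h]
  congr 1
  ext x
  simp

lemma isCompact_cube (d : ℕ) : IsCompact (cube d) := by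
  have h : cube d = (EuclideanSpace.equiv (Fin d) ℝ).toHomeomorph ⁻¹' (Icc (fun _ => -1) (fun _ => 1)) := by
    ext x
    simp [cube, Pi.le_def, forall_and]
  rw [h]
  rw [Homeomorph.isCompact_preimage]
  exact isCompact_Icc

lemma convex_cube (d : ℕ) : Convex ℝ (cube d) := by
  intro x hx y hy a b ha hb hab i
  have h1 := hx i
  have h2 := hy i
  simp only [mem_Icc, PiLp.add_apply, PiLp.smul_apply, smul_eq_mul] at *
  constructor <;> nlinarith

lemma interior_cube (d : ℕ) : (interior (cube d)).Nonempty := by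
  refine ⟨0, ?_⟩
  rw [mem_interior]
  refine ⟨{x | ∀ i, x i ∈ Ioo (-1 : ℝ) 1}, ?_, ?_, ?_⟩
  · intro x hx i; exact Ioo_subset_Icc_self (hx i)
  · have : {x : Eu d | ∀ i, x i ∈ Ioo (-1 : ℝ) 1} = ⋂ i, (fun x : Eu d => x i) ⁻¹' Ioo (-1) 1 := by
      ext x; simp
    rw [this]
    exact isOpen_iInter_of_finite fun i => isOpen_Ioo.preimage (by fun_prop)
  · intro i; simp

lemma volume_cube (d : ℕ) : volume (cube d) = 2 ^ d := by
  unfold cube
  rw [volume_box (fun _ => Icc (-1 : ℝ) 1) (fun _ => measurableSet_Icc)]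
  simp [Real.volume_Icc]
  norm_num

lemma measurableSet_box {d : ℕ} (s : Fin d → Set ℝ) (hs : ∀ i, MeasurableSet (s i)) :
    MeasurableSet {x : Eu d | ∀ i, x i ∈ s i} := by
  have : {x : Eu d | ∀ i, x i ∈ s i} = ⋂ i, (fun x : Eu d => x i) ⁻¹' s i := by
    ext x; simp
  rw [this]
  exact MeasurableSet.iInter fun i => (hs i).preimage (by fun_prop)

lemma measurableSet_cube (d : ℕ) : MeasurableSet (cube d) :=
  measurableSet_box _ (fun _ => measurableSet_Icc)

lemma unif_box {d : ℕ} (s : Fin d → Set ℝ) (hs : ∀ i, MeasurableSet (s i))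
    (hsub : ∀ i, s i ⊆ Icc (-1 : ℝ) 1) :
    unif (cube d) {x : Eu d | ∀ i, x i ∈ s i} = ∏ i, (volume (s i) / 2) := by
  unfold unif
  rw [Measure.smul_apply, Measure.restrict_apply (measurableSet_box s hs), volume_cube]
  have : {x : Eu d | ∀ i, x i ∈ s i} ∩ cube d = {x : Eu d | ∀ i, x i ∈ s i} := by
    apply inter_eq_left.mpr
    intro x hx i
    exact hsub i (hx i)
  rw [this, volume_box s hs, smul_eq_mul, mul_comm, ← div_eq_mul_inv]
  simp_rw [div_eq_mul_inv]
  rw [Finset.prod_mul_distrib]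
  simp [ENNReal.inv_pow]

instance isProb_unif_cube (d : ℕ) : IsProbabilityMeasure (unif (cube d)) := by
  refine ⟨?_⟩
  unfold unif
  rw [Measure.smul_apply, Measure.restrict_apply MeasurableSet.univ, univ_inter, volume_cube,
    smul_eq_mul]
  exact ENNReal.inv_mul_cancel (by simp) (by simp)

/-- Flip one coordinate. -/
noncomputable def flip {d : ℕ} (i0 : Fin d) : Eu d ≃ₗᵢ[ℝ] Eu d :=
  LinearIsometryEquiv.piLpCongrRight 2
    (fun i => if i = i0 then LinearIsometryEquiv.neg ℝ else LinearIsometryEquiv.refl ℝ ℝ)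

lemma flip_apply {d : ℕ} (i0 i : Fin d) (x : Eu d) :
    flip i0 x i = if i = i0 then - x i else x i := by
  unfold flip
  simp only [LinearIsometryEquiv.piLpCongrRight_apply]
  split_ifs <;> simp

lemma map_flip_unif {d : ℕ} (i0 : Fin d) : (unif (cube d)).map (flip i0) = unif (cube d) := by
  unfold unif
  rw [Measure.map_smul]
  congr 1
  have hmp : MeasurePreserving (flip i0) (volume : Measure (Eu d)) volume :=
    (flip i0).measurePreserving
  have hpre : (flip i0) ⁻¹' (cube d) = cube d := by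
    ext x
    simp only [mem_preimage, cube, mem_ofPred_eq, flip_apply]
    constructor
    · intro h i
      have := h i
      split_ifs at this with hi
      · simp only [mem_Icc] at *; constructor <;> linarith [this.1, this.2]
      · exact this
    · intro h i
      have := h i
      split_ifs with hi
      · simp only [mem_Icc] at *; constructor <;> linarith [this.1, this.2]
      · exact this
  have := (hmp.restrict_preimage (measurableSet_cube d)).map_eq
  rw [hpre] at this
  exact this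

/-- The unit vectors of the example. -/
noncomputable def vec {d : ℕ} (i0 i1 : Fin d) (s : ℝ) : Eu d :=
  (√(1 + s ^ 2))⁻¹ • (EuclideanSpace.single i1 1 + s • EuclideanSpace.single i0 1)

lemma inner_vec {d : ℕ} (i0 i1 : Fin d) (s : ℝ) (x : Eu d) :
    ⟪x, vec i0 i1 s⟫_ℝ = (√(1 + s ^ 2))⁻¹ * (x i1 + s * x i0) := by
  unfold vec
  rw [inner_smul_right, inner_add_right, inner_smul_right]
  simp [EuclideanSpace.inner_single_right]

lemma norm_vec {d : ℕ} {i0 i1 : Fin d} (h01 : i0 ≠ i1) (s : ℝ) : ‖vec i0 i1 s‖ = 1 := by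
  have h1 : 0 < 1 + s ^ 2 := by positivity
  have h : ‖(EuclideanSpace.single i1 (1 : ℝ) + s • EuclideanSpace.single i0 (1 : ℝ) : Eu d)‖ ^ 2
      = 1 + s ^ 2 := by
    rw [norm_add_sq_real, inner_smul_right, norm_smul]
    simp [EuclideanSpace.inner_single_right, h01]
  unfold vec
  rw [norm_smul, norm_inv, Real.norm_of_nonneg (Real.sqrt_nonneg _)]
  have h2 : ‖(EuclideanSpace.single i1 (1 : ℝ) + s • EuclideanSpace.single i0 (1 : ℝ) : Eu d)‖
      = √(1 + s ^ 2) := by
    rw [← h, Real.sqrt_sq (norm_nonneg _)]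
  rw [h2]
  exact inv_mul_cancel₀ (Real.sqrt_pos.mpr h1).ne'

lemma norm_vec_sub {d : ℕ} (i0 i1 : Fin d) (s : ℝ) (hs : 0 ≤ s) :
    ‖vec i0 i1 s - vec i0 i1 (-s)‖ ≤ 2 * s := by
  have h : vec i0 i1 s - vec i0 i1 (-s) = ((√(1 + s ^ 2))⁻¹ * (2 * s)) •
      (EuclideanSpace.single i0 (1 : ℝ) : Eu d) := by
    unfold vec
    rw [neg_sq, ← smul_sub, mul_smul]
    congr 1
    rw [add_sub_add_left_eq_sub, ← sub_smul]
    congr 1
    ring
  rw [h, norm_smul]
  simp only [PiLp.norm_single, norm_one, mul_one, norm_mul, norm_inv]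
  rw [Real.norm_of_nonneg (Real.sqrt_nonneg _), Real.norm_of_nonneg (by norm_num : (0:ℝ) ≤ 2),
    Real.norm_of_nonneg hs]
  have h1 : (1 : ℝ) ≤ √(1 + s ^ 2) := by
    rw [Real.one_le_sqrt]; nlinarith
  have h2 : (√(1 + s ^ 2))⁻¹ ≤ 1 := inv_le_one_of_one_le₀ h1
  nlinarith

/-- threshold -/
noncomputable def tt (s : ℝ) : ℝ := (√(1 + s ^ 2))⁻¹ * (1 - |s|)

lemma tt_lt_iff {d : ℕ} (i0 i1 : Fin d) (s : ℝ) (x : Eu d) :
    tt s < ⟪x, vec i0 i1 s⟫_ℝ ↔ 1 - |s| < x i1 + s * x i0 := by
  rw [inner_vec]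
  unfold tt
  have h1 : 0 < (√(1 + s ^ 2))⁻¹ := by positivity
  constructor
  · intro h; exact lt_of_mul_lt_mul_left h h1.le
  · intro h; exact mul_lt_mul_of_pos_left h h1

lemma integrable_normsq_unif (d : ℕ) : Integrable (fun x : Eu d => ‖x‖ ^ 2) (unif (cube d)) := by
  unfold unif
  apply Integrable.smul_measure
  · have : ContinuousOn (fun x : Eu d => ‖x‖ ^ 2) (cube d) := by fun_prop
    exact this.integrableOn_compact (isCompact_cube d)
  · rw [volume_cube]; simp

/-- The main family of examples: for `0 < s ≤ 1/2` two target measures on the unit ball with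
`W2 ≤ 2 s^{3/2}` while the maps are at distance `≥ (s/8)^{1/2}`. -/
lemma example_family {d : ℕ} {i0 i1 : Fin d} (h01 : i0 ≠ i1) {s : ℝ} (hs : 0 < s) (hs2 : s ≤ 1 / 2) :
    ∃ μ ν : Measure (Eu d), IsProbabilityMeasure μ ∧ IsProbabilityMeasure ν ∧
      μ (Metric.closedBall 0 1)ᶜ = 0 ∧ ν (Metric.closedBall 0 1)ᶜ = 0 ∧
      ∃ T S : Eu d → Eu d, IsOptimalMap (unif (cube d)) μ T ∧ IsOptimalMap (unif (cube d)) ν S ∧
        ENNReal.ofReal (s / 8) ≤ ∫⁻ x, ‖T x - S x‖ₑ ^ 2 ∂(unif (cube d)) ∧
        W2 μ ν ≤ (ENNReal.ofReal (4 * s ^ 3)) ^ (1 / 2 : ℝ) := by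
  classical
  set T := thr (vec i0 i1 s) (tt s) with hT
  set S := thr (vec i0 i1 (-s)) (tt (-s)) with hS
  have habs : |s| = s := abs_of_pos hs
  have hTm : Measurable T := measurable_thr _ _
  have hSm : Measurable S := measurable_thr _ _
  have hTx : ∀ x, T x = if 1 - s < x i1 + s * x i0 then vec i0 i1 s else 0 := by
    intro x
    rw [hT]; unfold thr
    have := tt_lt_iff i0 i1 s x
    rw [habs] at this
    by_cases h : 1 - s < x i1 + s * x i0
    · rw [if_pos (this.mpr h), if_pos h]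
    · rw [if_neg (fun h' => h (this.mp h')), if_neg h]
  have hSx : ∀ x, S x = if 1 - s < x i1 + (-s) * x i0 then vec i0 i1 (-s) else 0 := by
    intro x
    rw [hS]; unfold thr
    have := tt_lt_iff i0 i1 (-s) x
    rw [abs_neg, habs] at this
    by_cases h : 1 - s < x i1 + (-s) * x i0
    · rw [if_pos (this.mpr h), if_pos h]
    · rw [if_neg (fun h' => h (this.mp h')), if_neg h]
  have hball : ∀ (e : Eu d) (t : ℝ), ‖e‖ = 1 →
      (Measure.map (thr e t) (unif (cube d))) (Metric.closedBall 0 1)ᶜ = 0 := by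
    intro e t he
    rw [Measure.map_apply (measurable_thr e t) Metric.isClosed_closedBall.measurableSet.compl]
    have : thr e t ⁻¹' (Metric.closedBall 0 1)ᶜ = ∅ := by
      ext x
      simp only [mem_preimage, mem_compl_iff, Metric.mem_closedBall, dist_zero_right,
        mem_empty_iff_false, iff_false, not_not]
      unfold thr
      split_ifs
      · exact he.le
      · simp
    rw [this]; simp
  refine ⟨(unif (cube d)).map T, (unif (cube d)).map S, ?_, ?_, ?_, ?_, T, S, ?_, ?_, ?_, ?_⟩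
  · exact Measure.isProbabilityMeasure_map hTm.aemeasurable
  · exact Measure.isProbabilityMeasure_map hSm.aemeasurable
  · exact hball _ _ (norm_vec h01 s)
  · exact hball _ _ (norm_vec h01 (-s))
  · exact thr_optimal _ (norm_vec h01 s) _ (integrable_normsq_unif d)
  · exact thr_optimal _ (norm_vec h01 (-s)) _ (integrable_normsq_unif d)
  · -- lower bound
    set B : Fin d → Set ℝ := fun i => if i = i0 then Icc (1 / 2) 1 else
      if i = i1 then Ioc (1 - 3 * s / 2) (1 - s / 2) else Icc (-1) 1 with hB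
    have hBm : ∀ i, MeasurableSet (B i) := by
      intro i; simp only [hB]; split_ifs
      · exact measurableSet_Icc
      · exact measurableSet_Ioc
      · exact measurableSet_Icc
    have hBsub : ∀ i, B i ⊆ Icc (-1 : ℝ) 1 := by
      intro i x hx
      simp only [hB] at hx
      split_ifs at hx
      · simp only [mem_Icc] at *; constructor <;> linarith [hx.1, hx.2]
      · simp only [mem_Ioc, mem_Icc] at *; constructor <;> linarith [hx.1, hx.2]
      · exact hx
    have hvol : unif (cube d) {x : Eu d | ∀ i, x i ∈ B i} = ENNReal.ofReal (s / 8) := by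
      rw [unif_box B hBm hBsub]
      rw [Finset.prod_eq_mul (a := i0) (b := i1) h01]
      · simp only [hB, if_true, if_neg (Ne.symm h01), Real.volume_Icc, Real.volume_Ioc]
        rw [show (2 : ℝ≥0∞) = ENNReal.ofReal 2 by simp, ← ENNReal.ofReal_div_of_pos (by norm_num),
          ← ENNReal.ofReal_div_of_pos (by norm_num), ← ENNReal.ofReal_mul (by norm_num)]
        congr 1
        ring
      · intro i _ hi
        simp only [hB, if_neg hi.1, if_neg hi.2, Real.volume_Icc]
        rw [show (2 : ℝ≥0∞) = ENNReal.ofReal 2 by simp, ← ENNReal.ofReal_div_of_pos (by norm_num)]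
        norm_num
      · simp
      · simp
    rw [← hvol]
    calc unif (cube d) {x : Eu d | ∀ i, x i ∈ B i}
        = ∫⁻ x in {x : Eu d | ∀ i, x i ∈ B i}, 1 ∂(unif (cube d)) := by simp
      _ ≤ ∫⁻ x in {x : Eu d | ∀ i, x i ∈ B i}, ‖T x - S x‖ₑ ^ 2 ∂(unif (cube d)) := by
          apply setLIntegral_mono' (measurableSet_box B hBm)
          intro x hx
          have h0 := hx i0
          have h1 := hx i1
          simp only [hB, if_true, if_neg (Ne.symm h01), mem_Icc, mem_Ioc] at h0 h1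
          have hT1 : T x = vec i0 i1 s := by
            rw [hTx, if_pos]; nlinarith [h0.1, h0.2, h1.1, h1.2]
          have hS1 : S x = 0 := by
            rw [hSx, if_neg]; push Not; nlinarith [h0.1, h0.2, h1.1, h1.2]
          rw [hT1, hS1, sub_zero, ← ofReal_norm, norm_vec h01]
          simp
      _ ≤ ∫⁻ x, ‖T x - S x‖ₑ ^ 2 ∂(unif (cube d)) := setLIntegral_le_lintegral _ _
  · -- upper bound for W2
    unfold W2
    apply ENNReal.rpow_le_rpow _ (by norm_num)
    set π : Measure (Eu d × Eu d) := (unif (cube d)).map (fun x => (T x, S (flip i0 x))) with hπ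
    have hfm : Measurable (flip i0 : Eu d → Eu d) := (flip i0).continuous.measurable
    have hpm : Measurable (fun x => (T x, S (flip i0 x))) := hTm.prodMk (hSm.comp hfm)
    have hcoup : IsCoupling ((unif (cube d)).map T) ((unif (cube d)).map S) π := by
      constructor
      · rw [hπ, Measure.map_map measurable_fst hpm]; rfl
      · rw [hπ, Measure.map_map measurable_snd hpm]
        have : (Prod.snd ∘ fun x => (T x, S (flip i0 x))) = S ∘ (flip i0) := rfl
        rw [this, ← Measure.map_map hSm hfm, map_flip_unif]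
    refine (iInf₂_le π hcoup).trans ?_
    rw [hπ, lintegral_map (by fun_prop) hpm]
    set B : Fin d → Set ℝ := fun i => if i = i1 then Ioc (1 - 2 * s) 1 else Icc (-1) 1 with hB
    have hBm : ∀ i, MeasurableSet (B i) := by
      intro i; simp only [hB]; split_ifs
      · exact measurableSet_Ioc
      · exact measurableSet_Icc
    have hBsub : ∀ i, B i ⊆ Icc (-1 : ℝ) 1 := by
      intro i x hx
      simp only [hB] at hx
      split_ifs at hx
      · simp only [mem_Ioc, mem_Icc] at *; constructor <;> linarith [hx.1, hx.2]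
      · exact hx
    have hvol : unif (cube d) {x : Eu d | ∀ i, x i ∈ B i} = ENNReal.ofReal s := by
      rw [unif_box B hBm hBsub]
      rw [Finset.prod_eq_single i1]
      · simp only [hB, if_true, Real.volume_Ioc]
        rw [show (2 : ℝ≥0∞) = ENNReal.ofReal 2 by simp, ← ENNReal.ofReal_div_of_pos (by norm_num)]
        congr 1
        ring
      · intro i _ hi
        simp only [hB, if_neg hi, Real.volume_Icc]
        rw [show (2 : ℝ≥0∞) = ENNReal.ofReal 2 by simp, ← ENNReal.ofReal_div_of_pos (by norm_num)]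
        norm_num
      · simp
    have hcube : ∀ᵐ x ∂(unif (cube d)), x ∈ cube d := by
      unfold unif
      apply Measure.ae_smul_measure
      exact ae_restrict_mem (measurableSet_cube d)
    calc ∫⁻ x, ‖(T x, S (flip i0 x)).1 - (T x, S (flip i0 x)).2‖ₑ ^ 2 ∂(unif (cube d))
        ≤ ∫⁻ x, ({x : Eu d | ∀ i, x i ∈ B i}).indicator
            (fun _ => ENNReal.ofReal (4 * s ^ 2)) x ∂(unif (cube d)) := by
          apply lintegral_mono_ae
          filter_upwards [hcube] with x hx
          have hSf : S (flip i0 x) = if 1 - s < x i1 + s * x i0 then vec i0 i1 (-s) else 0 := by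
            rw [hSx]
            simp only [flip_apply, if_true, if_neg (Ne.symm h01), neg_mul, mul_neg, neg_neg]
          rw [hTx, hSf]
          by_cases h : 1 - s < x i1 + s * x i0
          · rw [if_pos h, if_pos h]
            have hxB : x ∈ {x : Eu d | ∀ i, x i ∈ B i} := by
              intro i
              simp only [hB]
              split_ifs with hi
              · subst hi
                have h0 := hx i0
                have h1 := hx i
                simp only [mem_Icc, mem_Ioc] at *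
                constructor
                · nlinarith [h0.1, h0.2]
                · exact h1.2
              · exact hx i
            rw [indicator_of_mem hxB, ← ofReal_norm, ← ENNReal.ofReal_pow (norm_nonneg _)]
            apply ENNReal.ofReal_le_ofReal
            have := norm_vec_sub i0 i1 s hs.le
            nlinarith [norm_nonneg (vec i0 i1 s - vec i0 i1 (-s))]
          · rw [if_neg h, if_neg h]
            simp
      _ = ENNReal.ofReal (4 * s ^ 2) * ENNReal.ofReal s := by
          rw [lintegral_indicator_const (measurableSet_box B hBm), hvol]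
      _ = ENNReal.ofReal (4 * s ^ 3) := by
          rw [← ENNReal.ofReal_mul (by positivity)]
          congr 1
          ring

/-- Real-variable part: the inequality `(s/8)^{1/2} ≤ C (4 s^3)^{α/2}` for all small `s`
forces `α ≤ 1/3`. -/
lemma exponent_bound {α C : ℝ}
    (h : ∀ s : ℝ, 0 < s → s ≤ 1 / 2 → (s / 8) ^ (1 / 2 : ℝ) ≤ C * (4 * s ^ 3) ^ (α / 2)) :
    α ≤ 1 / 3 := by
  by_contra hcon
  push Not at hcon
  -- exponent gap
  have hgap : 0 < 3 * α / 2 - 1 / 2 := by linarith
  have hlim : Tendsto (fun s : ℝ => C * 4 ^ (α / 2) * s ^ (3 * α / 2 - 1 / 2)) (𝓝[>] 0) (𝓝 0) := by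
    have h1 : Tendsto (fun s : ℝ => s ^ (3 * α / 2 - 1 / 2)) (𝓝[>] 0) (𝓝 0) := by
      have := (Real.continuousAt_rpow_const 0 (3 * α / 2 - 1 / 2) (Or.inr hgap.le)).tendsto
      rw [Real.zero_rpow hgap.ne'] at this
      exact this.mono_left nhdsWithin_le_nhds
    simpa using h1.const_mul (C * 4 ^ (α / 2))
  have hev : ∀ᶠ s : ℝ in 𝓝[>] 0, (1 / 8 : ℝ) ^ (1 / 2 : ℝ) ≤
      C * 4 ^ (α / 2) * s ^ (3 * α / 2 - 1 / 2) := by
    have hmem : Ioc (0 : ℝ) (1 / 2) ∈ 𝓝[>] (0 : ℝ) := Ioc_mem_nhdsGT (by norm_num)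
    filter_upwards [hmem] with s hs
    have hs0 := hs.1
    have h2 := h s hs.1 hs.2
    have e1 : (s / 8) ^ (1 / 2 : ℝ) = s ^ (1 / 2 : ℝ) * (1 / 8 : ℝ) ^ (1 / 2 : ℝ) := by
      rw [← Real.mul_rpow hs0.le (by norm_num)]; congr 1; ring
    have e2 : (4 * s ^ 3) ^ (α / 2) = 4 ^ (α / 2) * (s ^ (1 / 2 : ℝ) * s ^ (3 * α / 2 - 1 / 2)) := by
      rw [Real.mul_rpow (by norm_num) (by positivity), ← Real.rpow_natCast s 3,
        ← Real.rpow_mul hs0.le, ← Real.rpow_add hs0]
      congr 2
      push_cast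
      ring
    rw [e1, e2] at h2
    have h3 : 0 < s ^ (1 / 2 : ℝ) := Real.rpow_pos_of_pos hs0 _
    have h4 : s ^ (1 / 2 : ℝ) * (1 / 8 : ℝ) ^ (1 / 2 : ℝ) ≤
        s ^ (1 / 2 : ℝ) * (C * 4 ^ (α / 2) * s ^ (3 * α / 2 - 1 / 2)) := by
      calc _ ≤ _ := h2
        _ = _ := by ring
    exact le_of_mul_le_mul_left h4 h3
  have := le_of_tendsto_of_tendsto tendsto_const_nhds hlim hev
  have hpos : (0 : ℝ) < (1 / 8 : ℝ) ^ (1 / 2 : ℝ) := by positivity
  linarith

theorem upper : S_UPPER := by
  intro d hd α hadm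
  obtain ⟨hα, hα1, hA⟩ := hadm
  obtain ⟨C, hC⟩ := hA (cube d) (isCompact_cube d) (convex_cube d) (interior_cube d)
    (Metric.closedBall 0 1) (isCompact_closedBall 0 1) ⟨0, by simp⟩
  set i0 : Fin d := ⟨0, by omega⟩
  set i1 : Fin d := ⟨1, by omega⟩
  have h01 : i0 ≠ i1 := by
    intro h; have := congrArg Fin.val h; simp [i0, i1] at this
  refine exponent_bound (C := max C 0) ?_
  intro s hs hs2
  obtain ⟨μ, ν, hμ, hν, hμY, hνY, T, S, hT, hS, hlow, hup⟩ := example_family h01 hs hs2
  have hmain := hC μ ν hμ hν hμY hνY T S hT hS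
  have h1 : (ENNReal.ofReal (s / 8)) ^ (1 / 2 : ℝ) ≤
      ENNReal.ofReal C * ((ENNReal.ofReal (4 * s ^ 3)) ^ (1 / 2 : ℝ)) ^ α := by
    calc (ENNReal.ofReal (s / 8)) ^ (1 / 2 : ℝ)
        ≤ (∫⁻ x, ‖T x - S x‖ₑ ^ 2 ∂(unif (cube d))) ^ (1 / 2 : ℝ) :=
          ENNReal.rpow_le_rpow hlow (by norm_num)
      _ ≤ ENNReal.ofReal C * (W2 μ ν) ^ α := hmain
      _ ≤ _ := by gcongr
  rw [← ENNReal.rpow_mul, ENNReal.ofReal_rpow_of_pos (by positivity),
    ENNReal.ofReal_rpow_of_pos (by positivity)] at h1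
  have h2 : ENNReal.ofReal C = ENNReal.ofReal (max C 0) := by
    rcases le_total C 0 with hc | hc
    · rw [max_eq_right hc, ENNReal.ofReal_of_nonpos hc]; simp
    · rw [max_eq_left hc]
  rw [h2, ← ENNReal.ofReal_mul (le_max_right _ _), ENNReal.ofReal_le_ofReal_iff (by positivity)] at h1
  rw [show (1 / 2 : ℝ) * α = α / 2 by ring] at h1
  exact h1

end Vale.Agent.P074
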