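import Mathlib
import Vale.Agent.P074.Defs

open MeasureTheory Set Filter
open scoped ENNReal NNReal InnerProductSpace Topology

namespace Vale.Agent.P074

namespace T6

variable {d : ℕ} {ι : Type} [Fintype ι] [Nonempty ι]

theorem le_pot (y : ι → Eu d) (ψ : ι → ℝ) (x : Eu d) (i : ι) :
    ⟪x, y i⟫_ℝ - ψ i ≤ pot y ψ x :=
  le_ciSup (f := fun i => ⟪x, y i⟫_ℝ - ψ i) (Set.finite_range _).bddAbove i

theorem pot_le {y : ι → Eu d} {ψ : ι → ℝ} {x : Eu d} {a : ℝ}
    (h : ∀ i, ⟪x, y i⟫_ℝ - ψ i ≤ a) : pot y ψ x ≤ a :=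
  ciSup_le h

theorem pot_sub_le {L : ℝ} {y : ι → Eu d} (hy : ∀ i, ‖y i‖ ≤ L) (ψ : ι → ℝ) (x z : Eu d) :
    pot y ψ x - pot y ψ z ≤ L * ‖x - z‖ := by
  rw [sub_le_iff_le_add]
  refine pot_le fun i => ?_
  have h1 := le_pot y ψ z i
  have h2 : ⟪x, y i⟫_ℝ - ⟪z, y i⟫_ℝ ≤ L * ‖x - z‖ := by
    rw [← inner_sub_left]
    refine (real_inner_le_norm _ _).trans ?_
    rw [mul_comm]
    exact mul_le_mul_of_nonneg_right (hy i) (norm_nonneg _)
  linarith

theorem pot_abs_sub_le {L : ℝ} {y : ι → Eu d} (hy : ∀ i, ‖y i‖ ≤ L) (ψ : ι → ℝ) (x z : Eu d) :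
    |pot y ψ x - pot y ψ z| ≤ L * ‖x - z‖ := by
  rw [abs_le]
  constructor
  · have := pot_sub_le hy ψ z x
    rw [norm_sub_rev] at this
    linarith
  · exact pot_sub_le hy ψ x z

theorem continuous_pot {L : ℝ} {y : ι → Eu d} (hy : ∀ i, ‖y i‖ ≤ L) (ψ : ι → ℝ) :
    Continuous (pot y ψ) := by
  have hL : 0 ≤ L := (norm_nonneg _).trans (hy (Classical.arbitrary ι))
  have : LipschitzWith ⟨L, hL⟩ (pot y ψ) := by
    refine LipschitzWith.of_dist_le_mul fun x z => ?_
    rw [Real.dist_eq, dist_eq_norm]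
    exact pot_abs_sub_le hy ψ x z
  exact this.continuous

theorem pot_mid (y : ι → Eu d) (ψ ψ' : ι → ℝ) (x z : Eu d) :
    pot y (fun i => (ψ i + ψ' i) / 2) ((2 : ℝ)⁻¹ • (x + z)) ≤ (pot y ψ x + pot y ψ' z) / 2 := by
  refine pot_le fun i => ?_
  have h1 := le_pot y ψ x i
  have h2 := le_pot y ψ' z i
  rw [inner_smul_left, inner_add_left]
  simp only [conj_trivial]
  linarith

/-! ### Variance -/

theorem integrableOn_of_cont {K : Set (Eu d)} (hK : IsCompact K) {f : Eu d → ℝ}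
    (hf : Continuous f) : IntegrableOn f K :=
  hf.continuousOn.integrableOn_compact hK

/-- covariance on `K` -/
noncomputable def cov (K : Set (Eu d)) (f g : Eu d → ℝ) : ℝ :=
  (∫ x in K, f x * g x) - (∫ x in K, f x) * (∫ x in K, g x) / (volume K).toReal

theorem var_eq_cov (K : Set (Eu d)) (f : Eu d → ℝ) : var K f = cov K f f := by
  simp only [var, cov, pow_two]

theorem integral_const_K {K : Set (Eu d)} (c : ℝ) :
    ∫ _x in K, c = (volume K).toReal * c := by
  simp [Measure.real]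

theorem var_add_const {K : Set (Eu d)} (hK : IsCompact K) (hV : 0 < (volume K).toReal)
    {f : Eu d → ℝ} (hf : Continuous f) (c : ℝ) :
    var K (fun x => f x + c) = var K f := by
  unfold var
  have h1 : ∫ x in K, (f x + c) = (∫ x in K, f x) + (volume K).toReal * c := by
    rw [integral_add (integrableOn_of_cont hK hf) (integrableOn_of_cont hK continuous_const),
      integral_const_K]
  have h2 : ∫ x in K, (f x + c) ^ 2 =
      (∫ x in K, (f x) ^ 2) + 2 * c * (∫ x in K, f x) + (volume K).toReal * c ^ 2 := by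
    have e : ∀ x, (f x + c) ^ 2 = (f x) ^ 2 + 2 * c * f x + c ^ 2 := fun x => by ring
    simp only [e]
    rw [integral_add, integral_add, integral_const_mul, integral_const_K]
    · exact integrableOn_of_cont hK (by fun_prop)
    · exact integrableOn_of_cont hK (by fun_prop)
    · exact integrableOn_of_cont hK (by fun_prop)
    · exact integrableOn_of_cont hK (by fun_prop)
  rw [h1, h2]
  field_simp
  ring

theorem var_nonneg {K : Set (Eu d)} (hK : IsCompact K) (hV : 0 < (volume K).toReal)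
    {f : Eu d → ℝ} (hf : Continuous f) : 0 ≤ var K f := by
  set c := -(∫ x in K, f x) / (volume K).toReal with hc
  rw [← var_add_const hK hV hf c]
  unfold var
  have h1 : ∫ x in K, (f x + c) = 0 := by
    rw [integral_add (integrableOn_of_cont hK hf) (integrableOn_of_cont hK continuous_const),
      integral_const_K, hc]
    field_simp
    ring
  rw [h1]
  simp only [ne_eq, OfNat.ofNat_ne_zero, not_false_eq_true, zero_pow, zero_div, sub_zero]
  exact integral_nonneg fun x => sq_nonneg _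

theorem var_sub_smul {K : Set (Eu d)} (hK : IsCompact K)
    {f g : Eu d → ℝ} (hf : Continuous f) (hg : Continuous g) (s : ℝ) :
    var K (fun x => f x - s * g x) = var K f - 2 * s * cov K f g + s ^ 2 * var K g := by
  unfold var cov
  have h1 : ∫ x in K, (f x - s * g x) = (∫ x in K, f x) - s * ∫ x in K, g x := by
    rw [integral_sub (integrableOn_of_cont hK hf) (integrableOn_of_cont hK (by fun_prop)),
      integral_const_mul]
  have h2 : ∫ x in K, (f x - s * g x) ^ 2 =
      (∫ x in K, (f x) ^ 2) - 2 * s * (∫ x in K, f x * g x) + s ^ 2 * ∫ x in K, (g x) ^ 2 := by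
    have e : ∀ x, (f x - s * g x) ^ 2 = (f x) ^ 2 - 2 * s * (f x * g x) + s ^ 2 * (g x) ^ 2 :=
      fun x => by ring
    simp only [e]
    rw [integral_add, integral_sub, integral_const_mul, integral_const_mul]
    · exact integrableOn_of_cont hK (by fun_prop)
    · exact integrableOn_of_cont hK (by fun_prop)
    · exact integrableOn_of_cont hK (by fun_prop)
    · exact integrableOn_of_cont hK (by fun_prop)
  rw [h1, h2]
  ring

/-- `var (f + g + h) ≤ 3 (var f + var g + var h)`. -/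
theorem var_add_three {K : Set (Eu d)} (hK : IsCompact K) (hV : 0 < (volume K).toReal)
    {f g h : Eu d → ℝ} (hf : Continuous f) (hg : Continuous g) (hh : Continuous h) :
    var K (fun x => f x + g x + h x) ≤ 3 * (var K f + var K g + var K h) := by
  have two : ∀ u v : Eu d → ℝ, Continuous u → Continuous v →
      cov K u v ≤ (var K u + var K v) / 2 := by
    intro u v hu hv
    have := var_nonneg hK hV (hu.sub (hv.const_mul 1) |>.congr (fun x => rfl) :
      Continuous fun x => u x - 1 * v x)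
    rw [var_sub_smul hK hu hv 1] at this
    linarith
  have exp : var K (fun x => f x + g x + h x) =
      var K f + var K g + var K h + 2 * (cov K f g + cov K g h + cov K f h) := by
    unfold var cov
    have h1 : ∫ x in K, (f x + g x + h x) = (∫ x in K, f x) + (∫ x in K, g x) + ∫ x in K, h x := by
      rw [integral_add, integral_add]
      all_goals exact integrableOn_of_cont hK (by fun_prop)
    have h2 : ∫ x in K, (f x + g x + h x) ^ 2 =
        (∫ x in K, (f x) ^ 2) + (∫ x in K, (g x) ^ 2) + (∫ x in K, (h x) ^ 2) +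
        2 * (∫ x in K, f x * g x) + 2 * (∫ x in K, g x * h x) + 2 * (∫ x in K, f x * h x) := by
      have e : ∀ x, (f x + g x + h x) ^ 2 = (f x) ^ 2 + (g x) ^ 2 + (h x) ^ 2 +
        2 * (f x * g x) + 2 * (g x * h x) + 2 * (f x * h x) := fun x => by ring
      simp only [e]
      rw [integral_add, integral_add, integral_add, integral_add, integral_add,
        integral_const_mul, integral_const_mul, integral_const_mul]
      all_goals exact integrableOn_of_cont hK (by fun_prop)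
    rw [h1, h2]
    ring
  rw [exp]
  have a1 := two f g hf hg
  have a2 := two g h hg hh
  have a3 := two f h hf hh
  linarith

/-- The variance of a difference of two semi-discrete potentials with the same sites is controlled
by the midpoint gap. -/
theorem sc_pot (hSC : S_SC) {R L : ℝ} (hR : 0 < R) (hL : 0 < L) :
    ∃ C > (0 : ℝ), ∀ (d : ℕ) (ι : Type) [Fintype ι] [Nonempty ι] (K : Set (Eu d))
      (y : ι → Eu d) (ψ ψ' : ι → ℝ), IsCompact K → Convex ℝ K → 0 < (volume K).toReal →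
      K ⊆ Metric.closedBall 0 R → (∀ i, ‖y i‖ ≤ L) →
      var K (fun x => pot y ψ' x - pot y ψ x) ≤
        C * ∫ x in K, ((pot y ψ x + pot y ψ' x) / 2 - pot y (fun i => (ψ i + ψ' i) / 2) x) := by
  obtain ⟨C, hC, hsc⟩ := hSC (2 * R * L)
  refine ⟨C, hC, ?_⟩
  intro d ι _ _ K y ψ ψ' hK hKc hV hKR hy
  have hKn : K.Nonempty := by
    rw [Set.nonempty_iff_ne_empty]
    rintro rfl
    simp at hV
  obtain ⟨x0, hx0⟩ := hKn
  set c0 := pot y ψ x0 with hc0
  set c1 := pot y ψ' x0 with hc1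
  have cont0 := continuous_pot hy ψ
  have cont1 := continuous_pot hy ψ'
  have contm := continuous_pot hy (fun i => (ψ i + ψ' i) / 2)
  have hdist : ∀ x ∈ K, ‖x - x0‖ ≤ 2 * R := by
    intro x hx
    have h1 := hKR hx
    have h2 := hKR hx0
    rw [mem_closedBall_zero_iff] at h1 h2
    linarith [norm_sub_le x x0]
  have hb : ∀ (ψ : ι → ℝ), ∀ x ∈ K, |pot y ψ x - pot y ψ x0| ≤ 2 * R * L := by
    intro ψ x hx
    refine (pot_abs_sub_le hy ψ x x0).trans ?_
    nlinarith [hdist x hx]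
  have key := hsc d K (fun x => pot y ψ x - c0) (fun x => pot y ψ' x - c1)
    (fun x => max (pot y (fun i => (ψ i + ψ' i) / 2) x - (c0 + c1) / 2) (-(2 * R * L)))
    hK hKc hV (by fun_prop) (by fun_prop) (by fun_prop)
    (fun x hx => hb ψ x hx) (fun x hx => hb ψ' x hx)
    (by
      intro x hx
      have h1 := pot_mid y ψ ψ' x x
      have h2 : (2 : ℝ)⁻¹ • (x + x) = x := by
        rw [← two_smul ℝ x, smul_smul]; norm_num
      rw [h2] at h1
      have h3 := abs_le.1 (hb ψ x hx)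
      have h4 := abs_le.1 (hb ψ' x hx)
      rw [abs_le]
      refine ⟨le_max_right _ _, max_le ?_ ?_⟩
      · rw [hc0, hc1]; linarith [h3.2, h4.2]
      · nlinarith)
    (by
      intro x hx z hz
      have h1 := pot_mid y ψ ψ' x z
      have h3 := abs_le.1 (hb ψ x hx)
      have h4 := abs_le.1 (hb ψ' z hz)
      refine max_le ?_ ?_
      · linarith
      · rw [hc0, hc1]; linarith [h3.1, h4.1])
  have e1 : var K (fun x => (pot y ψ' x - c1) - (pot y ψ x - c0)) =
      var K (fun x => pot y ψ' x - pot y ψ x) := by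
    have h5 := var_add_const (f := fun x => pot y ψ' x - pot y ψ x) hK hV (cont1.sub cont0)
      (c0 - c1)
    rw [← h5]
    congr 1
    ext x
    ring
  rw [e1] at key
  refine key.trans (mul_le_mul_of_nonneg_left ?_ hC.le)
  refine integral_mono ?_ ?_ ?_
  · exact integrableOn_of_cont hK (by fun_prop)
  · exact integrableOn_of_cont hK (by fun_prop)
  · intro x
    simp only
    have := le_max_left (pot y (fun i => (ψ i + ψ' i) / 2) x - (c0 + c1) / 2) (-(2 * R * L))
    linarith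

theorem dualJ_one (K : Set (Eu d)) (m : ι → ℝ) (y : ι → Eu d) (ψ : ι → ℝ) :
    dualJ K (fun _ => 1) m y ψ = (∫ x in K, pot y ψ x) + ∑ i, m i * ψ i := by
  simp [dualJ]

/-- midpoint gap in terms of the dual functional -/
theorem mid_gap {K : Set (Eu d)} (hK : IsCompact K) {L : ℝ} {y : ι → Eu d}
    (hy : ∀ i, ‖y i‖ ≤ L) (m : ι → ℝ) (ψ ψ' : ι → ℝ) :
    ∫ x in K, ((pot y ψ x + pot y ψ' x) / 2 - pot y (fun i => (ψ i + ψ' i) / 2) x) =
      (dualJ K (fun _ => 1) m y ψ + dualJ K (fun _ => 1) m y ψ') / 2 -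
        dualJ K (fun _ => 1) m y (fun i => (ψ i + ψ' i) / 2) := by
  have cont0 := continuous_pot hy ψ
  have cont1 := continuous_pot hy ψ'
  have contm := continuous_pot hy (fun i => (ψ i + ψ' i) / 2)
  rw [dualJ_one, dualJ_one, dualJ_one]
  rw [integral_sub (integrableOn_of_cont hK (by fun_prop)) (integrableOn_of_cont hK contm)]
  have e1 : ∫ x in K, (pot y ψ x + pot y ψ' x) / 2 =
      ((∫ x in K, pot y ψ x) + ∫ x in K, pot y ψ' x) / 2 := by
    rw [integral_div, integral_add (integrableOn_of_cont hK cont0) (integrableOn_of_cont hK cont1)]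
  have e2 : ∑ i, m i * ((ψ i + ψ' i) / 2) = ((∑ i, m i * ψ i) + ∑ i, m i * ψ' i) / 2 := by
    rw [← Finset.sum_add_distrib, Finset.sum_div]
    refine Finset.sum_congr rfl fun i _ => ?_
    ring
  rw [e1, e2]
  ring

theorem bddBelow_of_min {K : Set (Eu d)} {w : Eu d → ℝ} {m : ι → ℝ} {y : ι → Eu d} {ψ : ι → ℝ}
    (h : ∀ ψ', dualJ K w m y ψ ≤ dualJ K w m y ψ') :
    BddBelow (range fun ψ => dualJ K w m y ψ) :=
  ⟨dualJ K w m y ψ, by rintro _ ⟨ψ', rfl⟩; exact h ψ'⟩

theorem dualM_eq {K : Set (Eu d)} {w : Eu d → ℝ} {m : ι → ℝ} {y : ι → Eu d} {ψ : ι → ℝ}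
    (h : ∀ ψ', dualJ K w m y ψ ≤ dualJ K w m y ψ') : dualM K w m y = dualJ K w m y ψ :=
  le_antisymm (ciInf_le (bddBelow_of_min h) ψ) (le_ciInf h)

theorem dualJ_add {K : Set (Eu d)} (hK : IsCompact K) {L : ℝ} {y : ι → Eu d}
    (hy : ∀ i, ‖y i‖ ≤ L) (m : ι → ℝ) (ψ : ι → ℝ) {h : Eu d → ℝ} (hh : Continuous h) :
    dualJ K (fun x => 1 + h x) m y ψ =
      dualJ K (fun _ => 1) m y ψ + ∫ x in K, pot y ψ x * h x := by
  have cont0 := continuous_pot hy ψ
  unfold dualJ
  have e : ∀ x, pot y ψ x * (1 + h x) = pot y ψ x * 1 + pot y ψ x * h x := fun x => by ring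
  simp only [e]
  rw [integral_add (integrableOn_of_cont hK (by fun_prop)) (integrableOn_of_cont hK (by fun_prop))]
  ring

end T6

theorem T6.aux1 {a c vf vg : ℝ} (ha : 0 < a) (h1 : vf ≤ a * c)
    (h2 : 0 ≤ vf - 2 * a * c + a ^ 2 * vg) : c ≤ a * vg := by
  have : a * c ≤ a * (a * vg) := by nlinarith
  exact le_of_mul_le_mul_left this ha

theorem T6.aux2 {v a D2 C0 R : ℝ} (hv : 0 ≤ v) (hD : 0 ≤ D2) (hC0 : 0 < C0) (hR : 0 < R)
    (hale : a ≤ 1 / 2) (fin : v ≤ a * v + C0 * R * √v * √D2) : v ≤ 4 * C0 ^ 2 * R ^ 2 * D2 := by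
  have hs : √v ^ 2 = v := Real.sq_sqrt hv
  have hD' : √D2 ^ 2 = D2 := Real.sq_sqrt hD
  have hsnn := Real.sqrt_nonneg v
  have hDnn := Real.sqrt_nonneg D2
  have h1 : a * v ≤ 1 / 2 * v := mul_le_mul_of_nonneg_right hale hv
  have k1 : √v * √v ≤ √v * (2 * (C0 * R * √D2)) := by
    have : √v * √v = v := by rw [← pow_two]; exact hs
    rw [this]
    have e : √v * (2 * (C0 * R * √D2)) = 2 * (C0 * R * √v * √D2) := by ring
    rw [e]; linarith
  rcases hsnn.eq_or_lt with h' | h'
  · have hv0 : v = 0 := by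
      rw [← h'] at hs; rw [← hs]; norm_num
    rw [hv0]; positivity
  · have k2 := le_of_mul_le_mul_left k1 h'
    calc v = √v ^ 2 := hs.symm
      _ ≤ (2 * (C0 * R * √D2)) ^ 2 := by gcongr
      _ = 4 * C0 ^ 2 * R ^ 2 * √D2 ^ 2 := by ring
      _ = _ := by rw [hD']

open T6 in
theorem main_min {d : ℕ} {ι : Type} [Fintype ι] [Nonempty ι] (hEX : S_EXIST)
    {K : Set (Eu d)} {R L : ℝ} (hd : 1 ≤ d) (hK : IsCompact K) (hKc : Convex ℝ K)
    (hV : 0 < (volume K).toReal) (hR : 0 < R) (hKR : K ⊆ Metric.closedBall 0 R)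
    {h0 C0 : ℝ} (hh0 : 0 < h0) (hC0 : 0 < C0) {y0 y1 : ι → Eu d} {m : ι → ℝ}
    (hpath : ∀ h : Eu d → ℝ, Measurable h → (∀ x ∈ K, |h x| ≤ h0) → ∫ x in K, h x = 0 →
      (dualM K (fun x => 1 + h x) m y1 - dualM K (fun _ => 1) m y1)
        - (dualM K (fun x => 1 + h x) m y0 - dualM K (fun _ => 1) m y0)
        ≤ C0 * R * √(∫ x in K, (h x) ^ 2) * √(∑ i, m i * ‖y1 i - y0 i‖ ^ 2))
    {CA : ℝ} (hCA : 0 < CA) (hy0 : ∀ i, ‖y0 i‖ ≤ L) (hy1 : ∀ i, ‖y1 i‖ ≤ L) (hm : ∀ i, 0 < m i)
    (hmV : ∑ i, m i = (volume K).toReal) {p0 p1 : ι → ℝ}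
    (hp0 : ∀ ψ', dualJ K (fun _ => 1) m y0 p0 ≤ dualJ K (fun _ => 1) m y0 ψ')
    (hp1 : ∀ ψ', dualJ K (fun _ => 1) m y1 p1 ≤ dualJ K (fun _ => 1) m y1 ψ')
    (gap : ∀ ψ : ι → ℝ, var K (fun x => pot y1 ψ x - pot y1 p1 x) ≤
        CA / 2 * (dualJ K (fun _ => 1) m y1 ψ - dualJ K (fun _ => 1) m y1 p1)) :
    var K (fun x => pot y1 p1 x - pot y0 p0 x) ≤
      4 * C0 ^ 2 * R ^ 2 * ∑ i, m i * ‖y1 i - y0 i‖ ^ 2 := by
  have M0 := dualM_eq hp0
  have M1 := dualM_eq hp1
  have hmass1 : ∑ i, m i = ∫ _x in K, (1 : ℝ) := by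
    rw [integral_const_K, mul_one, hmV]
  have hKn : K.Nonempty := by
    rw [Set.nonempty_iff_ne_empty]
    rintro rfl
    simp at hV
  obtain ⟨x0, hx0⟩ := hKn
  have c_p0 := continuous_pot hy0 p0
  have c_p1 := continuous_pot hy1 p1
  obtain ⟨D2, hD2⟩ : ∃ D2, D2 = ∑ i, m i * ‖y1 i - y0 i‖ ^ 2 := ⟨_, rfl⟩
  rw [← hD2]
  have hD2nn : 0 ≤ D2 := by
    rw [hD2]; exact Finset.sum_nonneg fun i _ => mul_nonneg (hm i).le (sq_nonneg _)
  set Δ : Eu d → ℝ := fun x => pot y1 p1 x - pot y0 p0 x with hΔ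
  have cΔ : Continuous Δ := c_p1.sub c_p0
  set mean := (∫ x in K, Δ x) / (volume K).toReal with hmean
  set g : Eu d → ℝ := fun x => Δ x - mean with hg
  have cg : Continuous g := cΔ.sub continuous_const
  have gint : ∫ x in K, g x = 0 := by
    simp only [hg]
    rw [integral_sub (integrableOn_of_cont hK cΔ) (integrableOn_of_cont hK continuous_const),
      integral_const_K, hmean]
    field_simp
    ring
  obtain ⟨G, hG⟩ := (hK.image cg).isBounded.subset_closedBall 0
  have hG' : ∀ x ∈ K, |g x| ≤ G := by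
    intro x hx
    have := hG ⟨x, hx, rfl⟩
    rwa [mem_closedBall_zero_iff, Real.norm_eq_abs] at this
  have hGnn : 0 ≤ G := (abs_nonneg _).trans (hG' x0 hx0)
  have vg0 : var K Δ = var K g := by
    have := var_add_const hK hV cΔ (-mean)
    rw [← this]
    congr 1
  have vgint : var K g = ∫ x in K, (g x) ^ 2 := by
    unfold var; rw [gint]; simp
  obtain ⟨v, hv⟩ : ∃ v, v = var K Δ := ⟨_, rfl⟩
  rw [← hv]
  have hvnn : 0 ≤ v := by rw [hv]; exact var_nonneg hK hV cΔ
  have vg : v = var K g := by rw [hv]; exact vg0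
  -- choose ε
  obtain ⟨ε, hεpos, hεG, hεCA⟩ : ∃ ε : ℝ, 0 < ε ∧ ε * G ≤ min h0 (1 / 2) ∧ ε * CA ≤ 1 := by
    refine ⟨min (min h0 (1 / 2) / (G + 1)) (1 / CA), ?_, ?_, ?_⟩
    · exact lt_min (div_pos (lt_min hh0 (by norm_num)) (by linarith)) (by positivity)
    · have h1 : min (min h0 (1 / 2) / (G + 1)) (1 / CA) ≤ min h0 (1 / 2) / (G + 1) :=
        min_le_left _ _
      have h2 : 0 < min h0 (1 / 2) := lt_min hh0 (by norm_num)
      calc _ ≤ min h0 (1 / 2) / (G + 1) * G := mul_le_mul_of_nonneg_right h1 hGnn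
        _ = min h0 (1 / 2) * (G / (G + 1)) := by ring
        _ ≤ min h0 (1 / 2) * 1 := by
            refine mul_le_mul_of_nonneg_left ?_ h2.le
            rw [div_le_one (by linarith)]; linarith
        _ = _ := mul_one _
    · have h1 : min (min h0 (1 / 2) / (G + 1)) (1 / CA) ≤ 1 / CA := min_le_right _ _
      calc _ ≤ 1 / CA * CA := mul_le_mul_of_nonneg_right h1 hCA.le
        _ = 1 := by field_simp
  set h : Eu d → ℝ := fun x => ε * g x with hh
  have ch : Continuous h := cg.const_mul ε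
  have hbd : ∀ x ∈ K, |h x| ≤ min h0 (1 / 2) := by
    intro x hx
    simp only [hh, abs_mul, abs_of_pos hεpos]
    exact (mul_le_mul_of_nonneg_left (hG' x hx) hεpos.le).trans hεG
  have hint : ∫ x in K, h x = 0 := by
    simp only [hh]; rw [integral_const_mul, gint, mul_zero]
  have hmassw : ∑ i, m i = ∫ x in K, (1 + h x) := by
    rw [integral_add (integrableOn_of_cont hK continuous_const) (integrableOn_of_cont hK ch),
      hint, add_zero, ← hmass1]
  have hwb : ∀ x ∈ K, 1 / 2 ≤ 1 + h x ∧ 1 + h x ≤ 3 / 2 := by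
    intro x hx
    have h1 := abs_le.1 ((hbd x hx).trans (min_le_right _ _))
    constructor <;> linarith [h1.1, h1.2]
  obtain ⟨q, hq⟩ := hEX d ι K (fun x => 1 + h x) y1 m hK (by fun_prop) hwb hm hmassw
  obtain ⟨q0, hq0⟩ := hEX d ι K (fun x => 1 + h x) y0 m hK (by fun_prop) hwb hm hmassw
  have c_q := continuous_pot hy1 q
  have P := hpath h ch.measurable (fun x hx => (hbd x hx).trans (min_le_left _ _)) hint
  rw [dualM_eq hq, M1, M0, ← hD2] at P
  have Mw0 : dualM K (fun x => 1 + h x) m y0 ≤ dualJ K (fun x => 1 + h x) m y0 p0 :=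
    ciInf_le (bddBelow_of_min hq0) p0
  rw [dualJ_add hK hy0 m p0 ch] at Mw0
  rw [dualJ_add hK hy1 m q ch] at P
  have hq1 := hq p1
  rw [dualJ_add hK hy1 m q ch, dualJ_add hK hy1 m p1 ch] at hq1
  have hp1q := hp1 q
  -- factor out ε
  have fac : ∀ f : Eu d → ℝ, ∫ x in K, f x * h x = ε * ∫ x in K, f x * g x := by
    intro f
    rw [← integral_const_mul]
    refine integral_congr_ae (Eventually.of_forall fun x => ?_)
    simp only [hh]; ring
  rw [fac] at P Mw0 hq1
  rw [fac] at hq1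
  have hsq : ∫ x in K, (h x) ^ 2 = ε ^ 2 * v := by
    rw [vg, vgint, ← integral_const_mul]
    refine integral_congr_ae (Eventually.of_forall fun x => ?_)
    simp only [hh]; ring
  rw [hsq, Real.sqrt_mul (by positivity), Real.sqrt_sq hεpos.le] at P
  -- (1)
  have ineq1 : ε * ((∫ x in K, pot y1 q x * g x) - ∫ x in K, pot y0 p0 x * g x) ≤
      ε * (C0 * R * √v * √D2) := by
    have : C0 * R * (ε * √v) * √D2 = ε * (C0 * R * √v * √D2) := by ring
    rw [this] at P
    linarith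
  have ineq1' := le_of_mul_le_mul_left ineq1 hεpos
  -- (2)
  set f : Eu d → ℝ := fun x => pot y1 p1 x - pot y1 q x with hf
  have cf : Continuous f := c_p1.sub c_q
  have covf : cov K f g = (∫ x in K, pot y1 p1 x * g x) - ∫ x in K, pot y1 q x * g x := by
    unfold cov
    rw [gint, mul_zero, zero_div, sub_zero, ← integral_sub
      (integrableOn_of_cont hK (by fun_prop)) (integrableOn_of_cont hK (by fun_prop))]
    refine integral_congr_ae (Eventually.of_forall fun x => ?_)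
    simp only [hf]; ring
  have gapq := gap q
  have varf : var K f ≤ CA / 2 * ε * cov K f g := by
    have e : var K f = var K (fun x => pot y1 q x - pot y1 p1 x) := by
      unfold var
      have e1 : ∫ x in K, f x = - ∫ x in K, (pot y1 q x - pot y1 p1 x) := by
        rw [← integral_neg]
        refine integral_congr_ae (Eventually.of_forall fun x => ?_)
        simp only [hf]; ring
      have e2 : ∫ x in K, (f x) ^ 2 = ∫ x in K, (pot y1 q x - pot y1 p1 x) ^ 2 := by
        refine integral_congr_ae (Eventually.of_forall fun x => ?_)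
        simp only [hf]; ring
      rw [e1, e2, neg_sq]
    rw [e]
    refine gapq.trans ?_
    rw [mul_assoc]
    refine mul_le_mul_of_nonneg_left ?_ (by positivity)
    rw [covf]
    linarith
  obtain ⟨a, ha⟩ : ∃ a, a = CA / 2 * ε := ⟨_, rfl⟩
  rw [← ha] at varf
  have hapos : 0 < a := by rw [ha]; positivity
  have hale : a ≤ 1 / 2 := by rw [ha]; nlinarith
  have hsqn : 0 ≤ var K f - 2 * a * cov K f g + a ^ 2 * var K g := by
    rw [← var_sub_smul hK cf cg a]
    exact var_nonneg hK hV (cf.sub (cg.const_mul a))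
  have ineq2 : cov K f g ≤ a * v := by
    rw [vg]
    exact aux1 hapos varf hsqn
  -- combine
  have comb : v = (∫ x in K, pot y1 p1 x * g x) - ∫ x in K, pot y0 p0 x * g x := by
    rw [vg, vgint, ← integral_sub (integrableOn_of_cont hK (by fun_prop))
      (integrableOn_of_cont hK (by fun_prop))]
    have e1 : ∀ x, (g x) ^ 2 = (pot y1 p1 x * g x - pot y0 p0 x * g x) - mean * g x := by
      intro x; simp only [hg, hΔ]; ring
    simp only [e1]
    rw [integral_sub (integrableOn_of_cont hK (by fun_prop))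
      (integrableOn_of_cont hK (by fun_prop)), integral_const_mul, gint, mul_zero, sub_zero]
  have fin : v ≤ a * v + C0 * R * √v * √D2 := by
    rw [covf] at ineq2
    linarith
  exact aux2 hvnn hD2nn hC0 hR hale fin

open T6 in
theorem var_bound : S_SC → S_EXIST → S_PATH → S_VAR := by
  intro hSC hEX hPATH d K R L hd hK hKc hKi hR hKR hL
  obtain ⟨CA, hCA, hsc⟩ := sc_pot hSC hR hL
  obtain ⟨h0, hh0, C0, hC0, hpath⟩ := hPATH
  have hV : 0 < (volume K).toReal := by
    refine ENNReal.toReal_pos ?_ hK.measure_lt_top.ne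
    have h1 : 0 < volume (interior K) := isOpen_interior.measure_pos _ hKi
    exact (h1.trans_le (measure_mono interior_subset)).ne'
  obtain ⟨x0, hx0i⟩ := hKi
  have hx0 : x0 ∈ K := interior_subset hx0i
  refine ⟨3 * (CA / 2 + 4 * C0 ^ 2 * R ^ 2), by positivity, ?_⟩
  intro ι _ _ y0 y1 m ψ0 ψ1 hy0 hy1 hm hmV
  -- minimisers
  have hmass1 : ∑ i, m i = ∫ _x in K, (1 : ℝ) := by
    rw [integral_const_K, mul_one, hmV]
  obtain ⟨p0, hp0⟩ := hEX d ι K (fun _ => 1) y0 m hK measurable_const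
    (fun x _ => by norm_num) hm hmass1
  obtain ⟨p1, hp1⟩ := hEX d ι K (fun _ => 1) y1 m hK measurable_const
    (fun x _ => by norm_num) hm hmass1
  have M0 := dualM_eq hp0
  have M1 := dualM_eq hp1
  set D2 := ∑ i, m i * ‖y1 i - y0 i‖ ^ 2 with hD2
  have hD2nn : 0 ≤ D2 := Finset.sum_nonneg fun i _ => mul_nonneg (hm i).le (sq_nonneg _)
  have c_p0 := continuous_pot hy0 p0
  have c_p1 := continuous_pot hy1 p1
  have c_ψ0 := continuous_pot hy0 ψ0
  have c_ψ1 := continuous_pot hy1 ψ1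
  -- gaps for general ψ
  have gap : ∀ (y : ι → Eu d) (p ψ : ι → ℝ), (∀ i, ‖y i‖ ≤ L) →
      (∀ ψ', dualJ K (fun _ => 1) m y p ≤ dualJ K (fun _ => 1) m y ψ') →
      var K (fun x => pot y ψ x - pot y p x) ≤
        CA / 2 * (dualJ K (fun _ => 1) m y ψ - dualJ K (fun _ => 1) m y p) := by
    intro y p ψ hy hp
    have h1 := hsc d ι K y p ψ hK hKc hV hKR hy
    rw [mid_gap hK hy m p ψ] at h1
    have h2 := hp (fun i => (p i + ψ i) / 2)
    refine h1.trans ?_
    have : CA * ((dualJ K (fun _ => 1) m y p + dualJ K (fun _ => 1) m y ψ) / 2 -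
        dualJ K (fun _ => 1) m y (fun i => (p i + ψ i) / 2)) ≤
        CA * ((dualJ K (fun _ => 1) m y ψ - dualJ K (fun _ => 1) m y p) / 2) := by
      refine mul_le_mul_of_nonneg_left ?_ hCA.le
      linarith
    linarith
  have main : var K (fun x => pot y1 p1 x - pot y0 p0 x) ≤ 4 * C0 ^ 2 * R ^ 2 * D2 :=
    main_min hEX hd hK hKc hV hR hKR hh0 hC0
      (fun h hh1 hh2 hh3 => hpath d ι K R y0 y1 m h hd hK hKc hR hKR hm hmV hh1 hh2 hh3)
      hCA hy0 hy1 hm hmV hp0 hp1 (fun ψ => gap y1 p1 ψ hy1 hp1)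
  -- final combination
  have g0 := gap y0 p0 ψ0 hy0 hp0
  have g1 := gap y1 p1 ψ1 hy1 hp1
  have e : (fun x => pot y1 ψ1 x - pot y0 ψ0 x) =
      fun x => (pot y1 ψ1 x - pot y1 p1 x) + (pot y1 p1 x - pot y0 p0 x) +
        (pot y0 p0 x - pot y0 ψ0 x) := by
    ext x; ring
  rw [e]
  have three := var_add_three (f := fun x => pot y1 ψ1 x - pot y1 p1 x)
    (g := fun x => pot y1 p1 x - pot y0 p0 x) (h := fun x => pot y0 p0 x - pot y0 ψ0 x)
    hK hV (c_ψ1.sub c_p1) (c_p1.sub c_p0) (c_p0.sub c_ψ0)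
  have e0 : var K (fun x => pot y0 p0 x - pot y0 ψ0 x) =
      var K (fun x => pot y0 ψ0 x - pot y0 p0 x) := by
    unfold var
    have e1 : ∫ x in K, (pot y0 p0 x - pot y0 ψ0 x) = - ∫ x in K, (pot y0 ψ0 x - pot y0 p0 x) := by
      rw [← integral_neg]
      refine integral_congr_ae (Eventually.of_forall fun x => ?_)
      simp only; ring
    have e2 : ∫ x in K, (pot y0 p0 x - pot y0 ψ0 x) ^ 2 =
        ∫ x in K, (pot y0 ψ0 x - pot y0 p0 x) ^ 2 := by
      refine integral_congr_ae (Eventually.of_forall fun x => ?_)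
      simp only; ring
    rw [e1, e2, neg_sq]
  rw [e0] at three
  rw [M0, M1]
  set G0 := dualJ K (fun _ => 1) m y0 ψ0 - dualJ K (fun _ => 1) m y0 p0 with hG0
  set G1 := dualJ K (fun _ => 1) m y1 ψ1 - dualJ K (fun _ => 1) m y1 p1 with hG1
  have G0nn : 0 ≤ G0 := sub_nonneg.2 (hp0 ψ0)
  have G1nn : 0 ≤ G1 := sub_nonneg.2 (hp1 ψ1)
  have hCR : 0 ≤ 4 * C0 ^ 2 * R ^ 2 := by positivity
  have hCA2 : 0 ≤ CA / 2 := by positivity
  refine three.trans ?_
  have t1 : CA / 2 * G0 + CA / 2 * G1 + 4 * C0 ^ 2 * R ^ 2 * D2 ≤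
      (CA / 2 + 4 * C0 ^ 2 * R ^ 2) * (D2 + G0 + G1) := by
    nlinarith [mul_nonneg hCA2 hD2nn, mul_nonneg hCR G0nn, mul_nonneg hCR G1nn]
  linarith

end Vale.Agent.P074
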