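import Vale.Agent.P074.PL
import Vale.Agent.P074.Bary
import Vale.Agent.P074.Exist
import Vale.Agent.P074.SC
import Vale.Agent.P074.Var
import Vale.Agent.P074.Path
import Vale.Agent.P074.Brenier
import Vale.Agent.P074.PotVar
import Vale.Agent.P074.Interp
import Vale.Agent.P074.Lower
import Vale.Agent.P074.Upper

namespace Vale.Agent.P074

/-- Positive half: `1/3` is admissible. -/
theorem lower_final : S_LOWER :=
  lower brenier (potvar (var_bound (sc pl) exist (path (bary pl) exist cellmass))) interp

/-- The optimal exponent is exactly `1/3`, and it is attained. -/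
theorem main_final (d : ℕ) (hd : 2 ≤ d) : IsGreatest {α : ℝ | Admissible d α} (1 / 3) :=
  ⟨lower_final d hd, fun α hα => upper d hd α hα⟩

end Vale.Agent.P074
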