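import Mathlib

open MeasureTheory Set
open scoped ENNReal Pointwise

namespace Vale.Agent.P074.OneDim

/-- One-dimensional Brunn-Minkowski for nonempty compact sets. -/
theorem bm1_compact {X Y : Set ℝ} (hX : IsCompact X) (hY : IsCompact Y)
    (hXn : X.Nonempty) (hYn : Y.Nonempty) :
    volume X + volume Y ≤ volume (X + Y) := by
  obtain ⟨x0, hx0, hx0max⟩ := hX.exists_isGreatest hXn
  obtain ⟨y0, hy0, hy0min⟩ := hY.exists_isLeast hYn
  have h1 : (fun x => x + y0) '' X ∪ (fun y => x0 + y) '' Y ⊆ X + Y := by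
    rintro z (⟨x, hx, rfl⟩ | ⟨y, hy, rfl⟩)
    · exact Set.add_mem_add hx hy0
    · exact Set.add_mem_add hx0 hy
  have h2 : ((fun x => x + y0) '' X ∩ (fun y => x0 + y) '' Y) ⊆ {x0 + y0} := by
    rintro z ⟨⟨x, hx, rfl⟩, ⟨y, hy, hxy⟩⟩
    have a1 := hx0max hx
    have a2 := hy0min hy
    simp only [mem_singleton_iff]
    simp only at hxy
    linarith
  have h3 : volume ((fun x => x + y0) '' X ∩ (fun y => x0 + y) '' Y) = 0 := by
    refine measure_mono_null h2 ?_
    simp
  have h4 : MeasurableSet ((fun y => x0 + y) '' Y) := by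
    exact (hY.image (by fun_prop)).measurableSet
  calc volume X + volume Y
      = volume ((fun x => x + y0) '' X) + volume ((fun y => x0 + y) '' Y) := by
        congr 1
        · simp
        · simp
    _ = volume ((fun x => x + y0) '' X ∪ (fun y => x0 + y) '' Y) := by
        rw [← measure_union_add_inter _ h4, h3, add_zero]
    _ ≤ volume (X + Y) := measure_mono h1

/-- One-dimensional Brunn-Minkowski, measurable version with convex weights. -/
theorem bm1 {A B C : Set ℝ} (hA : MeasurableSet A) (hB : MeasurableSet B)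
    (hAn : A.Nonempty) (hBn : B.Nonempty) {s t : ℝ} (hs : 0 ≤ s) (ht : 0 ≤ t)
    (hC : ∀ a ∈ A, ∀ b ∈ B, s * a + t * b ∈ C) :
    ENNReal.ofReal s * volume A + ENNReal.ofReal t * volume B ≤ volume C := by
  have key : ∀ X Y : Set ℝ, X ⊆ A → Y ⊆ B → IsCompact X → IsCompact Y →
      X.Nonempty → Y.Nonempty →
      ENNReal.ofReal s * volume X + ENNReal.ofReal t * volume Y ≤ volume C := by
    intro X Y hXA hYB hX hY hXn hYn
    have h1 : volume (s • X) = ENNReal.ofReal s * volume X := by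
      rw [Measure.addHaar_smul]; simp [abs_of_nonneg hs]
    have h2 : volume (t • Y) = ENNReal.ofReal t * volume Y := by
      rw [Measure.addHaar_smul]; simp [abs_of_nonneg ht]
    rw [← h1, ← h2]
    refine (bm1_compact (hX.smul s) (hY.smul t) hXn.smul_set hYn.smul_set).trans ?_
    refine measure_mono ?_
    rintro z ⟨x, ⟨a, ha, rfl⟩, y, ⟨b, hb, rfl⟩, rfl⟩
    exact hC a (hXA ha) b (hYB hb)
  have sup_eq : ∀ D : Set ℝ, MeasurableSet D → D.Nonempty →
      volume D = ⨆ X : {X : Set ℝ // X ⊆ D ∧ IsCompact X ∧ X.Nonempty}, volume X.1 := by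
    intro D hD hDn
    obtain ⟨d0, hd0⟩ := hDn
    refine le_antisymm ?_ (iSup_le fun X => measure_mono X.2.1)
    rw [hD.measure_eq_iSup_isCompact]
    refine iSup_le fun K => iSup_le fun hK => iSup_le fun hKc => ?_
    refine le_trans (measure_mono (Set.subset_union_left : K ⊆ K ∪ {d0})) ?_
    exact le_iSup (fun X : {X : Set ℝ // X ⊆ D ∧ IsCompact X ∧ X.Nonempty} => volume X.1)
      ⟨K ∪ {d0}, Set.union_subset hK (by simpa using hd0), hKc.union isCompact_singleton,
        ⟨d0, by simp⟩⟩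
  obtain ⟨a0, ha0⟩ := id hAn
  obtain ⟨b0, hb0⟩ := id hBn
  have : Nonempty {X : Set ℝ // X ⊆ A ∧ IsCompact X ∧ X.Nonempty} :=
    ⟨⟨{a0}, by simpa using ha0, isCompact_singleton, by simp⟩⟩
  have : Nonempty {X : Set ℝ // X ⊆ B ∧ IsCompact X ∧ X.Nonempty} :=
    ⟨⟨{b0}, by simpa using hb0, isCompact_singleton, by simp⟩⟩
  rw [sup_eq A hA hAn, sup_eq B hB hBn, ENNReal.mul_iSup, ENNReal.mul_iSup]
  refine ENNReal.iSup_add_iSup_le ?_
  rintro ⟨X, hX1, hX2, hX3⟩ ⟨Y, hY1, hY2, hY3⟩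
  exact key X Y hX1 hY1 hX2 hY2 hX3 hY3

end Vale.Agent.P074.OneDim
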