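import Mathlib
import Vale.Agent.P074.OneDimBM

open MeasureTheory Set
open scoped ENNReal Pointwise

namespace Vale.Agent.P074.OneDim

theorem ennreal_amgm {t : ℝ} (ht0 : 0 < t) (ht1 : t < 1) (a b : ℝ≥0∞) :
    a ^ (1 - t) * b ^ t ≤ ENNReal.ofReal (1 - t) * a + ENNReal.ofReal t * b := by
  have h1t : 0 < 1 - t := by linarith
  by_cases ha : a = ⊤
  · rw [ha, ENNReal.mul_top (by simpa using ht1), top_add]; exact le_top
  by_cases hb : b = ⊤
  · rw [hb, ENNReal.mul_top (by simpa using ht0), add_top]; exact le_top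
  have e1 : a = ENNReal.ofReal a.toReal := (ENNReal.ofReal_toReal ha).symm
  have e2 : b = ENNReal.ofReal b.toReal := (ENNReal.ofReal_toReal hb).symm
  rw [e1, e2, ENNReal.ofReal_rpow_of_nonneg ENNReal.toReal_nonneg h1t.le,
    ENNReal.ofReal_rpow_of_nonneg ENNReal.toReal_nonneg ht0.le,
    ← ENNReal.ofReal_mul (by positivity), ← ENNReal.ofReal_mul h1t.le,
    ← ENNReal.ofReal_mul ht0.le, ← ENNReal.ofReal_add (by positivity) (by positivity)]
  exact ENNReal.ofReal_le_ofReal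
    (Real.geom_mean_le_arith_mean2_weighted h1t.le ht0.le ENNReal.toReal_nonneg
      ENNReal.toReal_nonneg (by ring))

/-- Normalised one-dimensional Prekopa-Leindler. -/
theorem pl1_norm {f g h : ℝ → ℝ} (hf : Measurable f) (hg : Measurable g) (hh : Measurable h)
    (hf0 : ∀ x, 0 ≤ f x) (hg0 : ∀ x, 0 ≤ g x) (hh0 : ∀ x, 0 ≤ h x)
    (hf1 : ∀ x, f x ≤ 1) (hg1 : ∀ x, g x ≤ 1)
    (hfs : ∀ τ < 1, ∃ x, τ < f x) (hgs : ∀ τ < 1, ∃ x, τ < g x)
    {t : ℝ} (ht0 : 0 < t) (ht1 : t < 1)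
    (hfgh : ∀ x y, f x ^ (1 - t) * g y ^ t ≤ h ((1 - t) * x + t * y)) :
    ENNReal.ofReal (1 - t) * (∫⁻ x, ENNReal.ofReal (f x)) +
      ENNReal.ofReal t * (∫⁻ x, ENNReal.ofReal (g x)) ≤ ∫⁻ x, ENNReal.ofReal (h x) := by
  have h1t : 0 < 1 - t := by linarith
  rw [lintegral_eq_lintegral_meas_lt _ (Filter.Eventually.of_forall hf0) hf.aemeasurable,
    lintegral_eq_lintegral_meas_lt _ (Filter.Eventually.of_forall hg0) hg.aemeasurable,
    lintegral_eq_lintegral_meas_lt _ (Filter.Eventually.of_forall hh0) hh.aemeasurable]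
  rw [← lintegral_const_mul' _ _ (by simp), ← lintegral_const_mul' _ _ (by simp)]
  rw [← lintegral_add_left']
  · refine setLIntegral_mono' measurableSet_Ioi ?_
    intro τ hτ
    simp only [mem_Ioi] at hτ
    by_cases hτ1 : τ < 1
    · refine bm1 (measurableSet_lt measurable_const hf) (measurableSet_lt measurable_const hg)
        (hfs τ hτ1) (hgs τ hτ1) h1t.le ht0.le ?_
      intro a ha b hb
      simp only [mem_ofPred_eq] at ha hb ⊢
      refine lt_of_lt_of_le ?_ (hfgh a b)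
      calc τ = τ ^ (1 - t) * τ ^ t := by
            rw [← Real.rpow_add hτ]; simp
        _ < f a ^ (1 - t) * g b ^ t := by
            apply mul_lt_mul''
            · exact Real.rpow_lt_rpow hτ.le ha h1t
            · exact Real.rpow_lt_rpow hτ.le hb ht0
            · positivity
            · positivity
    · have e1 : {a : ℝ | τ < f a} = ∅ := by
        ext a; simp only [mem_ofPred_eq, mem_empty_iff_false, iff_false, not_lt]
        have := hf1 a; linarith
      have e2 : {a : ℝ | τ < g a} = ∅ := by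
        ext a; simp only [mem_ofPred_eq, mem_empty_iff_false, iff_false, not_lt]
        have := hg1 a; linarith
      simp [e1, e2]
  · refine AEMeasurable.const_mul ?_ _
    have : Antitone (fun τ : ℝ => volume {a : ℝ | τ < f a}) := by
      intro x y hxy
      refine measure_mono ?_
      intro a ha
      simp only [mem_ofPred_eq] at ha ⊢
      linarith
    exact this.measurable.aemeasurable

/-- One-dimensional Prekopa-Leindler for bounded functions. -/
theorem pl1 {f g h : ℝ → ℝ} (hf : Measurable f) (hg : Measurable g) (hh : Measurable h)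
    (hf0 : ∀ x, 0 ≤ f x) (hg0 : ∀ x, 0 ≤ g x) (hh0 : ∀ x, 0 ≤ h x)
    (hfb : BddAbove (range f)) (hgb : BddAbove (range g))
    {t : ℝ} (ht0 : 0 < t) (ht1 : t < 1)
    (hfgh : ∀ x y, f x ^ (1 - t) * g y ^ t ≤ h ((1 - t) * x + t * y)) :
    (∫⁻ x, ENNReal.ofReal (f x)) ^ (1 - t) * (∫⁻ x, ENNReal.ofReal (g x)) ^ t
      ≤ ∫⁻ x, ENNReal.ofReal (h x) := by
  have h1t : 0 < 1 - t := by linarith
  set A := ⨆ x, f x with hAdef
  set B := ⨆ x, g x with hBdef
  have hfA : ∀ x, f x ≤ A := fun x => le_ciSup hfb x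
  have hgB : ∀ x, g x ≤ B := fun x => le_ciSup hgb x
  by_cases hA : A ≤ 0
  · have : ∀ x, f x = 0 := fun x => le_antisymm ((hfA x).trans hA) (hf0 x)
    simp [this, ENNReal.zero_rpow_of_pos h1t]
  by_cases hB : B ≤ 0
  · have : ∀ x, g x = 0 := fun x => le_antisymm ((hgB x).trans hB) (hg0 x)
    simp [this, ENNReal.zero_rpow_of_pos ht0]
  push Not at hA hB
  set D := A ^ (1 - t) * B ^ t with hD
  have hDpos : 0 < D := by positivity
  have key := pl1_norm (f := fun x => f x / A) (g := fun x => g x / B) (h := fun x => h x / D)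
    (hf.div_const _) (hg.div_const _) (hh.div_const _)
    (fun x => div_nonneg (hf0 x) hA.le) (fun x => div_nonneg (hg0 x) hB.le)
    (fun x => div_nonneg (hh0 x) hDpos.le)
    (fun x => (div_le_one hA).2 (hfA x)) (fun x => (div_le_one hB).2 (hgB x))
    (by
      intro τ hτ
      have : τ * A < A := by nlinarith
      obtain ⟨x, hx⟩ := exists_lt_of_lt_ciSup this
      exact ⟨x, by rwa [lt_div_iff₀ hA]⟩)
    (by
      intro τ hτ
      have : τ * B < B := by nlinarith
      obtain ⟨x, hx⟩ := exists_lt_of_lt_ciSup this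
      exact ⟨x, by rwa [lt_div_iff₀ hB]⟩)
    ht0 ht1
    (by
      intro x y
      rw [Real.div_rpow (hf0 x) hA.le, Real.div_rpow (hg0 y) hB.le, div_mul_div_comm]
      exact (div_le_div_iff_of_pos_right hDpos).2 (hfgh x y))
  have e1 : ∫⁻ x, ENNReal.ofReal (f x / A) = ENNReal.ofReal A⁻¹ * ∫⁻ x, ENNReal.ofReal (f x) := by
    rw [← lintegral_const_mul' _ _ (by simp)]
    refine lintegral_congr fun x => ?_
    rw [← ENNReal.ofReal_mul (by positivity), div_eq_inv_mul]
  have e2 : ∫⁻ x, ENNReal.ofReal (g x / B) = ENNReal.ofReal B⁻¹ * ∫⁻ x, ENNReal.ofReal (g x) := by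
    rw [← lintegral_const_mul' _ _ (by simp)]
    refine lintegral_congr fun x => ?_
    rw [← ENNReal.ofReal_mul (by positivity), div_eq_inv_mul]
  have e3 : ∫⁻ x, ENNReal.ofReal (h x / D) = ENNReal.ofReal D⁻¹ * ∫⁻ x, ENNReal.ofReal (h x) := by
    rw [← lintegral_const_mul' _ _ (by simp)]
    refine lintegral_congr fun x => ?_
    rw [← ENNReal.ofReal_mul (by positivity), div_eq_inv_mul]
  have k2 := (ennreal_amgm ht0 ht1 _ _).trans key
  rw [e1, e2, e3, ENNReal.mul_rpow_of_nonneg _ _ h1t.le, ENNReal.mul_rpow_of_nonneg _ _ ht0.le]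
    at k2
  have e4 : ENNReal.ofReal A⁻¹ ^ (1 - t) * ENNReal.ofReal B⁻¹ ^ t = ENNReal.ofReal D⁻¹ := by
    rw [ENNReal.ofReal_rpow_of_nonneg (by positivity) h1t.le,
      ENNReal.ofReal_rpow_of_nonneg (by positivity) ht0.le,
      ← ENNReal.ofReal_mul (by positivity)]
    congr 1
    rw [Real.inv_rpow hA.le, Real.inv_rpow hB.le, hD, mul_inv]
  have k3 : ENNReal.ofReal D⁻¹ * ((∫⁻ x, ENNReal.ofReal (f x)) ^ (1 - t) *
      (∫⁻ x, ENNReal.ofReal (g x)) ^ t) ≤ ENNReal.ofReal D⁻¹ * ∫⁻ x, ENNReal.ofReal (h x) := by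
    rw [← e4]
    rw [← e4] at k2
    calc _ = ENNReal.ofReal A⁻¹ ^ (1 - t) * (∫⁻ x, ENNReal.ofReal (f x)) ^ (1 - t) *
        (ENNReal.ofReal B⁻¹ ^ t * (∫⁻ x, ENNReal.ofReal (g x)) ^ t) := by ring
      _ ≤ _ := k2
  have hne : ENNReal.ofReal D⁻¹ ≠ 0 := by simp [hDpos]
  exact (ENNReal.mul_le_mul_iff_right hne (by simp)).1 k3

end Vale.Agent.P074.OneDim
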