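import Vale.Agent.P074.Defs
import Vale.Agent.P074.OneDimPL

open MeasureTheory Set Filter
open scoped ENNReal NNReal InnerProductSpace Topology

namespace Vale.Agent.P074

/-- One-dimensional Prékopa–Leindler, bounded case. -/
theorem pl_one_bdd {f g h : ℝ → ℝ≥0∞} (hf : Measurable f) (hg : Measurable g) (hh : Measurable h)
    (N : ℝ≥0∞) (hN : N ≠ ⊤) (hfN : ∀ x, f x ≤ N) (hgN : ∀ x, g x ≤ N)
    (H : ∀ x y, f x * g y ≤ h ((2 : ℝ)⁻¹ * (x + y)) ^ 2) :
    (∫⁻ x, f x) * (∫⁻ x, g x) ≤ (∫⁻ x, h x) ^ 2 := by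
  set h' : ℝ → ℝ≥0∞ := fun x => min (h x) N with hh'
  have hft : ∀ x, f x ≠ ⊤ := fun x => ne_top_of_le_ne_top hN (hfN x)
  have hgt : ∀ x, g x ≠ ⊤ := fun x => ne_top_of_le_ne_top hN (hgN x)
  have hht : ∀ x, h' x ≠ ⊤ := fun x => ne_top_of_le_ne_top hN (min_le_right _ _)
  have key : ∀ x y, f x * g y ≤ h' ((2 : ℝ)⁻¹ * (x + y)) ^ 2 := by
    intro x y
    rcases min_choice (h ((2 : ℝ)⁻¹ * (x + y))) N with hm | hm
    · simp only [hh', hm]; exact H x y
    · simp only [hh', hm, sq]; exact mul_le_mul' (hfN x) (hgN y)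
  have hpl := Vale.Agent.P074.OneDim.pl1 (f := fun x => (f x).toReal) (g := fun x => (g x).toReal)
    (h := fun x => (h' x).toReal) hf.ennreal_toReal hg.ennreal_toReal
    (hh.min measurable_const).ennreal_toReal (fun _ => ENNReal.toReal_nonneg)
    (fun _ => ENNReal.toReal_nonneg) (fun _ => ENNReal.toReal_nonneg)
    ⟨N.toReal, by rintro _ ⟨x, rfl⟩; exact ENNReal.toReal_mono hN (hfN x)⟩
    ⟨N.toReal, by rintro _ ⟨x, rfl⟩; exact ENNReal.toReal_mono hN (hgN x)⟩
    (t := 1 / 2) (by norm_num) (by norm_num) (by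
      intro x y
      have h1 : (1 - 1 / 2 : ℝ) * x + 1 / 2 * y = (2 : ℝ)⁻¹ * (x + y) := by ring
      rw [h1]
      have h2 := ENNReal.toReal_mono (by finiteness [hht ((2 : ℝ)⁻¹ * (x + y))]) (key x y)
      rw [ENNReal.toReal_mul, ENNReal.toReal_pow] at h2
      have h3 : (1 - 1 / 2 : ℝ) = 1 / 2 := by norm_num
      rw [h3, ← Real.mul_rpow ENNReal.toReal_nonneg ENNReal.toReal_nonneg, ← Real.sqrt_eq_rpow]
      exact Real.sqrt_le_iff.2 ⟨ENNReal.toReal_nonneg, h2⟩)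
  simp only [ENNReal.ofReal_toReal (hft _), ENNReal.ofReal_toReal (hgt _),
    ENNReal.ofReal_toReal (hht _)] at hpl
  have h3 : (1 - 1 / 2 : ℝ) = 1 / 2 := by norm_num
  rw [h3, ← ENNReal.mul_rpow_of_nonneg _ _ (by norm_num : (0 : ℝ) ≤ 1 / 2)] at hpl
  have h4 : ((∫⁻ x, f x) * ∫⁻ x, g x) = (((∫⁻ x, f x) * ∫⁻ x, g x) ^ (1 / 2 : ℝ)) ^ 2 := by
    rw [← ENNReal.rpow_natCast, ← ENNReal.rpow_mul]
    norm_num
  rw [h4]
  exact pow_le_pow_left' (hpl.trans (lintegral_mono fun x => min_le_left _ _)) 2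

/-- One-dimensional Prékopa–Leindler. -/
theorem pl_one {f g h : ℝ → ℝ≥0∞} (hf : Measurable f) (hg : Measurable g) (hh : Measurable h)
    (H : ∀ x y, f x * g y ≤ h ((2 : ℝ)⁻¹ * (x + y)) ^ 2) :
    (∫⁻ x, f x) * (∫⁻ x, g x) ≤ (∫⁻ x, h x) ^ 2 := by
  have hsup : ∀ u : ℝ → ℝ≥0∞, Measurable u →
      Tendsto (fun n : ℕ => ∫⁻ x, min (u x) (n : ℝ≥0∞)) atTop (𝓝 (∫⁻ x, u x)) := by
    intro u hu
    refine lintegral_tendsto_of_tendsto_of_monotone (fun n => (hu.min measurable_const).aemeasurable)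
      (ae_of_all _ fun x => ?_) (ae_of_all _ fun x => ?_)
    · intro m n hmn
      exact min_le_min le_rfl (by exact_mod_cast hmn)
    · have h1 : Tendsto (fun n : ℕ => min (u x) (n : ℝ≥0∞)) atTop (𝓝 (min (u x) ⊤)) :=
        tendsto_const_nhds.min ENNReal.tendsto_nat_nhds_top
      simpa using h1
  by_cases hf0 : (∫⁻ x, f x) = 0
  · rw [hf0, zero_mul]; exact bot_le
  by_cases hg0 : (∫⁻ x, g x) = 0
  · rw [hg0, mul_zero]; exact bot_le
  refine le_of_tendsto (ENNReal.Tendsto.mul (hsup f hf) (Or.inl hf0) (hsup g hg) (Or.inl hg0))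
    (Eventually.of_forall fun n => ?_)
  refine pl_one_bdd (hf.min measurable_const) (hg.min measurable_const) hh n (by finiteness)
    (fun x => min_le_right _ _) (fun x => min_le_right _ _) fun x y => ?_
  exact (mul_le_mul' (min_le_left _ _) (min_le_left _ _)).trans (H x y)

/-- Prékopa–Leindler on `Fin n → ℝ`. -/
theorem pl_pi (n : ℕ) : ∀ {f g h : (Fin n → ℝ) → ℝ≥0∞}, Measurable f → Measurable g →
    Measurable h → (∀ x y, f x * g y ≤ h ((2 : ℝ)⁻¹ • (x + y)) ^ 2) →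
    (∫⁻ x, f x) * (∫⁻ x, g x) ≤ (∫⁻ x, h x) ^ 2 := by
  induction n with
  | zero =>
    intro f g h hf hg hh H
    rw [lintegral_unique, lintegral_unique, lintegral_unique]
    have h1 : (volume : Measure (Fin 0 → ℝ)) univ = 1 := by
      rw [Measure.volume_pi_eq_dirac default]; simp
    simp only [h1, mul_one]
    refine (H _ _).trans (le_of_eq ?_)
    exact congrArg (fun z => h z ^ 2) (Subsingleton.elim _ _)
  | succ n ih =>
    intro f g h hf hg hh H
    have e := volume_preserving_piFinSuccAbove (fun _ : Fin (n + 1) => ℝ) 0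
    set E := MeasurableEquiv.piFinSuccAbove (fun _ : Fin (n + 1) => ℝ) 0 with hE
    have hint : ∀ u : (Fin (n + 1) → ℝ) → ℝ≥0∞, Measurable u →
        ∫⁻ x, u x = ∫⁻ s : ℝ, ∫⁻ x' : Fin n → ℝ, u (E.symm (s, x')) := by
      intro u hu
      rw [← lintegral_prod (fun p => u (E.symm p)) (hu.comp E.symm.measurable).aemeasurable]
      have h1 := e.symm.lintegral_comp_emb E.symm.measurableEmbedding u
      rw [← h1]
      rfl
    have hmeas : ∀ u : (Fin (n + 1) → ℝ) → ℝ≥0∞, Measurable u →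
        Measurable fun s : ℝ => ∫⁻ x' : Fin n → ℝ, u (E.symm (s, x')) := fun u hu =>
      (hu.comp E.symm.measurable).lintegral_prod_right'
    rw [hint f hf, hint g hg, hint h hh]
    refine pl_one (hmeas f hf) (hmeas g hg) (hmeas h hh) fun s t => ?_
    refine ih (hf.comp (E.symm.measurable.comp measurable_prodMk_left))
      (hg.comp (E.symm.measurable.comp measurable_prodMk_left))
      (hh.comp (E.symm.measurable.comp measurable_prodMk_left)) fun x y => ?_
    have h1 : E.symm ((2 : ℝ)⁻¹ * (s + t), (2 : ℝ)⁻¹ • (x + y)) =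
        (2 : ℝ)⁻¹ • (E.symm (s, x) + E.symm (t, y)) := by
      ext j
      refine Fin.cases ?_ (fun k => ?_) j
      · simp [hE, MeasurableEquiv.piFinSuccAbove]
      · simp [hE, MeasurableEquiv.piFinSuccAbove]
        ring
    show f _ * g _ ≤ h (E.symm ((2 : ℝ)⁻¹ * (s + t), (2 : ℝ)⁻¹ • (x + y))) ^ 2
    rw [h1]
    exact H _ _

/-- Prékopa–Leindler at `t = 1/2` on Euclidean space. -/
theorem pl : S_PL := by
  intro d f g h hf hg hh H
  have e := PiLp.volume_preserving_toLp (Fin d)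
  have hint : ∀ u : Eu d → ℝ≥0∞, Measurable u →
      ∫⁻ x, u x = ∫⁻ x : Fin d → ℝ, u (WithLp.toLp 2 x) := fun u hu =>
    (e.lintegral_comp hu).symm
  rw [hint f hf, hint g hg, hint h hh]
  refine pl_pi d (hf.comp e.measurable) (hg.comp e.measurable) (hh.comp e.measurable) fun x y => ?_
  exact H _ _

end Vale.Agent.P074
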