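import Vale.Agent.P074.Defs

open MeasureTheory Set Filter
open scoped ENNReal NNReal InnerProductSpace Topology

namespace Vale.Agent.P074

variable {d : ℕ} {K : Set (Eu d)} {f g : Eu d → ℝ}

lemma measurableSet_of_compact (hK : IsCompact K) : MeasurableSet K := hK.isClosed.measurableSet

lemma volume_pos_of_interior (hi : (interior K).Nonempty) : 0 < volume K :=
  (isOpen_interior.measure_pos volume hi).trans_le (measure_mono interior_subset)

lemma volume_toReal_pos (hK : IsCompact K) (hi : (interior K).Nonempty) :
    0 < (volume K).toReal :=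
  ENNReal.toReal_pos (volume_pos_of_interior hi).ne' hK.measure_lt_top.ne

/-- Variance as an integral of a square: for every constant `c`. -/
lemma integral_sq_sub_const (hK : IsCompact K) (hvol : 0 < (volume K).toReal)
    (hf : IntegrableOn f K) (hf2 : IntegrableOn (fun x => (f x) ^ 2) K) (c : ℝ) :
    ∫ x in K, (f x - c) ^ 2 =
      var K f + (volume K).toReal * (c - (∫ x in K, f x) / (volume K).toReal) ^ 2 := by
  have hfin : volume K ≠ ∞ := hK.measure_lt_top.ne
  have : IsFiniteMeasure (volume.restrict K) := ⟨by simpa using hK.measure_lt_top⟩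
  have e1 : ∀ x, (f x - c) ^ 2 = (f x) ^ 2 - 2 * c * f x + c ^ 2 := by intro x; ring
  simp_rw [e1]
  have i1 : Integrable (fun x => f x ^ 2 - 2 * c * f x) (volume.restrict K) :=
    Integrable.sub hf2 (hf.const_mul (2 * c))
  have i2 : Integrable (fun x => 2 * c * f x) (volume.restrict K) := hf.const_mul (2 * c)
  rw [integral_add i1 (integrable_const _), integral_sub hf2 i2, integral_const_mul,
    integral_const]
  unfold var
  simp only [MeasurableSet.univ, measureReal_restrict_apply, univ_inter, smul_eq_mul]
  unfold Measure.real
  field_simp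
  ring

lemma var_eq (hK : IsCompact K) (hvol : 0 < (volume K).toReal)
    (hf : IntegrableOn f K) (hf2 : IntegrableOn (fun x => (f x) ^ 2) K) :
    var K f = ∫ x in K, (f x - (∫ x in K, f x) / (volume K).toReal) ^ 2 := by
  rw [integral_sq_sub_const hK hvol hf hf2]
  simp

lemma var_nonneg (hK : IsCompact K) (hvol : 0 < (volume K).toReal)
    (hf : IntegrableOn f K) (hf2 : IntegrableOn (fun x => (f x) ^ 2) K) : 0 ≤ var K f := by
  rw [var_eq hK hvol hf hf2]
  exact integral_nonneg fun x => by positivity

lemma var_le (hK : IsCompact K) (hvol : 0 < (volume K).toReal)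
    (hf : IntegrableOn f K) (hf2 : IntegrableOn (fun x => (f x) ^ 2) K) (c : ℝ) :
    var K f ≤ ∫ x in K, (f x - c) ^ 2 := by
  rw [integral_sq_sub_const hK hvol hf hf2]
  have : 0 ≤ (volume K).toReal * (c - (∫ x in K, f x) / (volume K).toReal) ^ 2 := by positivity
  linarith

lemma integrableOn_sq_of_continuousOn (hK : IsCompact K) (hf : ContinuousOn f K) :
    IntegrableOn (fun x => (f x) ^ 2) K := (hf.pow 2).integrableOn_compact hK

lemma var_nonneg' (hK : IsCompact K) (hvol : 0 < (volume K).toReal) (hf : ContinuousOn f K) :
    0 ≤ var K f :=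
  var_nonneg hK hvol (hf.integrableOn_compact hK) (integrableOn_sq_of_continuousOn hK hf)

/-- Adding a constant does not change the variance. -/
lemma var_add_const (hK : IsCompact K) (hvol : 0 < (volume K).toReal)
    (hf : ContinuousOn f K) (c : ℝ) : var K (fun x => f x + c) = var K f := by
  have hc : ContinuousOn (fun x => f x + c) K := hf.add continuousOn_const
  have : IsFiniteMeasure (volume.restrict K) := ⟨by simpa using hK.measure_lt_top⟩
  rw [var_eq hK hvol (hc.integrableOn_compact hK) (integrableOn_sq_of_continuousOn hK hc),
    var_eq hK hvol (hf.integrableOn_compact hK) (integrableOn_sq_of_continuousOn hK hf)]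
  have : ∫ x in K, (f x + c) = (∫ x in K, f x) + (volume K).toReal * c := by
    rw [integral_add (hf.integrableOn_compact hK) (integrable_const _), integral_const]
    simp [Measure.real]
  rw [this]
  congr 1
  ext x
  have : ((∫ x in K, f x) + (volume K).toReal * c) / (volume K).toReal =
      (∫ x in K, f x) / (volume K).toReal + c := by field_simp
  rw [this]; ring

/-- `var (f+g) ≤ 2 var f + 2 var g`. -/
lemma var_add_le (hK : IsCompact K) (hvol : 0 < (volume K).toReal)
    (hf : ContinuousOn f K) (hg : ContinuousOn g K) :
    var K (fun x => f x + g x) ≤ 2 * var K f + 2 * var K g := by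
  have hfg : ContinuousOn (fun x => f x + g x) K := hf.add hg
  set a := (∫ x in K, f x) / (volume K).toReal with ha
  set b := (∫ x in K, g x) / (volume K).toReal with hb
  have h1 := var_le hK hvol (hfg.integrableOn_compact hK)
    (integrableOn_sq_of_continuousOn hK hfg) (a + b)
  have h2 : var K f = ∫ x in K, (f x - a) ^ 2 :=
    var_eq hK hvol (hf.integrableOn_compact hK) (integrableOn_sq_of_continuousOn hK hf)
  have h3 : var K g = ∫ x in K, (g x - b) ^ 2 :=
    var_eq hK hvol (hg.integrableOn_compact hK) (integrableOn_sq_of_continuousOn hK hg)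
  rw [h2, h3, ← integral_const_mul, ← integral_const_mul, ← integral_add]
  · refine h1.trans ?_
    apply integral_mono
    · exact (((hfg.sub continuousOn_const).pow 2)).integrableOn_compact hK
    · exact ((((hf.sub continuousOn_const).pow 2)).integrableOn_compact hK).const_mul 2 |>.add
        (((((hg.sub continuousOn_const).pow 2)).integrableOn_compact hK).const_mul 2)
    · intro x
      simp only
      nlinarith [sq_nonneg ((f x - a) - (g x - b))]
  · exact ((((hf.sub continuousOn_const).pow 2)).integrableOn_compact hK).const_mul 2
  · exact ((((hg.sub continuousOn_const).pow 2)).integrableOn_compact hK).const_mul 2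

/-- the covariance-type identity: `var f = ∫ f (f - mean)`. -/
lemma var_eq_integral_mul (hK : IsCompact K) (_hvol : 0 < (volume K).toReal)
    (hf : ContinuousOn f K) :
    var K f = ∫ x in K, f x * (f x - (∫ x in K, f x) / (volume K).toReal) := by
  have e : ∀ x, f x * (f x - (∫ x in K, f x) / (volume K).toReal) =
      f x ^ 2 - (∫ x in K, f x) / (volume K).toReal * f x := by intro x; ring
  simp_rw [e]
  rw [integral_sub (integrableOn_sq_of_continuousOn hK hf)
    ((hf.integrableOn_compact hK).const_mul _), integral_const_mul]
  unfold var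
  ring

end Vale.Agent.P074
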